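import Vale.Agent.P240.D.Stmt

/-! P240 T/Stmt: field and graph automorphisms of linear groups, special linear and unitary groups. -/

namespace Vale.Agent.P240

open Matrix

/-- The inverse transpose. -/
def gT {n : ℕ} {K : Type} [Field K] (g : GL (Fin n) K) : GL (Fin n) K where
  val := ((g⁻¹ : GL (Fin n) K) : Matrix (Fin n) (Fin n) K)ᵀ
  inv := (g : Matrix (Fin n) (Fin n) K)ᵀ
  val_inv := by rw [← transpose_mul, Units.mul_inv, transpose_one]
  inv_val := by rw [← transpose_mul, Units.inv_mul, transpose_one]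

/-- Apply the field automorphism `σ` to the entries, then the inverse transpose if `ε = -1`. -/
def al {n : ℕ} {K : Type} [Field K] (σ : RingAut K) (ε : ℤˣ) (g : GL (Fin n) K) : GL (Fin n) K :=
  if ε = 1 then GeneralLinearGroup.map (σ : K →+* K) g
  else gT (GeneralLinearGroup.map (σ : K →+* K) g)

theorem al_one {n : ℕ} {K : Type} [Field K] (σ : RingAut K) (ε : ℤˣ) :
    al σ ε (1 : GL (Fin n) K) = 1 := by
  unfold al
  split_ifs
  · exact map_one _
  · rw [map_one]
    exact Units.ext (by simp [gT])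

theorem al_mul {n : ℕ} {K : Type} [Field K] (σ : RingAut K) (ε : ℤˣ) (g h : GL (Fin n) K) :
    al σ ε (g * h) = al σ ε g * al σ ε h := by
  unfold al
  split_ifs
  · exact map_mul _ _ _
  · rw [map_mul]
    exact Units.ext (by simp [gT])

theorem al_inv {n : ℕ} {K : Type} [Field K] (σ : RingAut K) (ε : ℤˣ) (g : GL (Fin n) K) :
    al σ ε g⁻¹ = (al σ ε g)⁻¹ :=
  eq_inv_of_mul_eq_one_left (by rw [← al_mul, inv_mul_cancel, al_one])

theorem gu_mul {n : ℕ} {K : Type} [Field K] {σ : RingAut K} {a b : GL (Fin n) K}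
    (ha : al σ (-1) a = a) (hb : al σ (-1) b = b) : al σ (-1) (a * b) = a * b := by
  rw [al_mul, ha, hb]

theorem gu_inv {n : ℕ} {K : Type} [Field K] {σ : RingAut K} {a : GL (Fin n) K}
    (ha : al σ (-1) a = a) : al σ (-1) a⁻¹ = a⁻¹ := by
  rw [al_inv, ha]

/-- The unitary group of the form `∑ σ(x_i) y_i`: matrices with `σ(g)ᵀ g = 1`. -/
def GU (n : ℕ) {K : Type} [Field K] (σ : RingAut K) : Subgroup (GL (Fin n) K) where
  carrier := {g | al σ (-1) g = g}
  one_mem' := al_one σ (-1)
  mul_mem' := gu_mul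
  inv_mem' := gu_inv

/-- Matrices of determinant one. -/
def SG (n : ℕ) (K : Type) [Field K] : Subgroup (GL (Fin n) K) :=
  (GeneralLinearGroup.det : GL (Fin n) K →* Kˣ).ker

/-- The image in `PGL(n, K)` of a group of matrices. -/
def Pr {n : ℕ} {K : Type} [Field K] (S : Subgroup (GL (Fin n) K)) :
    Subgroup (ProjGenLinGroup (Fin n) K) :=
  S.map ProjGenLinGroup.mk

/-- The class of `g'` is the image of the class of `g` under the automorphism given by `y`, `σ`,
`ε`, namely `g` goes to `y * al σ ε g * y⁻¹`. -/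
def Tw {n : ℕ} {K : Type} [Field K] (y : GL (Fin n) K) (σ : RingAut K) (ε : ℤˣ)
    (a a' : ProjGenLinGroup (Fin n) K) : Prop :=
  ∀ g, a = ProjGenLinGroup.mk g → a' = ProjGenLinGroup.mk (y * al σ ε g * y⁻¹)

end Vale.Agent.P240
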