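import Vale.Agent.P240.D.Defs
import Vale.Agent.P240.T.Stmt

/-! P240 T/Act. The action on PGL. Plan: al maps scalars to scalars, so it induces a map on the
quotient (QuotientGroup.map or ProjGenLinGroup.lift); al_comp gives the inverse and map_mul;
use MonoidHom.toHomUnits style constructions or build the MulEquiv by hand. -/

namespace Vale.Agent.P240

open Matrix

variable {n : ℕ} {K : Type} [Field K]

theorem pos_TAct (σ : RingAut K) (g : GL (Fin n) K) :
    al σ 1 g = GeneralLinearGroup.map (σ : K →+* K) g := if_pos rfl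

theorem neg_TAct (σ : RingAut K) (g : GL (Fin n) K) :
    al σ (-1) g = gT (GeneralLinearGroup.map (σ : K →+* K) g) := if_neg (by decide)

theorem gT_TAct {g : GL (Fin n) K} (hg : g ∈ OG n K) : gT g = g := by
  have h : (g : Matrix (Fin n) (Fin n) K)ᵀ * (g : Matrix (Fin n) (Fin n) K) = 1 := hg
  have h1 : ((g⁻¹ : GL (Fin n) K) : Matrix (Fin n) (Fin n) K) = (g : Matrix (Fin n) (Fin n) K)ᵀ :=
    Units.inv_eq_of_mul_eq_one_left h
  exact Units.ext (congrArg transpose h1)

theorem og_TAct (σ : RingAut K) {g : GL (Fin n) K} (hg : g ∈ OG n K) :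
    GeneralLinearGroup.map (σ : K →+* K) g ∈ OG n K := by
  have h : (g : Matrix (Fin n) (Fin n) K)ᵀ * (g : Matrix (Fin n) (Fin n) K) = 1 := hg
  have h1 := congrArg (σ : K →+* K).mapMatrix h
  rw [map_mul, map_one] at h1
  exact h1

theorem al_comp (σ τ : RingAut K) (ε δ : ℤˣ) (g : GL (Fin n) K) :
    al (σ * τ) (ε * δ) g = al σ ε (al τ δ g) := by
  rcases Int.units_eq_one_or ε with rfl | rfl <;> rcases Int.units_eq_one_or δ with rfl | rfl
  · rw [mul_one, pos_TAct, pos_TAct, pos_TAct]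
    rfl
  · rw [one_mul, neg_TAct, pos_TAct, neg_TAct]
    rfl
  · rw [mul_one, neg_TAct, neg_TAct, pos_TAct]
    rfl
  · rw [neg_mul_neg, mul_one, pos_TAct, neg_TAct, neg_TAct]
    rfl

theorem al_id (g : GL (Fin n) K) : al (1 : RingAut K) 1 g = g := by
  rw [pos_TAct]
  rfl

theorem al_dg (σ : RingAut K) (ε : ℤˣ) {d : Fin n → Kˣ} (hd : ∀ i, d i = 1 ∨ d i = -1) :
    al σ ε (dg d) = dg d := by
  have h1 : GeneralLinearGroup.map (σ : K →+* K) (dg d) = dg d := by
    refine Units.ext ((diagonal_map (map_zero (σ : K →+* K))).trans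
      (congrArg diagonal (funext fun i => ?_)))
    rcases hd i with h | h <;> simp [h]
  have h2 : dg d ∈ OG n K := by
    show (diagonal fun i => (d i : K))ᵀ * (diagonal fun i => (d i : K)) = 1
    rw [diagonal_transpose, diagonal_mul_diagonal, ← diagonal_one]
    refine congrArg diagonal (funext fun i => ?_)
    rcases hd i with h | h <;> simp [h]
  rcases Int.units_eq_one_or ε with rfl | rfl
  · rw [pos_TAct, h1]
  · rw [neg_TAct, h1, gT_TAct h2]

theorem al_og (σ : RingAut K) (ε : ℤˣ) {g : GL (Fin n) K} (hg : g ∈ OG n K) :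
    al σ ε g = al σ 1 g ∧ al σ ε g ∈ OG n K := by
  rcases Int.units_eq_one_or ε with rfl | rfl
  · exact ⟨rfl, by rw [pos_TAct]; exact og_TAct σ hg⟩
  · rw [neg_TAct, pos_TAct, gT_TAct (og_TAct σ hg)]
    exact ⟨rfl, og_TAct σ hg⟩

theorem al_det (σ : RingAut K) (ε : ℤˣ) (g : GL (Fin n) K) :
    ((GeneralLinearGroup.det (al σ ε g) : Kˣ) : K) =
      σ ((GeneralLinearGroup.det g : Kˣ) : K) ^ ((ε : ℤˣ) : ℤ) := by
  have h1 : ∀ g : GL (Fin n) K,
      ((GeneralLinearGroup.det (GeneralLinearGroup.map (σ : K →+* K) g) : Kˣ) : K) =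
        σ ((GeneralLinearGroup.det g : Kˣ) : K) := fun g =>
    ((σ : K →+* K).map_det (g : Matrix (Fin n) (Fin n) K)).symm
  have h2 : ∀ g : GL (Fin n) K, GeneralLinearGroup.det (gT g) = GeneralLinearGroup.det g⁻¹ :=
    fun g => Units.ext (det_transpose _)
  rcases Int.units_eq_one_or ε with rfl | rfl
  · rw [pos_TAct, h1, Units.val_one, zpow_one]
  · rw [neg_TAct, h2, map_inv, Units.val_inv_eq_inv_val, h1, Units.val_neg, Units.val_one,
      _root_.zpow_neg_one]

theorem exists_act (n : ℕ) (K : Type) [Field K] :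
    ∃ act : RingAut K × ℤˣ →* MulAut (ProjGenLinGroup (Fin n) K), ∀ q g,
      act q (ProjGenLinGroup.mk g) = ProjGenLinGroup.mk (al q.1 q.2 g) := by
  have h0 : ∀ (q : RingAut K × ℤˣ) (g : GL (Fin n) K), al q.1 q.2 (al q⁻¹.1 q⁻¹.2 g) = g :=
    fun q g => by rw [← al_comp, Prod.fst_inv, Prod.snd_inv, mul_inv_cancel, mul_inv_cancel, al_id]
  let f : RingAut K × ℤˣ → ProjGenLinGroup (Fin n) K →* ProjGenLinGroup (Fin n) K := fun q =>
    QuotientGroup.map _ _ (MonoidHom.mk' (al q.1 q.2) (al_mul q.1 q.2)) fun z hz =>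
      Subgroup.mem_center_iff.2 fun g => by
        show g * al q.1 q.2 z = al q.1 q.2 z * g
        rw [← h0 q g, ← al_mul, ← al_mul, Subgroup.mem_center_iff.1 hz]
  have hf : ∀ q g, f q (ProjGenLinGroup.mk g) = ProjGenLinGroup.mk (al q.1 q.2 g) := fun _ _ => rfl
  have h1 : ∀ q a, f q (f q⁻¹ a) = a := fun q a => by
    obtain ⟨g, rfl⟩ := ProjGenLinGroup.mk_surjective a
    rw [hf, hf, h0]
  have h2 : ∀ q a, f q⁻¹ (f q a) = a := fun q a => by
    have h3 := h1 q⁻¹ a
    rwa [inv_inv] at h3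
  refine ⟨MonoidHom.mk' (fun q => (f q).toMulEquiv (f q⁻¹) (MonoidHom.ext (h2 q))
    (MonoidHom.ext (h1 q))) fun q q' => MulEquiv.ext fun a => ?_, hf⟩
  obtain ⟨g, rfl⟩ := ProjGenLinGroup.mk_surjective a
  exact congrArg ProjGenLinGroup.mk (al_comp q.1 q'.1 q.2 q'.2 g)

end Vale.Agent.P240
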