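import Vale.Agent.P240.E.Def2
import Vale.Agent.P240.T.Act

/-! P240 T/Defs: the extension of PGL by field and graph automorphisms and the twisted tuples. -/

namespace Vale.Agent.P240

open Matrix

/-- The action of field and graph automorphisms. -/
noncomputable def act (n : ℕ) (K : Type) [Field K] :
    RingAut K × ℤˣ →* MulAut (ProjGenLinGroup (Fin n) K) :=
  (exists_act n K).choose

theorem act_mk {n : ℕ} {K : Type} [Field K] (q : RingAut K × ℤˣ) (g : GL (Fin n) K) :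
    act n K q (ProjGenLinGroup.mk g) = ProjGenLinGroup.mk (al q.1 q.2 g) :=
  (exists_act n K).choose_spec q g

/-- The extended group. -/
abbrev MM (n : ℕ) (K : Type) [Field K] : Type :=
  ProjGenLinGroup (Fin n) K ⋊[act n K] (RingAut K × ℤˣ)

/-- The image of a matrix in the extended group. -/
noncomputable def hat {n : ℕ} {K : Type} [Field K] : GL (Fin n) K →* MM n K :=
  (SemidirectProduct.inl).comp ProjGenLinGroup.mk

/-- The standard twisted tuple. -/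
noncomputable def tw0 {s : ℕ} (m : ℕ) {K : Type} [Field K] (β : Fin s → RingAut K × ℤˣ) :
    Fin s ⊕ Fin (m + 1) → MM (m + 1 + 1) K
  | Sum.inl i => SemidirectProduct.inr (β i)
  | Sum.inr k => if k = 0 then SemidirectProduct.inr (List.ofFn β).prod * hat (rho (m + 1) K 0)
      else hat (rho (m + 1) K k)

/-- The twisted tuple attached to a matrix. -/
noncomputable def tw {s : ℕ} (m : ℕ) {K : Type} [Field K] (β : Fin s → RingAut K × ℤˣ)
    (g : GL (Fin (m + 1 + 1)) K) (j : Lex (Fin s ⊕ Fin (m + 1))) : MM (m + 1 + 1) K :=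
  hat g * tw0 m β (ofLex j) * (hat g)⁻¹

/-- Independent commuting involutions. -/
structure Ind {Q : Type*} [Group Q] {s : ℕ} (β : Fin s → Q) : Prop where
  sq : ∀ i, β i * β i = 1
  comm : ∀ i i', β i * β i' = β i' * β i
  indep : ∀ i, β i ∉ Subgroup.closure (β '' {i' | i' ≠ i})

/-- The weight of a matrix. -/
def w1 {m : ℕ} {K : Type} [Field K] (ψ : (Fin (m + 1) → K) → ℚ) (z : Fin (m + 1) → K)
    (g : GL (Fin (m + 1)) K) : ℚ :=
  ψ fun i => (((g⁻¹ : GL (Fin (m + 1)) K) : Matrix (Fin (m + 1)) (Fin (m + 1)) K) *ᵥ z) i ^ 2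

/-- Vanishing of the averages over the rotations `S` for `x^2 + e y^2`. -/
def VanE {m : ℕ} {K : Type} [Field K] (ψ : (Fin (m + 1) → K) → ℚ) (k : Fin m) (e : K)
    (S : Finset (K × K)) : Prop :=
  ∀ (x : Fin (m + 1) → K) (u v : K), ∑ p ∈ S,
    ψ (upd x k ((p.1 * u + e * p.2 * v) ^ 2) ((p.1 * v - p.2 * u) ^ 2)) = 0

/-- The position at which the face `j` is cancelled. -/
def pos {s m : ℕ} : Fin s ⊕ Fin (m + 1) → Fin (m + 1)
  | Sum.inl _ => 0
  | Sum.inr k => k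

/-- The colour conditions on the weight function. -/
structure Col {m : ℕ} {K : Type} [Field K] (W : Subgroup Kˣ) (X₀ : Finset K)
    (ψ : (Fin (m + 1) → K) → ℚ) (z : Fin (m + 1) → K) : Prop where
  ne : ψ (fun i => z i ^ 2) ≠ 0
  last : ∀ x, ψ x ≠ 0 → x (Fin.last m) ∈ X₀
  other : ∀ x, ψ x ≠ 0 → ∀ k : Fin m, ∀ μ ∈ W, (μ : K) * x k.castSucc ∉ X₀
  free : ∀ x ∈ X₀, ∀ μ ∈ W, (μ : K) * x ∈ X₀ → μ = 1

/-- The hypothesis on the index group used for detection. -/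
def DetHyp {s n : ℕ} {K : Type} [Field K] (β : Fin s → RingAut K × ℤˣ) (Γ : Subgroup (GL (Fin n) K))
    (W : Subgroup Kˣ) : Prop :=
  Γ ≤ OG n K ∨ ∃ i, ∀ g ∈ Γ, al (β i).1 (β i).2 g = gT g ∧ GeneralLinearGroup.det g = 1 ∧
    ∀ (a b : Fin n) (u : Kˣ), (∀ a', a' ≠ a → (g : Matrix (Fin n) (Fin n) K) a' b = 0) →
      (g : Matrix (Fin n) (Fin n) K) a b = u → (u ^ 2) ^ (2 * n) = 1 → u ^ 2 ∈ W

/-- The rotations needed to cancel all faces lie in `Γ`. -/
def RotHyp {s m : ℕ} {K : Type} [Field K] (β : Fin s → RingAut K × ℤˣ)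
    (Γ : Subgroup (GL (Fin (m + 1 + 1)) K)) (E : Fin s ⊕ Fin (m + 1) → K)
    (S : Fin s ⊕ Fin (m + 1) → Finset (K × K)) : Prop :=
  ∀ j, Rot (E j) (S j) ∧ ∀ p ∈ S j, ∀ B : GL (Fin (m + 1 + 1)) K,
    (B : Matrix (Fin (m + 1 + 1)) (Fin (m + 1 + 1)) K) = rotm (pos j) (E j) p.1 p.2 →
      B ∈ Γ ∧ ∀ i, al (β i).1 (β i).2 B =
        if j = Sum.inl i then rho (m + 1) K 0 * B * rho (m + 1) K 0 else B

/-- The subgroup of the extended group with given linear and outer parts. -/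
def NN {n : ℕ} {K : Type} [Field K] (N : Subgroup (ProjGenLinGroup (Fin n) K))
    (Q : Subgroup (RingAut K × ℤˣ)) (h : ∀ q ∈ Q, ∀ y ∈ N, act n K q y ∈ N) : Subgroup (MM n K) where
  carrier := {x | x.left ∈ N ∧ x.right ∈ Q}
  one_mem' := ⟨N.one_mem, Q.one_mem⟩
  mul_mem' := fun ha hb => ⟨N.mul_mem ha.1 (h _ ha.2 _ hb.1), Q.mul_mem ha.2 hb.2⟩
  inv_mem' := fun ha => ⟨h _ (Q.inv_mem ha.2) _ (N.inv_mem ha.1), Q.inv_mem ha.2⟩

end Vale.Agent.P240
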