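import Vale.Agent.P240.D.Key
import Vale.Agent.P240.T.Defs

/-! P240 T/Sub. Involutions of a finite field. Plan: K is an algebra over ZMod p, automorphisms are
powers of Frobenius (FiniteField.exists_forall_apply_eq_pow or bijective_frobeniusAlgEquivOfAlgebraic_pow,
or IsCyclic of the Galois group). For sigma of order two let F0 be the fixed subfield; card K =
card F0 ^ 2 (FixedPoints.finrank_eq_card, or the maps x + sigma x and x - sigma x), sigma x = x ^ q0.
Elements of F0 are squares in K (x ^ ((q - 1) / 2) = 1). Take eps nonzero with sigma eps = -eps and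
apply circle_card in F0 with e or e * eps^2. -/

namespace Vale.Agent.P240

open Matrix SemidirectProduct

variable {K : Type} [Field K]

/-- Rotations with real first and real or imaginary second coordinate. -/
def SC [Fintype K] [DecidableEq K] (σ : RingAut K) (e η : K) : Finset (K × K) :=
  Finset.univ.filter fun p => σ p.1 = p.1 ∧ σ p.2 = η * p.2 ∧ p.1 ^ 2 + e * p.2 ^ 2 = 1

theorem pow_TSub [Finite K] (F : Subfield K) (σ : RingAut K) (hF : ∀ x ∈ F, σ x = x) :
    ∃ i < Module.finrank F K, ∀ x, σ x = x ^ (Nat.card F ^ i) := by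
  have := Fintype.ofFinite F
  obtain ⟨i, hi⟩ := (FiniteField.bijective_frobeniusAlgHom_pow F K).2
    ⟨(σ : K →+* K), fun r => hF r r.2⟩
  refine ⟨i, i.2, fun x => ?_⟩
  have h := DFunLike.congr_fun hi x
  rw [AlgHom.coe_pow, FiniteField.coe_frobeniusAlgHom, pow_iterate] at h
  rw [Nat.card_eq_fintype_card]
  exact h.symm

theorem fix_TSub [Finite K] {σ : RingAut K} (hσ : σ * σ = 1) (h1 : σ ≠ 1) :
    ∃ F : Subfield K, (∀ x, x ∈ F ↔ σ x = x) ∧ Nat.card K = Nat.card F ^ 2 ∧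
      ∀ x, σ x = x ^ Nat.card F := by
  have ho : orderOf σ = 2 := orderOf_eq_prime (by rw [sq, hσ]) h1
  have : Finite (RingAut K) := Finite.of_injective _ DFunLike.coe_injective
  have := Fintype.ofFinite (Subgroup.zpowers σ)
  have h2 : Module.finrank (FixedPoints.subfield (Subgroup.zpowers σ) K) K = 2 := by
    rw [FixedPoints.finrank_eq_card, ← Nat.card_eq_fintype_card, Nat.card_zpowers, ho]
  have h3 : ∀ x, x ∈ FixedPoints.subfield (Subgroup.zpowers σ) K ↔ σ x = x := fun x =>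
    ⟨fun h => h ⟨σ, Subgroup.mem_zpowers σ⟩, fun h g =>
      (Subgroup.zpowers_le (H := MulAction.stabilizer (RingAut K) x)).2 h g.2⟩
  refine ⟨_, h3, by rw [← h2]; exact Module.natCard_eq_pow_finrank, ?_⟩
  obtain ⟨i, hi, h4⟩ := pow_TSub _ σ fun x => (h3 x).1
  rw [h2] at hi
  interval_cases i
  · exact absurd (RingEquiv.ext fun x => by rw [h4, pow_zero, pow_one]; rfl) h1
  · simpa only [pow_one] using h4

theorem ringAut_comm [Finite K] (σ τ : RingAut K) : σ * τ = τ * σ := by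
  obtain ⟨i, -, hi⟩ := pow_TSub (RingHom.eqLocusField (σ : K →+* K) (RingHom.id K)) σ fun _ h => h
  refine RingEquiv.ext fun x => ?_
  show σ (τ x) = τ (σ x)
  rw [hi, hi, map_pow]

theorem inv_unique [Finite K] {σ τ : RingAut K} (hσ : σ * σ = 1) (hσ1 : σ ≠ 1) (hτ : τ * τ = 1)
    (hτ1 : τ ≠ 1) : σ = τ := by
  obtain ⟨F, -, h1, h2⟩ := fix_TSub hσ hσ1
  obtain ⟨F', -, h3, h4⟩ := fix_TSub hτ hτ1
  have h5 := Nat.pow_left_injective two_ne_zero (h1.symm.trans h3)
  exact RingEquiv.ext fun x => by rw [h2, h4, h5]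

theorem sub_circle [Fintype K] [DecidableEq K] (h2 : (2 : K) ≠ 0) {σ : RingAut K} (hσ : σ * σ = 1)
    (h1 : σ ≠ 1) : ∃ q₀ : ℕ, Fintype.card K = q₀ ^ 2 ∧ (∀ x, σ x = x ^ q₀) ∧
      (∀ x, σ x = x → IsSquare x) ∧ ∀ e η : K, (e = 1 ∨ e = -1) → (η = 1 ∨ η = -1) →
        Rot e (SC σ e η) ∧ q₀ ≤ (SC σ e η).card + 1 := by
  obtain ⟨F, hF, h3, h4⟩ := fix_TSub hσ h1
  have := Fintype.ofFinite F
  rw [Nat.card_eq_fintype_card] at h3
  refine ⟨_, h3, h4, fun x hx => ?_, fun e η he hη => ?_⟩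
  · by_cases h0 : x = 0
    · rw [h0]
      exact IsSquare.zero
    have hc : ringChar K ≠ 2 := fun h => h2 (by
      have h5 := ringChar.Nat.cast_ringChar (R := K)
      rwa [h, Nat.cast_ofNat] at h5)
    have h5 := FiniteField.odd_card_of_char_ne_two hc
    obtain ⟨k, hk⟩ : Odd (Nat.card F) :=
      (Nat.odd_pow_iff two_ne_zero).1 (h3 ▸ Nat.odd_iff.2 h5)
    have h6 : x ^ (2 * k) = 1 := by
      refine mul_right_cancel₀ h0 ?_
      rw [← pow_succ, ← hk, ← h4, hx, one_mul]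
    have h7 : Fintype.card K / 2 = 2 * k * (k + 1) := by
      rw [h3, hk, show (2 * k + 1) ^ 2 = 1 + 2 * (2 * k * (k + 1)) by ring]
      omega
    rw [FiniteField.isSquare_iff hc h0, h7, pow_mul, h6, one_pow]
  have e1 : σ e = e := by rcases he with rfl | rfl <;> simp
  have e2 : η * η = 1 := by rcases hη with rfl | rfl <;> simp
  have e3 : e ≠ 0 := by rcases he with rfl | rfl <;> simp
  refine ⟨⟨fun p hp => (Finset.mem_filter.1 hp).2.2.2, fun p hp p' hp' => ?_, by simp [SC]⟩, ?_⟩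
  · obtain ⟨a1, a2, a3⟩ := (Finset.mem_filter.1 hp).2
    obtain ⟨b1, b2, b3⟩ := (Finset.mem_filter.1 hp').2
    refine Finset.mem_filter.2 ⟨Finset.mem_univ _, ?_, ?_, ?_⟩
    · simp only [map_sub, map_mul, a1, a2, b1, b2, e1]
      linear_combination (-(e * p.2 * p'.2)) * e2
    · simp only [map_add, map_mul, a1, a2, b1, b2]
      ring
    · linear_combination (p'.1 ^ 2 + e * p'.2 ^ 2) * a3 + b3
  obtain ⟨ε, hε, hε'⟩ : ∃ ε : K, ε ≠ 0 ∧ σ ε = η * ε := by
    rcases hη with rfl | rfl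
    · exact ⟨1, one_ne_zero, by simp⟩
    · obtain ⟨y, hy⟩ : ∃ y, σ y ≠ y := not_forall.1 fun h => h1 (RingEquiv.ext h)
      have h5 : σ (σ y) = y := DFunLike.congr_fun hσ y
      exact ⟨σ y - y, sub_ne_zero.2 hy, by rw [map_sub, h5]; ring⟩
  have h5 : e * ε ^ 2 ∈ F := (hF _).2 (by
    rw [map_mul, map_pow, e1, hε']
    linear_combination e * ε ^ 2 * e2)
  have h6 := circle_card (F := F) (e := ⟨_, h5⟩) (fun h => h2 (congrArg Subtype.val h))
    fun h => mul_ne_zero e3 (pow_ne_zero 2 hε) (congrArg Subtype.val h)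
  rw [Nat.card_eq_fintype_card]
  refine h6.trans (Nat.succ_le_succ (Finset.card_le_card_of_injOn
    (fun p : F × F => ((p.1 : K), ε * p.2)) (fun p hp => ?_) fun p _ p' _ h => ?_))
  · have h7 := congrArg Subtype.val (Finset.mem_filter.1 (Finset.mem_coe.1 hp)).2
    refine Finset.mem_coe.2 (Finset.mem_filter.2 ⟨Finset.mem_univ _, (hF _).1 p.1.2, ?_, ?_⟩)
    · simp only [map_mul, hε', (hF _).1 p.2.2, mul_assoc]
    · push_cast at h7
      linear_combination h7
  · exact Prod.ext (Subtype.ext (congrArg Prod.fst h))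
      (Subtype.ext (mul_left_cancel₀ hε (congrArg Prod.snd h)))

theorem basis_Q [Finite K] (B : Subgroup (RingAut K × ℤˣ)) (hB : ∀ q ∈ B, q * q = 1) :
    B = Subgroup.closure (Set.range (![] : Fin 0 → RingAut K × ℤˣ)) ∨
      (∃ q, Ind ![q] ∧ B = Subgroup.closure (Set.range ![q])) ∨
      ∃ σ : RingAut K, σ * σ = 1 ∧ σ ≠ 1 ∧ Ind ![(σ, (1 : ℤˣ)), (1, -1)] ∧
        B = Subgroup.closure (Set.range ![(σ, (1 : ℤˣ)), (1, -1)]) := by
  by_cases h0 : ∀ q ∈ B, q = 1
  · left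
    rw [Matrix.range_empty, Subgroup.closure_empty]
    exact (Subgroup.eq_bot_iff_forall B).2 h0
  push Not at h0
  obtain ⟨q, hq, hq1⟩ := h0
  right
  by_cases h1 : ∀ q' ∈ B, q' = 1 ∨ q' = q
  · refine Or.inl ⟨q, ⟨fun i => ?_, fun i j => ?_, fun i => ?_⟩, le_antisymm (fun x hx => ?_) ?_⟩
    · simpa using hB q hq
    · simp
    · have h2 : {i' : Fin 1 | i' ≠ i} = ∅ := Set.eq_empty_of_forall_notMem fun j hj =>
        hj (Subsingleton.elim _ _)
      rw [h2, Set.image_empty, Subgroup.closure_empty]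
      simpa using hq1
    · rcases h1 x hx with rfl | rfl
      exacts [one_mem _, Subgroup.subset_closure ⟨0, rfl⟩]
    · simpa using hq
  push Not at h1
  obtain ⟨q', hq', h2, h3⟩ := h1
  right
  have k1 : ∀ x : RingAut K × ℤˣ, x ≠ 1 → x.1 = 1 → x = (1, -1) := fun x hx h =>
    Prod.ext h ((Int.units_eq_one_or x.2).resolve_left fun h' => hx (Prod.ext h h'))
  have k2 : ∀ x ∈ B, x.1 * x.1 = 1 := fun x hx => congrArg Prod.fst (hB x hx)
  obtain ⟨y, hy, hy1⟩ : ∃ y ∈ B, y.1 ≠ 1 := by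
    by_contra h
    push Not at h
    exact h3 ((k1 _ h2 (h _ hq')).trans (k1 _ hq1 (h _ hq)).symm)
  have k3 : ((1 : RingAut K), (-1 : ℤˣ)) ∈ B := by
    by_cases h4 : q.1 = 1
    · exact k1 q hq1 h4 ▸ hq
    by_cases h5 : q'.1 = 1
    · exact k1 q' h2 h5 ▸ hq'
    have h6 := inv_unique (k2 _ hq) h4 (k2 _ hq') h5
    refine k1 (q * q') (fun h => h3 ?_) (by rw [Prod.fst_mul, h6, k2 _ hq']) ▸ mul_mem hq hq'
    exact mul_left_cancel (h.trans (hB q hq).symm)
  have k4 : ∀ C : Subgroup (RingAut K × ℤˣ), ((1 : RingAut K), (-1 : ℤˣ)) ∈ C →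
      ∀ (a : RingAut K) (s s' : ℤˣ), (a, s) ∈ C → (a, s') ∈ C := fun C hC a s s' h => by
    have h4 := mul_mem h hC
    rcases Int.units_eq_one_or s with rfl | rfl <;> rcases Int.units_eq_one_or s' with rfl | rfl
    · exact h
    · simpa using h4
    · simpa using h4
    · exact h
  refine ⟨y.1, k2 y hy, hy1, ⟨fun i => ?_, fun i j => ?_, fun i hi => ?_⟩,
    le_antisymm (fun x hx => ?_) ?_⟩
  · fin_cases i <;> simp [k2 y hy]
  · fin_cases i <;> fin_cases j <;> simp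
  · fin_cases i
    · refine hy1 (MonoidHom.mem_ker.1
        ((Subgroup.closure_le (MonoidHom.fst (RingAut K) ℤˣ).ker).2 ?_ hi))
      rintro _ ⟨j, hj, rfl⟩
      fin_cases j
      exacts [absurd rfl hj, rfl]
    · refine absurd (MonoidHom.mem_ker.1
        ((Subgroup.closure_le (MonoidHom.snd (RingAut K) ℤˣ).ker).2 ?_ hi)) (by simp)
      rintro _ ⟨j, hj, rfl⟩
      fin_cases j
      exacts [rfl, absurd rfl hj]
  · refine k4 _ ?_ x.1 1 x.2 ?_
    · exact Subgroup.subset_closure ⟨1, rfl⟩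
    by_cases h4 : x.1 = 1
    · rw [h4]
      exact one_mem _
    · rw [inv_unique (k2 x hx) h4 (k2 y hy) hy1]
      exact Subgroup.subset_closure ⟨0, rfl⟩
  · refine (Subgroup.closure_le B).2 ?_
    rintro _ ⟨j, rfl⟩
    fin_cases j
    exacts [k4 B k3 y.1 y.2 1 hy, k3]

end Vale.Agent.P240
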