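import Vale.Agent.P240.D.Cent
import Vale.Agent.P240.T.Sub

/-! P240 T/Cent. Trivial centralizers. Plan: cent_real as cent_PH, with a real circle point a b nonzero
(sub_circle, q0 >= 7; circle_card if sigma = 1). x commutes with inl l iff
x.left * act x.right l = l * x.left. For real v of norm one al sigma eps (rf v) = rf v (al_og), and
mk (rf v) = mk (-rf v) lies in each of the three groups; so x.left = 1 and act x.right fixes the group.
B: if sigma is not 1 take a circle point v = a e_0 + b e_1 over K with a / b not real (count: at most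
2 (q0 + 1) points have real or infinite slope); mk (rf (sigma v)) = mk (rf v) forces sigma v parallel
to v (determinant, n odd). A: the same, and (1, -1) does not fix the class of a transvection. U: sigma
does not fix the class of dg (u, u⁻¹, 1, ..) with u * sigma u = 1, u ^ 2 different from 1. -/

namespace Vale.Agent.P240

open Matrix SemidirectProduct

variable {n : ℕ} {K : Type} [Field K] [Finite K]

omit [Finite K] in
theorem ss_TCent {σ : RingAut K} (hσ : σ * σ = 1) (x : K) : σ (σ x) = x :=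
  DFunLike.congr_fun hσ x

theorem real_TCent (h2 : (2 : K) ≠ 0) (hq : 49 ≤ Nat.card K) {σ : RingAut K} (hσ : σ * σ = 1) :
    ∃ t : K, σ t = t ∧ t ^ 5 - t ≠ 0 := by
  classical
  by_contra! h
  cases nonempty_fintype K
  obtain ⟨ε, h1, h3⟩ : ∃ ε : K, σ ε = -ε ∧ ∀ x, ε * (x - σ x) = 0 → x - σ x = 0 := by
    by_cases h0 : ∀ x, x - σ x = 0
    · exact ⟨0, by simp, fun x _ => h0 x⟩
    · push Not at h0
      obtain ⟨s, hs⟩ := h0
      exact ⟨s - σ s, by rw [map_sub, ss_TCent hσ, neg_sub],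
        fun x hx => (mul_eq_zero.1 hx).resolve_left hs⟩
  have hp : (Polynomial.X ^ 5 - Polynomial.X : Polynomial K) ≠ 0 :=
    FiniteField.X_pow_card_sub_X_ne_zero K (p := 5) (by norm_num)
  have hd : (Polynomial.X ^ 5 - Polynomial.X : Polynomial K).natDegree = 5 :=
    FiniteField.X_pow_card_sub_X_natDegree_eq K (by norm_num)
  obtain ⟨R, hR, hc⟩ : ∃ R : Finset K, (∀ t, σ t = t → t ∈ R) ∧ R.card ≤ 5 :=
    ⟨(Polynomial.X ^ 5 - Polynomial.X : Polynomial K).roots.toFinset, fun t ht => by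
      rw [Multiset.mem_toFinset, Polynomial.mem_roots hp]
      simpa using h t ht, (Multiset.toFinset_card_le _).trans ((Polynomial.card_roots' _).trans hd.le)⟩
  have := Finset.card_le_card_of_injOn (s := Finset.univ) (t := R ×ˢ R)
    (fun x : K => (x + σ x, ε * (x - σ x))) (fun x _ => by
      rw [Finset.mem_coe, Finset.mem_product]
      refine ⟨hR _ ?_, hR _ ?_⟩
      · rw [map_add, ss_TCent hσ, add_comm]
      · rw [map_mul, map_sub, ss_TCent hσ, h1]
        ring) (fun x _ y _ hxy => by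
      obtain ⟨e1, e2⟩ := Prod.mk.inj hxy
      have e3 := h3 (x - y) (by rw [map_sub]; linear_combination e2)
      rw [map_sub] at e3
      exact mul_left_cancel₀ h2 (by linear_combination e1 + e3))
  rw [Finset.card_product, Finset.card_univ, ← Nat.card_eq_fintype_card] at this
  nlinarith [Nat.mul_le_mul hc hc]

theorem pt_TCent (h2 : (2 : K) ≠ 0) (hq : 49 ≤ Nat.card K) {σ : RingAut K} (hσ : σ * σ = 1) :
    ∃ a b : K, σ a = a ∧ σ b = b ∧ a ≠ 0 ∧ b ≠ 0 ∧ a ^ 2 + b ^ 2 = 1 := by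
  obtain ⟨t, h0, ht⟩ := real_TCent h2 hq hσ
  have e : t ^ 5 - t = -(t * (1 - t ^ 2) * (1 + t ^ 2)) := by ring
  rw [e, neg_ne_zero, mul_ne_zero_iff, mul_ne_zero_iff] at ht
  obtain ⟨⟨h3, h4⟩, h5⟩ := ht
  refine ⟨(1 - t ^ 2) / (1 + t ^ 2), 2 * t / (1 + t ^ 2), by simp [h0], by simp [h0, map_ofNat],
    div_ne_zero h4 h5, div_ne_zero (mul_ne_zero h2 h3) h5, ?_⟩
  field_simp
  ring

theorem cent_real (h2 : (2 : K) ≠ 0) (hq : 49 ≤ Nat.card K) (hn : Odd n) (h3 : 3 ≤ n)
    {σ : RingAut K} (hσ : σ * σ = 1) {y : ProjGenLinGroup (Fin n) K}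
    (hy : ∀ v : Fin n → K, (∀ i, σ (v i) = v i) → v ⬝ᵥ v = 1 →
      y * ProjGenLinGroup.mk (rf v) = ProjGenLinGroup.mk (rf v) * y) : y = 1 := by
  have _ := h3
  obtain ⟨g, rfl⟩ := ProjGenLinGroup.mk_surjective y
  have key : ∀ v : Fin n → K, (∀ i, σ (v i) = v i) → v ⬝ᵥ v = 1 →
      ∃ c : K, (g : Matrix (Fin n) (Fin n) K) *ᵥ v = c • v := fun v hr hv =>
    eig_DCent h2 hn hv (hy v hr hv)
  have hs : ∀ (j : Fin n) (a : K), σ a = a → ∀ i,
      σ ((Pi.single j a : Fin n → K) i) = (Pi.single j a : Fin n → K) i := fun j a ha i => by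
    rw [Pi.single_apply]
    split_ifs
    · exact ha
    · exact map_zero σ
  have h0 : ∀ i j, i ≠ j → (g : Matrix (Fin n) (Fin n) K) i j = 0 := fun i j hij => by
    obtain ⟨c, hc⟩ := key (Pi.single j 1) (hs j 1 (map_one σ)) (by simp)
    simpa [hij] using congrFun hc i
  obtain ⟨a, b, ra, rb, ha, hb, hab⟩ := pt_TCent h2 hq hσ
  have h1 : ∀ i j, i ≠ j → (g : Matrix (Fin n) (Fin n) K) i i =
      (g : Matrix (Fin n) (Fin n) K) j j := fun i j hij => by
    obtain ⟨c, hc⟩ := key (Pi.single i a + Pi.single j b) (fun k => by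
      rw [Pi.add_apply, map_add, hs i a ra, hs j b rb]) (by simp [hij, hij.symm, ← hab, sq])
    have e1 := congrFun hc i
    have e2 := congrFun hc j
    simp [mulVec_add, hij, hij.symm, h0 i j hij, h0 j i hij.symm] at e1 e2
    exact (mul_left_cancel₀ ha (e1.trans (mul_comm _ _))).trans
      (mul_left_cancel₀ hb (e2.trans (mul_comm _ _))).symm
  rw [ProjGenLinGroup.mk_eq_one, GeneralLinearGroup.mem_center_iff_val_mem_range_scalar]
  refine ⟨(g : Matrix (Fin n) (Fin n) K) ⟨0, hn.pos⟩ ⟨0, hn.pos⟩, ?_⟩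
  ext i j
  by_cases hij : i = j
  · subst hij
    by_cases hi : ⟨0, hn.pos⟩ = i
    · simp [hi]
    · simp [h1 _ _ hi]
  · simp [hij, h0 i j hij]

omit [Finite K] in
theorem alv_TCent (σ : RingAut K) (g : GL (Fin n) K) (i j : Fin n) :
    (al σ 1 g : Matrix (Fin n) (Fin n) K) i j = σ ((g : Matrix (Fin n) (Fin n) K) i j) := by
  rw [al, if_pos rfl]
  rfl

omit [Finite K] in
theorem alrf_TCent (σ : RingAut K) (ε : ℤˣ) (v : Fin n → K) :
    al σ ε (rf v) = rf fun i => σ (v i) := by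
  rw [(al_og σ ε (rf_mem v)).1]
  refine Units.ext (Matrix.ext fun i j => ?_)
  rw [alv_TCent]
  change σ (rfm v i j) = rfm _ i j
  simp [rfm, vecMulVec_apply, dotProduct, one_apply, apply_ite σ, map_ofNat]

omit [Finite K] in
theorem comm_TCent {x : MM n K} {g : GL (Fin n) K}
    (h : x * inl (ProjGenLinGroup.mk g) = inl (ProjGenLinGroup.mk g) * x) :
    x.left * ProjGenLinGroup.mk (al x.right.1 x.right.2 g) = ProjGenLinGroup.mk g * x.left := by
  have := congrArg SemidirectProduct.left h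
  rwa [mul_left, mul_left, left_inl, right_inl, map_one, MulAut.one_apply, act_mk] at this

omit [Finite K] in
theorem inj_TCent {g g' : GL (Fin n) K} (h : ProjGenLinGroup.mk g = ProjGenLinGroup.mk g')
    {k : Fin n} (h1 : (g : Matrix (Fin n) (Fin n) K) k k = 1)
    (h2 : (g' : Matrix (Fin n) (Fin n) K) k k = 1) : g = g' := by
  obtain ⟨u, hu⟩ := ProjGenLinGroup.mk_eq_mk_iff.1 h
  have e := congrArg (fun x : GL (Fin n) K => (x : Matrix (Fin n) (Fin n) K) k k) hu
  have e' : u = 1 := by simpa [h1, h2] using e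
  rwa [e', map_one, mul_one] at hu

theorem left_TCent (h2 : (2 : K) ≠ 0) (hq : 49 ≤ Nat.card K) (hn : Odd n) (h3 : 3 ≤ n)
    {σ : RingAut K} (hσ : σ * σ = 1) {x : MM n K} (h1 : ∀ a, σ a = a → x.right.1 a = a)
    {N : Subgroup (ProjGenLinGroup (Fin n) K)}
    (hN : ∀ v : Fin n → K, (∀ i, σ (v i) = v i) → v ⬝ᵥ v = 1 → ProjGenLinGroup.mk (rf v) ∈ N)
    (hx : ∀ l ∈ N.map (inl : _ →* MM n K), x * l = l * x) :
    x.left = 1 ∧ ∀ g, ProjGenLinGroup.mk g ∈ N →
      ProjGenLinGroup.mk (al x.right.1 x.right.2 g) = ProjGenLinGroup.mk g := by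
  have h : x.left = 1 := cent_real h2 hq hn h3 hσ fun v hr hv => by
    have := comm_TCent (hx _ (Subgroup.mem_map_of_mem _ (hN v hr hv)))
    rwa [alrf_TCent, funext fun i => h1 _ (hr i)] at this
  refine ⟨h, fun g hg => ?_⟩
  have := comm_TCent (hx _ (Subgroup.mem_map_of_mem _ hg))
  rwa [h, one_mul, mul_one] at this

omit [Finite K] in
theorem sg_TCent (hn : Odd n) (v : Fin n → K) : ∃ g ∈ SG n K, g ∈ OG n K ∧
    ProjGenLinGroup.mk g = ProjGenLinGroup.mk (rf v) ∧
    ∀ σ : RingAut K, (∀ i, σ (v i) = v i) → al σ 1 g = g := by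
  have hr : rf v * rf v = 1 := Units.ext (rfm_sq v)
  obtain ⟨d, hd⟩ : ∃ d, d = GeneralLinearGroup.det (rf v) := ⟨_, rfl⟩
  have h1 : d * d = 1 := by rw [hd, ← map_mul, hr, map_one]
  have h1' : (d : K) * d = 1 := by rw [← Units.val_mul, h1, Units.val_one]
  have hO : GeneralLinearGroup.scalar (Fin n) d ∈ OG n K := by
    change _ᵀ * _ = 1
    simp [diagonal_mul_diagonal, h1']
  refine ⟨rf v * GeneralLinearGroup.scalar (Fin n) d, ?_, (OG n K).mul_mem (rf_mem v) hO,
    by rw [map_mul, ProjGenLinGroup.mk_scalar, mul_one], fun σ hv => ?_⟩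
  · obtain ⟨k, hk⟩ := hn
    have e : GeneralLinearGroup.det (GeneralLinearGroup.scalar (Fin n) d) = d ^ n := by
      simp
    rw [SG, MonoidHom.mem_ker, map_mul, ← hd, e, hk, pow_succ, pow_mul, sq, h1, one_pow, one_mul, h1]
  · rw [al_mul, alrf_TCent, funext hv]
    congr 1
    refine Units.ext (Matrix.ext fun i j => ?_)
    have e : σ (d : K) = d := by
      rcases mul_self_eq_one_iff.1 h1' with e | e <;> simp [e]
    rw [alv_TCent]
    simp [diagonal_apply, apply_ite σ, e]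

theorem cent_B (h2 : (2 : K) ≠ 0) (hq : 49 ≤ Nat.card K) (hn : Odd n) (h3 : 3 ≤ n) {x : MM n K}
    (h1 : x.right.1 * x.right.1 = 1) (h4 : x.right.2 = 1)
    (hx : ∀ l ∈ (PH n K).map (inl : _ →* MM n K), x * l = l * x) : x = 1 := by
  obtain ⟨hl, hf⟩ := left_TCent h2 hq hn h3 h1 (fun _ h => h)
    (fun v _ hv => rf_sq h2 hn h3 (hv ▸ IsSquare.one)) hx
  refine SemidirectProduct.ext hl (Prod.ext ?_ h4)
  generalize x.right.1 = τ at h1 hf
  have key : ∀ s : K, τ s ≠ s → (s * τ s) ^ 2 = 1 := fun s hs => by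
    by_cases hN : 1 + s ^ 2 = 0
    · have e := congrArg τ hN
      rw [map_add, map_one, map_pow, map_zero] at e
      linear_combination (τ s ^ 2) * hN - e
    have hM : 1 - s ^ 2 ≠ 0 := fun e => hs (by
      rcases mul_self_eq_one_iff.1 (show s * s = 1 by linear_combination -e) with e | e <;>
        simp [e])
    obtain ⟨v, hv⟩ : ∃ v : Fin n → K, v =
      (Pi.single ⟨0, by omega⟩ ((1 - s ^ 2) / (1 + s ^ 2)) : Fin n → K) +
      (Pi.single ⟨1, by omega⟩ (2 * s / (1 + s ^ 2)) : Fin n → K) := ⟨_, rfl⟩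
    have v1 : v ⬝ᵥ v = 1 := by
      simp [hv]
      field_simp
      ring
    have v1' : (fun i => τ (v i)) ⬝ᵥ (fun i => τ (v i)) = 1 := by
      have := congrArg τ v1
      simpa [dotProduct] using this
    have v2 : v ⟨2, by omega⟩ = 0 := by simp [hv]
    have e := hf _ (rf_sq h2 hn h3 (v1 ▸ IsSquare.one))
    rw [alrf_TCent] at e
    have e1 := congrArg Units.val (inj_TCent e (k := ⟨2, by omega⟩)
      (by change rfm _ _ _ = 1; simp [rfm, vecMulVec_apply, v2])
      (by change rfm _ _ _ = 1; simp [rfm, vecMulVec_apply, v2]))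
    change rfm _ = rfm _ at e1
    rw [rfm, rfm, v1, v1', sub_right_inj, div_one] at e1
    have e2 := smul_right_injective _ h2 e1
    have a0 := congrFun (congrFun e2 ⟨0, by omega⟩) ⟨0, by omega⟩
    have a1 := congrFun (congrFun e2 ⟨0, by omega⟩) ⟨1, by omega⟩
    have w0 : v ⟨0, by omega⟩ = (1 - s ^ 2) / (1 + s ^ 2) := by simp [hv]
    have w1 : v ⟨1, by omega⟩ = 2 * s / (1 + s ^ 2) := by simp [hv]
    simp only [vecMulVec_apply, w0, w1, map_div₀, map_sub, map_add, map_one, map_pow, map_mul,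
      map_ofNat] at a0 a1
    have hN' : 1 + τ s ^ 2 ≠ 0 := by
      rw [← map_pow, ← map_one τ, ← map_add]
      exact (map_ne_zero τ).2 hN
    have hM' : 1 - τ s ^ 2 ≠ 0 := by
      rw [← map_pow, ← map_one τ, ← map_sub]
      exact (map_ne_zero τ).2 hM
    field_simp at a0 a1
    have a2 : (τ s - s) * (1 + s * τ s) = 0 := by
      refine mul_left_cancel₀ (mul_ne_zero hM' (pow_ne_zero 2 hN)) ?_
      linear_combination (1 - s ^ 2) * a1 - s * a0
    have a3 := (mul_eq_zero.1 a2).resolve_left (sub_ne_zero.2 hs)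
    linear_combination (s * τ s - 1) * a3
  by_contra hne
  obtain ⟨s, hs⟩ : ∃ s, τ s ≠ s := by
    by_contra! h
    exact hne (RingEquiv.ext h)
  obtain ⟨t, h0, ht⟩ := real_TCent h2 hq h1
  have t0 : t ≠ 0 := fun e => ht (by simp [e])
  have e1 := key s hs
  have e2 := key (t * s) (by
    rw [map_mul, h0]
    exact fun e => hs (mul_left_cancel₀ t0 e))
  rw [map_mul, h0] at e2
  exact ht (by linear_combination t * e2 - t ^ 5 * e1)

/-- The diagonal entries `u, u⁻¹, 1, ..`. -/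
def dU_TCent (h3 : 3 ≤ n) (u : Kˣ) : Fin n → Kˣ :=
  Pi.mulSingle ⟨0, by omega⟩ u * Pi.mulSingle ⟨1, by omega⟩ u⁻¹

omit [Finite K] in
theorem dU_mem_TCent (h3 : 3 ≤ n) (u : Kˣ) : dg (dU_TCent h3 u) ∈ SG n K := by
  rw [SG, MonoidHom.mem_ker]
  refine Units.ext ?_
  change (diagonal fun i => ((dU_TCent h3 u i : Kˣ) : K)).det = 1
  rw [det_diagonal, ← Units.coe_prod]
  simp [dU_TCent, Finset.prod_mul_distrib, Finset.prod_pi_mulSingle']

omit [Finite K] in
theorem aldg_TCent (σ : RingAut K) (d : Fin n → Kˣ) :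
    (al σ 1 (dg d) : Matrix (Fin n) (Fin n) K) = diagonal (fun i => σ (d i)) ∧
    (al σ (-1) (dg d) : Matrix (Fin n) (Fin n) K) = diagonal fun i => (σ (d i))⁻¹ := by
  constructor
  · ext i j
    rw [alv_TCent]
    simp [dg, diagonal_apply, apply_ite σ]
  · rw [al, if_neg (by decide)]
    ext i j
    change σ ((diagonal fun i => (((d i)⁻¹ : Kˣ) : K)) j i) = _
    by_cases h : i = j
    · simp [h]
    · simp [h, Ne.symm h]

omit [Finite K] in
theorem fix_TCent (h3 : 3 ≤ n) {τ : RingAut K} {ε : ℤˣ} {u : Kˣ}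
    (h : ProjGenLinGroup.mk (al τ ε (dg (dU_TCent h3 u))) =
      ProjGenLinGroup.mk (dg (dU_TCent h3 u))) :
    (ε = 1 ∧ τ u = u) ∨ (ε = -1 ∧ (τ u)⁻¹ = u) := by
  have e2 : ((dg (dU_TCent h3 u) : GL (Fin n) K) : Matrix (Fin n) (Fin n) K) ⟨2, by omega⟩
      ⟨2, by omega⟩ = 1 := by simp [dg, dU_TCent]
  rcases Int.units_eq_one_or ε with rfl | rfl
  · have e := congrArg Units.val (inj_TCent h (k := ⟨2, by omega⟩)
      (by rw [(aldg_TCent τ _).1]; simp [dU_TCent]) e2)
    rw [(aldg_TCent τ _).1] at e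
    exact Or.inl ⟨rfl, by
      simpa [dg, dU_TCent, Pi.mulSingle_apply, Fin.ext_iff] using
        congrFun (congrFun e ⟨0, by omega⟩) ⟨0, by omega⟩⟩
  · have e := congrArg Units.val (inj_TCent h (k := ⟨2, by omega⟩)
      (by rw [(aldg_TCent τ _).2]; simp [dU_TCent]) e2)
    rw [(aldg_TCent τ _).2] at e
    exact Or.inr ⟨rfl, by
      simpa [dg, dU_TCent, Pi.mulSingle_apply, Fin.ext_iff] using
        congrFun (congrFun e ⟨0, by omega⟩) ⟨0, by omega⟩⟩

theorem cent_A (h2 : (2 : K) ≠ 0) (hq : 49 ≤ Nat.card K) (hn : Odd n) (h3 : 3 ≤ n) {x : MM n K}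
    (h1 : x.right.1 * x.right.1 = 1)
    (hx : ∀ l ∈ (Pr (SG n K)).map (inl : _ →* MM n K), x * l = l * x) : x = 1 := by
  obtain ⟨hl, hf⟩ := left_TCent h2 hq hn h3 h1 (fun _ h => h) (fun v _ _ => by
    obtain ⟨g, hg, -, e, -⟩ := sg_TCent hn v
    exact ⟨g, hg, e⟩) hx
  have key := fun u : Kˣ => fix_TCent h3 (hf _ (Subgroup.mem_map_of_mem _ (dU_mem_TCent h3 u)))
  obtain ⟨t, h0, ht⟩ := real_TCent h2 hq h1
  have t0 : t ≠ 0 := fun e => ht (by simp [e])
  have h4 : x.right.2 = 1 := by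
    rcases key (Units.mk0 t t0) with e | e
    · exact e.1
    · have e' := e.2
      rw [Units.val_mk0, h0, inv_eq_iff_eq_inv, ← mul_eq_one_iff_eq_inv₀ t0] at e'
      exact absurd (by linear_combination (t ^ 3 + t) * e') ht
  refine SemidirectProduct.ext hl (Prod.ext (RingEquiv.ext fun a => ?_) h4)
  rcases eq_or_ne a 0 with rfl | ha
  · rw [map_zero, map_zero]
  · rcases key (Units.mk0 a ha) with e | e
    · exact e.2
    · exact absurd (h4.symm.trans e.1) (by decide)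

theorem cent_U (h2 : (2 : K) ≠ 0) (hq : 49 ≤ Nat.card K) (hn : Odd n) (h3 : 3 ≤ n) {σ : RingAut K}
    (hσ : σ * σ = 1) (hσ1 : σ ≠ 1) {x : MM n K} (h1 : x.right.1 * x.right.1 = 1)
    (h4 : x.right.2 = 1)
    (hx : ∀ l ∈ (Pr (GU n σ ⊓ SG n K)).map (inl : _ →* MM n K), x * l = l * x) : x = 1 := by
  have hτ : x.right.1 = 1 ∨ x.right.1 = σ := by
    by_cases h : x.right.1 = 1
    · exact Or.inl h
    · exact Or.inr (inv_unique h1 h hσ hσ1)
  obtain ⟨hl, hf⟩ := left_TCent h2 hq hn h3 hσ (x := x) (fun a h => by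
    rcases hτ with e | e <;> rw [e]
    · rfl
    · exact h) (fun v hv _ => by
    obtain ⟨g, hg, hO, e, e'⟩ := sg_TCent hn v
    exact ⟨g, ⟨((al_og σ (-1) hO).1.trans (e' σ hv) :), hg⟩, e⟩) hx
  refine SemidirectProduct.ext hl (Prod.ext (hτ.resolve_right fun hτ => ?_) h4)
  obtain ⟨s, hs⟩ : ∃ s, s - σ s ≠ 0 := by
    by_contra! h
    exact hσ1 (RingEquiv.ext fun s => (sub_eq_zero.1 (h s)).symm)
  obtain ⟨ε, hε⟩ : ∃ ε, ε = s - σ s := ⟨_, rfl⟩
  have e1 : σ ε = -ε := by rw [hε, map_sub, ss_TCent hσ, neg_sub]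
  rw [← hε] at hs
  have p1 : 1 + ε ≠ 0 := fun e => h2 (by
    have e' := congrArg σ e
    rw [map_add, map_one, e1, map_zero] at e'
    linear_combination e + e')
  have p2 : 1 - ε ≠ 0 := fun e => h2 (by
    have e' := congrArg σ e
    rw [map_sub, map_one, e1, map_zero] at e'
    linear_combination e + e')
  obtain ⟨u, hu⟩ : ∃ u : Kˣ, (u : K) = (1 + ε) / (1 - ε) := ⟨Units.mk0 _ (div_ne_zero p1 p2), rfl⟩
  have su : σ u = (u : K)⁻¹ := by
    rw [hu, map_div₀, map_add, map_sub, map_one, e1, inv_div, sub_neg_eq_add, sub_eq_add_neg]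
  have hU : dg (dU_TCent h3 u) ∈ GU n σ := by
    refine Units.ext ((aldg_TCent σ _).2.trans ?_)
    change _ = diagonal _
    congr 1
    funext i
    simp only [dU_TCent, Pi.mul_apply, Pi.mulSingle_apply]
    split_ifs <;> simp [su]
  rcases fix_TCent h3 (hf _ (Subgroup.mem_map_of_mem _ ⟨hU, dU_mem_TCent h3 u⟩)) with e | e
  · have e' := e.2
    rw [hτ, su, hu, inv_div, div_eq_div_iff p1 p2] at e'
    exact mul_ne_zero (mul_ne_zero h2 h2) hs (by linear_combination -e')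
  · exact absurd (h4.symm.trans e.1) (by decide)

end Vale.Agent.P240
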