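import Vale.Agent.P240.D.Two
import Vale.Agent.P240.T.Sub

/-! P240 T/Real. Plan: descB: n is odd, so d or -d has an even number of entries -1. Induction on the
finset of these positions, two at a time: with sigma eps = -eps and eps^2 (a^2 + b^2) = 1, a, b real
(from SC sigma 1 or directly), the matrix h equal to [[eps a, -eps b], [eps b, eps a]] at the two
positions and the identity elsewhere lies in OG, commutes with sign matrices that agree at the two
positions and satisfies h * (al h)⁻¹ = -1 there. real_PH: repeat the proof of cd for real y (the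
reflection vectors are real), real norms are squares (sub_circle), rf_sq. -/

namespace Vale.Agent.P240

open Matrix SemidirectProduct

variable {n : ℕ} {K : Type} [Field K] [Finite K]

omit [Finite K] in
theorem ent_TReal (σ : RingAut K) (g : GL (Fin n) K) (a b : Fin n) :
    (al σ 1 g : Matrix (Fin n) (Fin n) K) a b = σ ((g : Matrix (Fin n) (Fin n) K) a b) := by
  rw [al, if_pos rfl]
  rfl

omit [Finite K] in
theorem dot_TReal (σ : RingAut K) (v w : Fin n → K) :
    σ (v ⬝ᵥ w) = (fun i => σ (v i)) ⬝ᵥ fun i => σ (w i) := by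
  simp only [dotProduct, map_sum, map_mul]

omit [Finite K] in
theorem alrf_TReal (σ : RingAut K) (v : Fin n → K) :
    al σ 1 (rf v) = rf fun i => σ (v i) := by
  refine Units.ext (Matrix.ext fun a b => ?_)
  rw [ent_TReal]
  change σ (rfm v a b) = rfm (fun i => σ (v i)) a b
  rw [rfm, rfm, Matrix.sub_apply, Matrix.sub_apply, Matrix.smul_apply, Matrix.smul_apply,
    vecMulVec_apply, vecMulVec_apply, smul_eq_mul, smul_eq_mul, map_sub, map_mul, map_mul,
    map_div₀, dot_TReal, map_ofNat, one_apply]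
  split_ifs
  · rw [map_one]
  · rw [map_zero]

theorem xy_TReal (h2 : (2 : K) ≠ 0) {σ : RingAut K} (hσ : σ * σ = 1) (h1 : σ ≠ 1) :
    ∃ x y : K, σ x = -x ∧ σ y = -y ∧ x ^ 2 + y ^ 2 = 1 := by
  classical
  have hs : ∀ t, σ (σ t) = t := fun t => by
    change (σ * σ) t = t
    rw [hσ]
    rfl
  obtain ⟨t, ht⟩ : ∃ t, σ t ≠ t := by
    by_contra h
    exact h1 (RingEquiv.ext fun t => not_not.1 fun e => h ⟨t, e⟩)
  obtain ⟨ε, he0, he⟩ : ∃ ε : K, ε ≠ 0 ∧ σ ε = -ε :=
    ⟨σ t - t, sub_ne_zero.2 ht, by rw [map_sub, hs, neg_sub]⟩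
  let F : Subfield K := RingHom.eqLocusField (σ : K →+* K) (RingHom.id K)
  have hF : ∀ x : K, x ∈ F ↔ σ x = x := fun x => Iff.rfl
  have := Fintype.ofFinite F
  have hc : ringChar F ≠ 2 := fun e => h2 (by
    have h3 : ((ringChar F : ℕ) : F) = 0 := ringChar.Nat.cast_ringChar
    rw [e] at h3
    have h4 := congrArg F.subtype h3
    rwa [map_natCast, map_zero, Nat.cast_ofNat] at h4)
  let c : F := ⟨(ε ^ 2)⁻¹, (hF _).2 (by rw [map_inv₀, map_pow, he, neg_sq])⟩
  obtain ⟨a, b, hab⟩ := FiniteField.exists_root_sum_quadratic (R := F)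
    (f := Polynomial.X ^ 2) (g := Polynomial.X ^ 2 - Polynomial.C c)
    (Polynomial.degree_X_pow 2) (Polynomial.degree_X_pow_sub_C (by norm_num) c)
    (FiniteField.odd_card_of_char_ne_two hc)
  simp only [Polynomial.eval_pow, Polynomial.eval_X, Polynomial.eval_sub, Polynomial.eval_C] at hab
  have h5 : (a : K) ^ 2 + ((b : K) ^ 2 - (ε ^ 2)⁻¹) = 0 := congrArg F.subtype hab
  refine ⟨ε * a, ε * b, ?_, ?_, ?_⟩
  · rw [map_mul, he, (hF _).1 a.2, neg_mul]
  · rw [map_mul, he, (hF _).1 b.2, neg_mul]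
  · have h6 : ε ^ 2 * (ε ^ 2)⁻¹ = 1 := mul_inv_cancel₀ (pow_ne_zero 2 he0)
    linear_combination ε ^ 2 * h5 + h6

omit [Finite K] in
theorem pair_TReal (h2 : (2 : K) ≠ 0) {σ : RingAut K} {x y : K} (hx : σ x = -x) (hy : σ y = -y)
    (hxy : x ^ 2 + y ^ 2 = 1) {i j : Fin n} (hij : i ≠ j) :
    ∃ h ∈ OG n K, (∀ d : Fin n → Kˣ, (∀ a, d a * d a = 1) → d i = d j → h * dg d = dg d * h) ∧
      h * (al σ 1 h)⁻¹ = dg fun a => if a = i ∨ a = j then -1 else 1 := by
  have hx1 : 1 - x ≠ 0 := fun e => h2 (by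
    have e1 : x = 1 := by linear_combination -e
    rw [e1, map_one] at hx
    linear_combination hx)
  have hx2 : 1 + x ≠ 0 := fun e => h2 (by
    have e1 : x = -1 := by linear_combination e
    rw [e1, map_neg, map_one] at hx
    linear_combination -hx)
  obtain ⟨v, hv⟩ : ∃ v : Fin n → K, v = Pi.single i (1 - x) + Pi.single j (-y) := ⟨_, rfl⟩
  obtain ⟨w, hw⟩ : ∃ w : Fin n → K, w = Pi.single i (1 + x) + Pi.single j y := ⟨_, rfl⟩
  have vi : v i = 1 - x := by simp [hv, hij]
  have vj : v j = -y := by simp [hv, hij.symm]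
  have va : ∀ a, a ≠ i → a ≠ j → v a = 0 := fun a h h' => by simp [hv, h, h']
  have wi : w i = 1 + x := by simp [hw, hij]
  have wj : w j = y := by simp [hw, hij.symm]
  have wa : ∀ a, a ≠ i → a ≠ j → w a = 0 := fun a h h' => by simp [hw, h, h']
  have dv : ∀ z, v ⬝ᵥ z = (1 - x) * z i + -y * z j := fun z => by
    rw [hv, add_dotProduct, single_dotProduct, single_dotProduct]
  have dw : ∀ z, w ⬝ᵥ z = (1 + x) * z i + y * z j := fun z => by
    rw [hw, add_dotProduct, single_dotProduct, single_dotProduct]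
  have vv : v ⬝ᵥ v = 2 * (1 - x) := by
    rw [dv, vi, vj]
    linear_combination hxy
  have ww : w ⬝ᵥ w = 2 * (1 + x) := by
    rw [dw, wi, wj]
    linear_combination hxy
  have vw : v ⬝ᵥ w = 0 := by
    rw [dv, wi, wj]
    linear_combination -hxy
  have sv : (fun a => σ (v a)) = w := by
    funext a
    by_cases h : a = i
    · rw [h, vi, wi, map_sub, map_one, hx, sub_neg_eq_add]
    by_cases h' : a = j
    · rw [h', vj, wj, map_neg, hy, neg_neg]
    · rw [va a h h', wa a h h', map_zero]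
  refine ⟨rf v, rf_mem v, fun d hd hdij => ?_, ?_⟩
  · have h3 := rf_conj (dg_mem_Mem hd) v
    have h4 : (dg d : Matrix (Fin n) (Fin n) K) *ᵥ v = (d i : K) • v := by
      funext a
      change (diagonal (fun a => (d a : K)) *ᵥ v) a = _
      rw [mulVec_diagonal, Pi.smul_apply, smul_eq_mul]
      by_cases h : a = i
      · rw [h]
      by_cases h' : a = j
      · rw [h', hdij]
      · rw [va a h h', mul_zero, mul_zero]
    rw [h4, rf_smul (d i).ne_zero, mul_inv_eq_iff_eq_mul] at h3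
    exact h3.symm
  · have h3 : (rf w)⁻¹ = rf w := Units.ext rfl
    rw [alrf_TReal, sv, h3]
    refine Units.ext (ext_iff_mulVec.2 fun z => ?_)
    rw [Units.val_mul, ← mulVec_mulVec, mulVec_DRefl, mulVec_DRefl, dotProduct_sub,
      dotProduct_smul, vw, smul_zero, sub_zero, vv, ww, dv, dw]
    funext a
    change _ = (diagonal (fun a => ((if a = i ∨ a = j then -1 else 1 : Kˣ) : K)) *ᵥ z) a
    rw [mulVec_diagonal, Pi.sub_apply, Pi.sub_apply, Pi.smul_apply, Pi.smul_apply, smul_eq_mul,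
      smul_eq_mul]
    by_cases h : a = i
    · rw [h, vi, wi, if_pos (Or.inl rfl), Units.val_neg, Units.val_one]
      field_simp
      ring
    by_cases h' : a = j
    · rw [h', vj, wj, if_pos (Or.inr rfl), Units.val_neg, Units.val_one]
      field_simp
      linear_combination (-2 * z j) * hxy
    · rw [va a h h', wa a h h', if_neg (not_or.2 ⟨h, h'⟩), Units.val_one]
      ring

theorem even_TReal (h2 : (2 : K) ≠ 0) {σ : RingAut K} (hσ : σ * σ = 1) (h1 : σ ≠ 1) (k : ℕ) :
    ∀ s : Finset (Fin n), s.card = k + k →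
      ∃ h ∈ OG n K, h * (al σ 1 h)⁻¹ = dg fun a => if a ∈ s then -1 else 1 := by
  obtain ⟨x, y, hx, hy, hxy⟩ := xy_TReal h2 hσ h1
  induction k with
  | zero =>
    intro s hs
    refine ⟨1, Subgroup.one_mem _, ?_⟩
    rw [al_one, inv_one, mul_one, Finset.card_eq_zero.1 hs]
    refine Units.ext ?_
    change (1 : Matrix (Fin n) (Fin n) K) = diagonal _
    simp
  | succ k ih =>
    intro s hs
    obtain ⟨i, t, hi, rfl, ht⟩ := Finset.card_eq_succ.1 (show s.card = (k + k + 1) + 1 by omega)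
    obtain ⟨j, u, hj, rfl, hu⟩ := Finset.card_eq_succ.1 ht
    have hij : i ≠ j := fun e => hi (e ▸ Finset.mem_insert_self _ _)
    have hiu : i ∉ u := fun e => hi (Finset.mem_insert_of_mem e)
    obtain ⟨g, hg, eg⟩ := ih u hu
    obtain ⟨h, hh, hc, eh⟩ := pair_TReal h2 hx hy hxy hij
    refine ⟨h * g, Subgroup.mul_mem _ hh hg, ?_⟩
    rw [al_mul, _root_.mul_inv_rev, mul_assoc, ← mul_assoc g, eg, ← mul_assoc,
      hc _ (fun a => by split_ifs <;> simp) (by rw [if_neg hiu, if_neg hj]), mul_assoc, eh, dg_mul]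
    refine congrArg dg (funext fun a => ?_)
    rw [Pi.mul_apply]
    by_cases h3 : a = i
    · simp [h3, hiu]
    by_cases h4 : a = j
    · simp [h4, hj]
    · simp [h3, h4]

omit [Finite K] in
theorem wit_TReal (h2 : (2 : K) ≠ 0) {σ : RingAut K} {T : Subgroup (GL (Fin n) K)}
    (hT : ∀ v : Fin n → K, (∀ i, σ (v i) = v i) → rf v ∈ T) {u v : Fin n → K}
    (ru : ∀ i, σ (u i) = u i) (rv : ∀ i, σ (v i) = v i) (hu : u ⬝ᵥ u ≠ 0) (h : v ⬝ᵥ v = u ⬝ᵥ u) :
    ∃ g ∈ T, (g : Matrix (Fin n) (Fin n) K) *ᵥ u = v ∧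
        ∀ x, u ⬝ᵥ x = 0 → v ⬝ᵥ x = 0 → (g : Matrix (Fin n) (Fin n) K) *ᵥ x = x := by
  by_cases h0 : (u - v) ⬝ᵥ (u - v) = 0
  swap
  · refine ⟨rf (u - v), hT _ fun i => by rw [Pi.sub_apply, map_sub, ru, rv], sub_DRefl h h0,
      fun x a b => ?_⟩
    rw [mulVec_DRefl, sub_dotProduct u v x, a, b, sub_zero, mul_zero, zero_smul, sub_zero]
  have h1 : (u - -v) ⬝ᵥ (u - -v) ≠ 0 := fun e => mul_ne_zero (mul_ne_zero h2 h2) hu (by
    simp only [sub_dotProduct, dotProduct_sub, neg_dotProduct, dotProduct_neg, h] at h0 e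
    linear_combination h0 + e)
  refine ⟨rf v * rf (u - -v), Subgroup.mul_mem _ (hT _ rv)
    (hT _ fun i => by rw [Pi.sub_apply, Pi.neg_apply, map_sub, map_neg, ru, rv]), ?_,
    fun x a b => ?_⟩
  · rw [Units.val_mul, ← mulVec_mulVec, sub_DRefl (by rw [neg_dotProduct_neg, h]) h1, mulVec_DRefl,
      dotProduct_neg, mul_neg, div_mul_cancel₀ _ (h ▸ hu), neg_smul, two_smul]
    abel
  · rw [Units.val_mul, ← mulVec_mulVec, mulVec_DRefl _ x, sub_dotProduct u (-v) x, neg_dotProduct v x,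
      a, b, neg_zero, sub_zero, mul_zero, zero_smul, sub_zero, mulVec_DRefl, b, mul_zero, zero_smul,
      sub_zero]

/-- The matrices fixed by a field automorphism. -/
def Re_TReal (n : ℕ) {K : Type} [Field K] (σ : RingAut K) : Subgroup (GL (Fin n) K) where
  carrier := {g | al σ 1 g = g}
  one_mem' := al_one σ 1
  mul_mem' := fun {a b} ha hb => by
    change al σ 1 (a * b) = a * b
    rw [al_mul, show al σ 1 a = a from ha, show al σ 1 b = b from hb]
  inv_mem' := fun {a} ha => by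
    change al σ 1 a⁻¹ = a⁻¹
    rw [al_inv, show al σ 1 a = a from ha]

theorem descB (h2 : (2 : K) ≠ 0) (hn : Odd n) {σ : RingAut K} (hσ : σ * σ = 1) (h1 : σ ≠ 1)
    {d : Fin n → Kˣ} (hd : ∀ i, d i = 1 ∨ d i = -1) :
    ∃ h ∈ OG n K, ProjGenLinGroup.mk (dg d) = ProjGenLinGroup.mk (h * (al σ 1 h)⁻¹) := by
  classical
  obtain ⟨s, hs⟩ : ∃ s : Finset (Fin n), d = fun a => if a ∈ s then -1 else 1 :=
    ⟨Finset.univ.filter fun a => d a ≠ 1, funext fun a => by
      by_cases h : d a = 1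
      · simp [h]
      · rw [if_pos (by simpa using h)]
        exact (hd a).resolve_left h⟩
  rcases Nat.even_or_odd s.card with ⟨k, hk⟩ | h3
  · obtain ⟨h, hh, e⟩ := even_TReal h2 hσ h1 k s hk
    exact ⟨h, hh, by rw [e, hs]⟩
  obtain ⟨k, hk⟩ : Even sᶜ.card := by
    have h4 := Finset.card_add_card_compl s
    rw [Fintype.card_fin] at h4
    rw [← h4, Nat.odd_add] at hn
    exact hn.1 h3
  obtain ⟨h, hh, e⟩ := even_TReal h2 hσ h1 k sᶜ hk
  refine ⟨h, hh, ?_⟩
  have h4 : (dg fun j => if j ∈ sᶜ then (-1 : Kˣ) else 1) =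
      GeneralLinearGroup.scalar (Fin n) (-1 : Kˣ) * dg fun j => if j ∈ s then (-1 : Kˣ) else 1 := by
    have h5 : GeneralLinearGroup.scalar (Fin n) (-1 : Kˣ) = dg fun _ => -1 := Units.ext rfl
    rw [h5, dg_mul]
    refine congrArg dg (funext fun j => ?_)
    by_cases hj : j ∈ s <;> simp [hj]
  rw [e, h4, hs, map_mul, ProjGenLinGroup.mk_scalar, one_mul]

theorem real_PH (h2 : (2 : K) ≠ 0) (hn : Odd n) (h3 : 3 ≤ n) {σ : RingAut K} (hσ : σ * σ = 1)
    (h1 : σ ≠ 1) {y : GL (Fin n) K} (hy : y ∈ OG n K) (hr : al σ 1 y = y) :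
    ProjGenLinGroup.mk y ∈ PH n K := by
  classical
  have := Fintype.ofFinite K
  obtain ⟨q, -, -, hq, -⟩ := sub_circle h2 hσ h1
  obtain ⟨T, hT⟩ : ∃ T : Subgroup (GL (Fin n) K),
      T = (OG n K ⊓ Re_TReal n σ) ⊓ (PH n K).comap ProjGenLinGroup.mk := ⟨_, rfl⟩
  have hrf : ∀ v : Fin n → K, (∀ i, σ (v i) = v i) → rf v ∈ T := fun v hv => by
    have e : (fun i => σ (v i)) = v := funext hv
    rw [hT]
    refine ⟨⟨rf_mem v, ?_⟩, rf_sq h2 hn h3 (hq _ ?_)⟩
    · change al σ 1 (rf v) = rf v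
      rw [alrf_TReal, e]
    · rw [dot_TReal, e]
  have hle : T ≤ OG n K ⊓ Re_TReal n σ := hT ▸ inf_le_left
  have key : ∀ s : Finset (Fin n), ∀ g ∈ OG n K ⊓ Re_TReal n σ, (∀ i ∉ s,
      (g : Matrix (Fin n) (Fin n) K) *ᵥ Pi.single i 1 = Pi.single i 1) → g ∈ T := fun s => by
    induction s using Finset.induction_on with
    | empty =>
      intro g _ h
      obtain rfl : g = 1 := Units.ext (ext_of_mulVec_single fun i => by
        rw [h i (Finset.notMem_empty i), Units.val_one, one_mulVec])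
      exact Subgroup.one_mem _
    | insert k s hk ih =>
      intro g hg h
      obtain ⟨r, hr, e, hx⟩ := wit_TReal h2 hrf
        (u := (g : Matrix (Fin n) (Fin n) K) *ᵥ Pi.single k 1) (v := Pi.single k 1)
        (fun i => by
          rw [mulVec_single_one, col_apply, ← ent_TReal, show al σ 1 g = g from hg.2])
        (fun i => by
          rw [Pi.single_apply]
          split_ifs
          · exact map_one σ
          · exact map_zero σ)
        (by rw [dot_DRefl hg.1]; simp) (dot_DRefl hg.1 _ _).symm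
      refine (Subgroup.mul_mem_cancel_left _ hr).1 (ih _ (Subgroup.mul_mem _ (hle hr) hg)
        fun i hi => ?_)
      rw [Units.val_mul, ← mulVec_mulVec]
      rcases eq_or_ne i k with rfl | hik
      · exact e
      have h4 := h i (by simp [hi, hik])
      have h5 : (Pi.single k 1 : Fin n → K) ⬝ᵥ Pi.single i 1 = 0 := by simp [hik.symm]
      rw [h4]
      refine hx _ ?_ h5
      rw [← h4, dot_DRefl hg.1, h5]
  have h4 := key Finset.univ y ⟨hy, hr⟩ fun i hi => absurd (Finset.mem_univ i) hi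
  rw [hT] at h4
  exact h4.2

end Vale.Agent.P240
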