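import Vale.Agent.P240.T.Desc
import Vale.Agent.P240.T.Real

/-! P240 T/ConjB. Plan: x0 = (mk y, (sigma, 1)), x0 * x0 = 1 gives y * al y = scalar nu, nu^2 = 1 by
orthogonality and nu = 1 by the determinant (n odd, det y = 1 or -1). descA, descB give
mk y = mk (g * (al g)⁻¹) with g in OG, so conjugation by inl (mk g)⁻¹ takes x0 to inr (sigma, 1). The
other elements commute with it, so their left component mk y' satisfies al y' = y' or -y', and the
determinant gives al y' = y'; real_PH. act_PH: al_og and map of commutators. -/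

namespace Vale.Agent.P240

open Matrix SemidirectProduct

variable {n : ℕ} {K : Type} [Field K]

theorem act_PO (q : RingAut K × ℤˣ) : ∀ y ∈ PO n K, act n K q y ∈ PO n K := by
  rintro _ ⟨g, hg, rfl⟩
  rw [act_mk]
  exact ⟨_, (al_og q.1 q.2 hg).2, rfl⟩

theorem act_PH (q : RingAut K × ℤˣ) : ∀ y ∈ PH n K, act n K q y ∈ PH n K := by
  rintro _ ⟨g, hg, rfl⟩
  rw [act_mk]
  refine ⟨_, ?_, rfl⟩
  by_cases hn : Odd n
  · rw [if_pos hn] at hg ⊢
    let f : GL (Fin n) K →* GL (Fin n) K := MonoidHom.mk' (al q.1 q.2) (al_mul q.1 q.2)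
    have h1 : (OG n K).map f ≤ OG n K := by
      rintro _ ⟨a, ha, rfl⟩
      exact (al_og q.1 q.2 ha).2
    have h2 : (⁅OG n K, OG n K⁆ : Subgroup (GL (Fin n) K)).map f ≤ ⁅OG n K, OG n K⁆ := by
      rw [Subgroup.map_commutator]
      exact Subgroup.commutator_mono h1 h1
    exact h2 ⟨g, hg, rfl⟩
  · rw [if_neg hn] at hg ⊢
    exact (al_og q.1 q.2 hg).2

theorem det_TConjB {y : GL (Fin n) K} (hy : y ∈ OG n K) :
    GeneralLinearGroup.det y * GeneralLinearGroup.det y = 1 := by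
  have h : (y : Matrix (Fin n) (Fin n) K)ᵀ * (y : Matrix (Fin n) (Fin n) K) = 1 := hy
  have h1 := congrArg Matrix.det h
  rw [det_mul, det_transpose, det_one] at h1
  exact Units.ext h1

theorem aldet_TConjB (σ : RingAut K) {y : GL (Fin n) K} (hy : y ∈ OG n K) :
    GeneralLinearGroup.det (al σ 1 y) = GeneralLinearGroup.det y := by
  refine Units.ext ?_
  rw [al_det, Units.val_one, zpow_one]
  have h := congrArg Units.val (det_TConjB hy)
  rw [Units.val_mul, Units.val_one] at h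
  rcases mul_self_eq_one_iff.1 h with e | e
  · rw [e, map_one]
  · rw [e, map_neg, map_one]

theorem eq_TConjB (hn : Odd n) {a b : GL (Fin n) K} (ha : a ∈ OG n K) (hb : b ∈ OG n K)
    (h : ProjGenLinGroup.mk a = ProjGenLinGroup.mk b)
    (hd : GeneralLinearGroup.det a = GeneralLinearGroup.det b) : a = b := by
  obtain ⟨u, rfl⟩ := ProjGenLinGroup.mk_eq_mk_iff.1 h
  have h1 : GeneralLinearGroup.scalar (Fin n) u ∈ OG n K := by
    have := (OG n K).mul_mem ((OG n K).inv_mem ha) hb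
    rwa [inv_mul_cancel_left] at this
  have h2 : ((GeneralLinearGroup.scalar (Fin n) u : GL (Fin n) K) : Matrix (Fin n) (Fin n) K)ᵀ *
      (GeneralLinearGroup.scalar (Fin n) u : GL (Fin n) K) = 1 := h1
  have h3 : (u : K) * u = 1 := by
    have := congrFun (congrFun h2 ⟨0, hn.pos⟩) ⟨0, hn.pos⟩
    simpa [GeneralLinearGroup.scalar] using this
  have h4 : u ^ n = 1 := by
    rw [map_mul, left_eq_mul] at hd
    simpa [GeneralLinearGroup.det_scalar] using hd
  have h5 : u = 1 := by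
    obtain ⟨k, rfl⟩ := hn
    have h6 : u ^ 2 = 1 := by rw [pow_two]; exact Units.ext h3
    rwa [pow_succ, pow_mul, h6, one_pow, one_mul] at h4
  rw [h5, map_one, mul_one]

theorem conj_B [Finite K] (h2 : (2 : K) ≠ 0) (hn : Odd n) (h3 : 3 ≤ n) {A : Subgroup (MM n K)}
    (comm : ∀ x ∈ A, ∀ y ∈ A, x * y = y * x) (hsq : ∀ x ∈ A, x * x = 1)
    (hA : ∀ x ∈ A, x.left ∈ PO n K ∧ x.right.2 = 1) {x₀ : MM n K} (hx : x₀ ∈ A)
    (h1 : x₀.right ≠ 1) : ∃ g ∈ PO n K, ∀ x ∈ A, (inl g * x * (inl g)⁻¹).left ∈ PH n K := by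
  obtain ⟨⟨y, hy, hy'⟩, hx2⟩ := hA x₀ hx
  obtain ⟨σ, hσ⟩ : ∃ σ : RingAut K, x₀.right = (σ, 1) := ⟨x₀.right.1, Prod.ext rfl hx2⟩
  have hσ1 : σ ≠ 1 := fun e => h1 (by rw [hσ, e]; rfl)
  have hσ2 : σ * σ = 1 := by
    have h := congrArg (fun x : MM n K => x.right.1) (hsq x₀ hx)
    simpa only [mul_right, hσ, Prod.fst_mul, one_right, Prod.fst_one] using h
  have hyy : y * al σ 1 y = 1 := by
    have h := congrArg SemidirectProduct.left (hsq x₀ hx)
    rw [mul_left, hσ, ← hy', act_mk, ← map_mul, one_left,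
      ← map_one (ProjGenLinGroup.mk (n := Fin n) (R := K))] at h
    refine eq_TConjB hn ((OG n K).mul_mem hy (al_og σ 1 hy).2) (OG n K).one_mem h ?_
    rw [map_mul, aldet_TConjB σ hy, map_one]
    exact det_TConjB hy
  obtain ⟨g, hg, d, hd, e1⟩ := descA h2 hσ2 hσ1 hy hyy
  obtain ⟨h, hh, e2⟩ := descB h2 hn hσ2 hσ1 hd
  have hG : ProjGenLinGroup.mk (g * h) ∈ PO n K := ⟨_, (OG n K).mul_mem hg hh, rfl⟩
  refine ⟨(ProjGenLinGroup.mk (g * h))⁻¹, (PO n K).inv_mem hG, fun x hxA => ?_⟩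
  obtain ⟨γ, hγ⟩ : ∃ γ, γ = (ProjGenLinGroup.mk (g * h))⁻¹ := ⟨_, rfl⟩
  have hγ' : γ⁻¹ = ProjGenLinGroup.mk (g * h) := by rw [hγ, inv_inv]
  rw [← hγ]
  have hl : ∀ x : MM n K, (inl γ * x * (inl γ)⁻¹).left = γ * x.left * act n K x.right γ⁻¹ := by
    intro x
    rw [← map_inv]
    simp only [mul_left, mul_right, left_inl, right_inl, map_one, MulAut.one_apply, one_mul]
  have hr : ∀ x : MM n K, (inl γ * x * (inl γ)⁻¹).right = x.right := by
    intro x
    rw [← map_inv]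
    simp only [mul_right, right_inl, one_mul, mul_one]
  have h0 : (inl γ * x₀ * (inl γ)⁻¹).left = 1 := by
    rw [hl, hσ, hγ', act_mk, ← hy', hγ, e1, al_mul]
    simp only [map_mul, map_inv, e2]
    group
  have hc : (inl γ * x * (inl γ)⁻¹) * (inl γ * x₀ * (inl γ)⁻¹) =
      (inl γ * x₀ * (inl γ)⁻¹) * (inl γ * x * (inl γ)⁻¹) := by
    rw [conj_mul, conj_mul, comm x hxA x₀ hx]
  obtain ⟨y', hy1, hy2⟩ : (inl γ * x * (inl γ)⁻¹).left ∈ PO n K := by
    rw [hl]
    exact (PO n K).mul_mem ((PO n K).mul_mem (hγ ▸ (PO n K).inv_mem hG) (hA x hxA).1)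
      (act_PO _ _ (hγ' ▸ hG))
  have h4 := congrArg SemidirectProduct.left hc
  rw [mul_left, mul_left (inl γ * x₀ * (inl γ)⁻¹), h0, map_one, mul_one, one_mul, hr x₀, hσ, ← hy2,
    act_mk] at h4
  rw [← hy2]
  exact real_PH h2 hn h3 hσ2 hσ1 hy1
    (eq_TConjB hn (al_og σ 1 hy1).2 hy1 h4.symm (aldet_TConjB σ hy1))

end Vale.Agent.P240
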