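import Vale.Agent.P240.T.PC
import Vale.Agent.P240.T.Sub
import Vale.Agent.P240.T.ConjB
import Vale.Agent.P240.D.Two

/-! P240 T/AppO. Systems indexed by orthogonal matrices. Plan: n = m + 1 + 1, pc_tw with W = bot, E = 1.
pc_og0: Gamma = OG, full circles (circle_rot, circle_card), r = q + 2, a0 = 5. pc_og1: Gamma = OG,
S (inr k) = SC sigma 1 1, S (inl 0) = SC sigma 1 (-1), r = q0^3 + 2 q0^2, a0 = 8 q0 (al_og, al_rot,
rot_og, rho_rot). tg g k = tau g k lies in PH (tau_mem). mk (g * (al g)⁻¹) lies in PH by two, act_PH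
(if mk g is not in PH then neither is its image; a non-square norm vector exists or PO = PH). -/

namespace Vale.Agent.P240

open Matrix SemidirectProduct

variable {n : ℕ} {K : Type} [Field K] [Finite K]

theorem tw_TAppO (h2 : (2 : K) ≠ 0) (hn : Odd n) (h3 : 3 ≤ n) (q : RingAut K × ℤˣ)
    {g : GL (Fin n) K} (hg : g ∈ OG n K) :
    ProjGenLinGroup.mk (g * (al q.1 q.2 g)⁻¹) ∈ PH n K := by
  have hy : ProjGenLinGroup.mk g ∈ PO n K := Subgroup.mem_map_of_mem _ hg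
  rw [map_mul, map_inv, ← act_mk]
  by_cases h : ProjGenLinGroup.mk g ∈ PH n K
  · exact Subgroup.mul_mem _ h (Subgroup.inv_mem _ (act_PH q _ h))
  by_cases hw : ∃ w : Fin n → K, ¬IsSquare (w ⬝ᵥ w)
  · obtain ⟨w, hw⟩ := hw
    have h4 := (two h2 hn h3 hw hy).resolve_left h
    have h5 := (two h2 hn h3 hw (act_PO q _ hy)).resolve_left fun h6 => h (by
      have h7 := act_PH q⁻¹ _ h6
      rwa [← MulAut.mul_apply, ← map_mul, inv_mul_cancel, map_one, MulAut.one_apply] at h7)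
    have h6 := Subgroup.mul_mem _ h4 (Subgroup.inv_mem _ h5)
    rwa [_root_.mul_inv_rev, ← mul_assoc, mul_inv_cancel_right] at h6
  · refine absurd ?_ h
    have h4 : Subgroup.closure (Set.range (rf (n := n) (F := K))) ≤
        (PH n K).comap ProjGenLinGroup.mk := (Subgroup.closure_le _).2 (by
      rintro _ ⟨v, rfl⟩
      exact rf_sq h2 hn h3 (not_not.1 fun h5 => hw ⟨v, h5⟩))
    exact h4 (cd h2 hg)

theorem pc_og0 (h2 : (2 : K) ≠ 0) (hq : 49 ≤ Nat.card K) (hn : Odd n) (h3 : 3 ≤ n)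
    {L : Subgroup (ProjGenLinGroup (Fin n) K)} (hL : PH n K ≤ L) :
    PC (G := MM n K) (L.map inl)
      (L.map inl ⊔ (Subgroup.closure (Set.range (![] : Fin 0 → RingAut K × ℤˣ))).map inr) := by
  classical
  have := Fintype.ofFinite K
  obtain ⟨m, rfl⟩ : ∃ m, n = m + 1 + 1 := ⟨n - 2, by omega⟩
  have hm : Odd m := (Nat.odd_add.1 (show Odd (m + 2) from hn)).2 even_two
  refine pc_tw hm h2 ⟨fun i => i.elim0, fun i => i.elim0, fun i => i.elim0⟩ (Γ := OG _ K) (W := ⊥)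
    (Or.inl le_rfl) (E := fun _ => 1)
    (S := fun _ => Finset.univ.filter fun p : K × K => p.1 ^ 2 + 1 * p.2 ^ 2 = 1)
    (fun j => ⟨circle_rot 1, fun p hp B hB =>
      ⟨rot_og (Finset.mem_filter.1 hp).2 hB, fun i => i.elim0⟩⟩) (fun _ => one_ne_zero)
    (r := Nat.card K + 2) (a₀ := 5) (fun _ => ?_) (by norm_num) ?_
    (fun g hg k => hL (tau_mem (⟨g, hg⟩ : OG _ K) k)) fun g hg i => i.elim0
  · have h4 := circle_card h2 (one_ne_zero (α := K))
    rw [← Nat.card_eq_fintype_card] at h4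
    nlinarith
  · rw [Subgroup.card_bot]
    omega

theorem pc_og1 (h2 : (2 : K) ≠ 0) (hq : 100 ^ 2 ≤ Nat.card K) (hn : Odd n) (h3 : 3 ≤ n)
    {L : Subgroup (ProjGenLinGroup (Fin n) K)} (hL : PH n K ≤ L) {q : RingAut K × ℤˣ}
    (hβ : Ind ![q]) (h1 : q.1 ≠ 1) :
    PC (G := MM n K) (L.map inl) (L.map inl ⊔ (Subgroup.closure (Set.range ![q])).map inr) := by
  classical
  have := Fintype.ofFinite K
  obtain ⟨m, rfl⟩ : ∃ m, n = m + 1 + 1 := ⟨n - 2, by omega⟩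
  have hm : Odd m := (Nat.odd_add.1 (show Odd (m + 2) from hn)).2 even_two
  obtain ⟨q₀, c1, -, -, c2⟩ := sub_circle h2 (σ := q.1) (congrArg Prod.fst (hβ.sq 0)) h1
  rw [← Nat.card_eq_fintype_card] at c1
  have h4 : 100 ≤ q₀ := by
    rw [c1] at hq
    exact (Nat.pow_le_pow_iff_left two_ne_zero).1 hq
  have h5 : ∀ η : K, η = 1 ∨ η = -1 →
      Nat.card K ^ 2 ≤ (q₀ ^ 3 + 2 * q₀ ^ 2) * (SC q.1 1 η).card := fun η hη => by
    have h6 := (c2 1 η (Or.inl rfl) hη).2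
    obtain ⟨k, rfl⟩ : ∃ k, q₀ = k + 1 := ⟨q₀ - 1, by omega⟩
    refine le_trans ?_ (Nat.mul_le_mul_left _ (show k ≤ _ by omega))
    rw [c1]
    nlinarith [Nat.mul_le_mul_left ((k + 1) ^ 2) (show 1 ≤ k by omega)]
  refine pc_tw hm h2 hβ (Γ := OG _ K) (W := ⊥) (Or.inl le_rfl) (E := fun _ => 1)
    (S := Sum.elim (fun _ => SC q.1 1 (-1)) fun _ => SC q.1 1 1) (fun j => ?_)
    (fun _ => one_ne_zero) (r := q₀ ^ 3 + 2 * q₀ ^ 2) (a₀ := 8 * q₀) (fun j => ?_) (by omega) ?_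
    (fun g hg k => hL (tau_mem (⟨g, hg⟩ : OG _ K) k)) fun g hg i => ?_
  · rcases j with j | j
    · refine ⟨(c2 1 (-1) (Or.inl rfl) (Or.inr rfl)).1, fun p hp B hB => ?_⟩
      obtain ⟨p1, p2, p3⟩ := (Finset.mem_filter.1 hp).2
      refine ⟨rot_og p3 hB, fun i => ?_⟩
      rw [if_pos (congrArg Sum.inl (Subsingleton.elim j i)), Subsingleton.elim i 0,
        (al_og _ _ (rot_og p3 hB)).1]
      refine Units.ext ((al_rot q.1 (map_one _) hB).trans ?_)
      rw [p1, p2, neg_one_mul]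
      exact (rho_rot hB).symm
    · refine ⟨(c2 1 1 (Or.inl rfl) (Or.inl rfl)).1, fun p hp B hB => ?_⟩
      obtain ⟨p1, p2, p3⟩ := (Finset.mem_filter.1 hp).2
      refine ⟨rot_og p3 hB, fun i => ?_⟩
      rw [if_neg Sum.inr_ne_inl, Subsingleton.elim i 0, (al_og _ _ (rot_og p3 hB)).1]
      refine Units.ext ((al_rot q.1 (map_one _) hB).trans ?_)
      rw [p1, p2, one_mul]
      exact hB.symm
  · rcases j with j | j
    · exact h5 _ (Or.inr rfl)
    · exact h5 _ (Or.inl rfl)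
  · rw [Subgroup.card_bot, c1]
    nlinarith [Nat.mul_le_mul_left (q₀ ^ 2) h4]
  · exact hL (tw_TAppO h2 hn h3 _ hg)

end Vale.Agent.P240
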