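import Vale.Agent.P240.T.PC
import Vale.Agent.P240.T.Sub

/-! P240 T/AppS. Systems indexed by SG. Plan: n = m + 1 + 1, pc_tw with Gamma = SG,
W = rootsOfUnity g K (g = gcd (2 n) (q - 1), card <= g by card_rootsOfUnity; u ^ (2 n) = 1 and
u ^ (q - 1) = 1 give u ^ g = 1, pow_gcd_eq_one); g >= 2. pc_sl1: S (inr k) the full circle (e = 1),
S (inl 0) the full hyperbola (e = -1), r = q + 2, a0 = 8. pc_sl2: S (inr k) = SC sigma 1 1,
S (inl 0) = SC sigma 1 (-1) (e = 1), S (inl 1) = SC sigma (-1) 1 (e = -1), r = q0^3 + 2 q0^2,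
a0 = 12 q0. Use rot_gl, al_rot, rot_og, al_og, gT_rot, rho_rot. tg g k = mk of g rho g⁻¹ or its
negative, of determinant one since n is odd. -/

namespace Vale.Agent.P240

open Matrix SemidirectProduct

variable {n : ℕ} {K : Type} [Field K] [Finite K]

omit [Finite K] in
theorem graph_TAppS (g : GL (Fin n) K) : al (1 : RingAut K) (-1) g = gT g := by
  have h := al_id g
  rw [al, if_pos rfl] at h
  rw [al, if_neg (by decide), h]

theorem det_TAppS {s : ℕ} {β : Fin s → RingAut K × ℤˣ} (i : Fin s) (hi : β i = (1, -1)) :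
    DetHyp β (SG n K) (rootsOfUnity (Nat.gcd (2 * n) (Nat.card K - 1)) K) := by
  refine Or.inr ⟨i, fun g hg => ⟨?_, hg, fun a b u _ _ hu => ?_⟩⟩
  · rw [hi]
    exact graph_TAppS g
  · rw [mem_rootsOfUnity]
    refine pow_gcd_eq_one.2 ⟨hu, ?_⟩
    rw [← Nat.card_units]
    exact pow_card_eq_one'

omit [Finite K] in
theorem mem_TAppS (hn : Odd n) {x : GL (Fin n) K}
    (hx : GeneralLinearGroup.det x * GeneralLinearGroup.det x = 1) :
    ProjGenLinGroup.mk x ∈ Pr (SG n K) := by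
  refine ⟨x * GeneralLinearGroup.scalar (Fin n) (GeneralLinearGroup.det x), ?_, ?_⟩
  · obtain ⟨k, hk⟩ := hn
    show GeneralLinearGroup.det _ = 1
    rw [map_mul, GeneralLinearGroup.det_scalar, Fintype.card_fin, ← pow_succ',
      show n + 1 = 2 * (k + 1) by omega, pow_mul, sq, hx, one_pow]
  · rw [map_mul, ProjGenLinGroup.mk_scalar, mul_one]

omit [Finite K] in
theorem tg_TAppS {m : ℕ} (hn : Odd (m + 1)) (g : GL (Fin (m + 1)) K) (k : Fin m) :
    tg m K g k ∈ Pr (SG (m + 1) K) := by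
  have h : rho m K k * rho m K k = 1 := by
    rw [rho, dg_mul]
    refine Units.ext ?_
    simp only [dg, Units.val_one, ← diagonal_one]
    refine congrArg diagonal (funext fun i => ?_)
    simp only [Pi.mul_apply]
    split_ifs <;> simp
  refine mem_TAppS hn ?_
  rw [← map_mul, conj_mul, h, mul_one, mul_inv_cancel, map_one]

omit [Finite K] in
theorem al_TAppS (σ : RingAut K) (ε : ℤˣ) {g : GL (Fin n) K} (hg : g ∈ SG n K) :
    ProjGenLinGroup.mk (g * (al σ ε g)⁻¹) ∈ Pr (SG n K) := by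
  refine ⟨_, (SG n K).mul_mem hg ((SG n K).inv_mem ?_), rfl⟩
  have h1 : GeneralLinearGroup.det g = 1 := hg
  show GeneralLinearGroup.det _ = 1
  refine Units.ext ?_
  rw [al_det, h1, Units.val_one, map_one, _root_.one_zpow]

section Rot

variable {m : ℕ} {k : Fin m} {e a b : K} {B : GL (Fin (m + 1)) K} {σ : RingAut K}

omit [Finite K] in
theorem r1_TAppS (h : a ^ 2 + e * b ^ 2 = 1)
    (hB : (B : Matrix (Fin (m + 1)) (Fin (m + 1)) K) = rotm k e a b) : B ∈ SG (m + 1) K := by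
  obtain ⟨B', h1, -, h2, -⟩ := rot_gl k h
  rw [show B = B' from Units.ext (hB.trans h1.symm)]
  exact h2

omit [Finite K] in
theorem r2_TAppS (h : a ^ 2 + 1 * b ^ 2 = 1)
    (hB : (B : Matrix (Fin (m + 1)) (Fin (m + 1)) K) = rotm k 1 a b) :
    al (1 : RingAut K) (-1) B = B := by
  rw [(al_og 1 (-1) (rot_og h hB)).1, al_id]

omit [Finite K] in
theorem r3_TAppS (h : a ^ 2 + -1 * b ^ 2 = 1)
    (hB : (B : Matrix (Fin (m + 1)) (Fin (m + 1)) K) = rotm k (-1) a b) :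
    al (1 : RingAut K) (-1) B = rho m K k * B * rho m K k := by
  refine Units.ext ?_
  rw [graph_TAppS, gT_rot h hB, rho_rot hB]

omit [Finite K] in
theorem r4_TAppS (he : σ e = e) (ha : σ a = a) (hb : σ b = 1 * b)
    (hB : (B : Matrix (Fin (m + 1)) (Fin (m + 1)) K) = rotm k e a b) : al σ 1 B = B := by
  refine Units.ext ?_
  rw [al_rot σ he hB, ha, hb, one_mul, hB]

omit [Finite K] in
theorem r5_TAppS (he : σ e = e) (ha : σ a = a) (hb : σ b = -1 * b)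
    (hB : (B : Matrix (Fin (m + 1)) (Fin (m + 1)) K) = rotm k e a b) :
    al σ 1 B = rho m K k * B * rho m K k := by
  refine Units.ext ?_
  rw [al_rot σ he hB, ha, hb, neg_one_mul, rho_rot hB]

end Rot

theorem rot1_TAppS [Fintype K] [DecidableEq K] (m : ℕ) :
    RotHyp ![((1 : RingAut K), (-1 : ℤˣ))] (SG (m + 1 + 1) K)
      (Sum.elim (fun _ => -1) fun _ => 1) fun j => Finset.univ.filter fun p : K × K =>
        p.1 ^ 2 + Sum.elim (fun _ => -1) (fun _ => 1) j * p.2 ^ 2 = 1 := by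
  intro j
  refine ⟨circle_rot _, fun p hp B hB => ?_⟩
  have h1 := (Finset.mem_filter.1 hp).2
  refine ⟨r1_TAppS h1 hB, fun i => ?_⟩
  obtain rfl : i = 0 := Subsingleton.elim _ _
  rcases j with j | k
  · obtain rfl : j = 0 := Subsingleton.elim _ _
    rw [if_pos rfl]
    exact r3_TAppS h1 hB
  · rw [if_neg Sum.inr_ne_inl]
    exact r2_TAppS h1 hB

theorem rot2_TAppS [Fintype K] [DecidableEq K] (m : ℕ) {σ : RingAut K}
    (h : ∀ e η : K, (e = 1 ∨ e = -1) → (η = 1 ∨ η = -1) → Rot e (SC σ e η)) :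
    RotHyp ![(σ, (1 : ℤˣ)), (1, -1)] (SG (m + 1 + 1) K) (Sum.elim ![1, -1] fun _ => 1)
      fun j => SC σ (Sum.elim ![1, -1] (fun _ => 1) j) (Sum.elim ![-1, 1] (fun _ => 1) j) := by
  have hm : σ (-1) = -1 := by rw [map_neg, map_one]
  rintro (j | k)
  · revert j
    refine Fin.forall_fin_two.2 ⟨⟨h _ _ (Or.inl rfl) (Or.inr rfl), fun p hp B hB => ?_⟩,
      ⟨h _ _ (Or.inr rfl) (Or.inl rfl), fun p hp B hB => ?_⟩⟩
    · obtain ⟨h1, h2, h3⟩ := (Finset.mem_filter.1 hp).2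
      refine ⟨r1_TAppS h3 hB, Fin.forall_fin_two.2 ⟨?_, ?_⟩⟩
      · rw [if_pos rfl]
        exact r5_TAppS (map_one σ) h1 h2 hB
      · rw [if_neg (by simp)]
        exact r2_TAppS h3 hB
    · obtain ⟨h1, h2, h3⟩ := (Finset.mem_filter.1 hp).2
      refine ⟨r1_TAppS h3 hB, Fin.forall_fin_two.2 ⟨?_, ?_⟩⟩
      · rw [if_neg (by simp)]
        exact r4_TAppS hm h1 h2 hB
      · rw [if_pos rfl]
        exact r3_TAppS h3 hB
  · refine ⟨h _ _ (Or.inl rfl) (Or.inl rfl), fun p hp B hB => ?_⟩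
    obtain ⟨h1, h2, h3⟩ := (Finset.mem_filter.1 hp).2
    refine ⟨r1_TAppS h3 hB, Fin.forall_fin_two.2 ⟨?_, ?_⟩⟩
    · rw [if_neg Sum.inr_ne_inl]
      exact r4_TAppS (map_one σ) h1 h2 hB
    · rw [if_neg Sum.inr_ne_inl]
      exact r2_TAppS h3 hB

theorem n1_TAppS {q c : ℕ} (hq : 2 ≤ q) (h : q ≤ c + 1) : q ^ 2 ≤ (q + 2) * c := by
  obtain ⟨d, rfl⟩ : ∃ d, q = d + 2 := ⟨q - 2, by omega⟩
  have h1 : (d + 2 + 2) * (d + 1) ≤ (d + 2 + 2) * c := Nat.mul_le_mul_left _ (by omega)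
  have h2 : (d + 2 + 2) * (d + 1) = (d + 2) ^ 2 + d := by ring
  omega

theorem n2_TAppS {q w g : ℕ} (hg : 0 < g) (hw : w ≤ g) (hq : 100 * g ≤ q) :
    2 * ((2 + 1) * (q ^ 2 * (q + 2)) + (1 + w) * (12 * q) * (12 * q)) ≤ 12 * q * (q ^ 2 + 1) := by
  have h1 : q ^ 2 * (12 + 288 * (1 + w)) ≤ q ^ 2 * (6 * q) := Nat.mul_le_mul_left _ (by omega)
  have h2 : 2 * ((2 + 1) * (q ^ 2 * (q + 2)) + (1 + w) * (12 * q) * (12 * q)) =
      q ^ 2 * (6 * q) + q ^ 2 * (12 + 288 * (1 + w)) := by ring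
  have h3 : 12 * q * (q ^ 2 + 1) = q ^ 2 * (6 * q) + q ^ 2 * (6 * q) + 12 * q := by ring
  omega

theorem pc_sl1 (h2 : (2 : K) ≠ 0) (hq : 100 * Nat.gcd (2 * n) (Nat.card K - 1) ≤ Nat.card K)
    (hn : Odd n) (h3 : 3 ≤ n) (hβ : Ind ![((1 : RingAut K), (-1 : ℤˣ))]) :
    PC (G := MM n K) ((Pr (SG n K)).map inl) ((Pr (SG n K)).map inl ⊔
      (Subgroup.closure (Set.range ![((1 : RingAut K), (-1 : ℤˣ))])).map inr) := by
  classical
  have := Fintype.ofFinite K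
  obtain ⟨m, rfl⟩ : ∃ m, n = m + 1 + 1 := ⟨n - 2, by omega⟩
  have hm : Odd m := by
    obtain ⟨k, hk⟩ := hn
    exact ⟨k - 1, by omega⟩
  have hg : 0 < Nat.gcd (2 * (m + 1 + 1)) (Nat.card K - 1) := Nat.gcd_pos_of_pos_left _ (by omega)
  have : NeZero (Nat.gcd (2 * (m + 1 + 1)) (Nat.card K - 1)) := ⟨hg.ne'⟩
  have hw := card_rootsOfUnity K (Nat.gcd (2 * (m + 1 + 1)) (Nat.card K - 1))
  have hE : ∀ j : Fin 1 ⊕ Fin (m + 1), Sum.elim (fun _ => (-1 : K)) (fun _ => 1) j ≠ 0 := by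
    rintro (j | j)
    · exact neg_ne_zero.2 one_ne_zero
    · exact one_ne_zero
  refine pc_tw hm h2 hβ (det_TAppS 0 rfl) (rot1_TAppS m) hE (r := Nat.card K + 2) (a₀ := 8)
    (fun j => n1_TAppS (by omega) ?_) (by norm_num) (by omega) (fun g _ k => tg_TAppS hn g k)
    fun g hg i => al_TAppS _ _ hg
  rw [Nat.card_eq_fintype_card]
  exact circle_card h2 (hE j)

theorem pc_sl2 (h2 : (2 : K) ≠ 0)
    (hq : (100 * Nat.gcd (2 * n) (Nat.card K - 1)) ^ 2 ≤ Nat.card K) (hn : Odd n) (h3 : 3 ≤ n)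
    {σ : RingAut K} (hσ : σ * σ = 1) (h1 : σ ≠ 1) (hβ : Ind ![(σ, (1 : ℤˣ)), (1, -1)]) :
    PC (G := MM n K) ((Pr (SG n K)).map inl) ((Pr (SG n K)).map inl ⊔
      (Subgroup.closure (Set.range ![(σ, (1 : ℤˣ)), (1, -1)])).map inr) := by
  classical
  have := Fintype.ofFinite K
  obtain ⟨m, rfl⟩ : ∃ m, n = m + 1 + 1 := ⟨n - 2, by omega⟩
  have hm : Odd m := by
    obtain ⟨k, hk⟩ := hn
    exact ⟨k - 1, by omega⟩
  have hg : 0 < Nat.gcd (2 * (m + 1 + 1)) (Nat.card K - 1) := Nat.gcd_pos_of_pos_left _ (by omega)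
  have : NeZero (Nat.gcd (2 * (m + 1 + 1)) (Nat.card K - 1)) := ⟨hg.ne'⟩
  have hw := card_rootsOfUnity K (Nat.gcd (2 * (m + 1 + 1)) (Nat.card K - 1))
  obtain ⟨q, hK, -, -, hS⟩ := sub_circle h2 hσ h1
  rw [← Nat.card_eq_fintype_card] at hK
  have hq' : 100 * Nat.gcd (2 * (m + 1 + 1)) (Nat.card K - 1) ≤ q :=
    (Nat.pow_le_pow_iff_left two_ne_zero).1 (hq.trans hK.le)
  have hE : ∀ j : Fin 2 ⊕ Fin (m + 1), Sum.elim ![(1 : K), -1] (fun _ => 1) j = 1 ∨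
      Sum.elim ![(1 : K), -1] (fun _ => 1) j = -1 := by
    rintro (j | j)
    · revert j
      exact Fin.forall_fin_two.2 ⟨Or.inl rfl, Or.inr rfl⟩
    · exact Or.inl rfl
  have hH : ∀ j : Fin 2 ⊕ Fin (m + 1), Sum.elim ![(-1 : K), 1] (fun _ => 1) j = 1 ∨
      Sum.elim ![(-1 : K), 1] (fun _ => 1) j = -1 := by
    rintro (j | j)
    · revert j
      exact Fin.forall_fin_two.2 ⟨Or.inr rfl, Or.inl rfl⟩
    · exact Or.inl rfl
  refine pc_tw hm h2 hβ (det_TAppS 1 rfl) (rot2_TAppS m fun e η he hη => (hS e η he hη).1)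
    (fun j => ?_) (r := q ^ 2 * (q + 2)) (a₀ := 12 * q) (fun j => ?_) (by omega) ?_
    (fun g _ k => tg_TAppS hn g k) fun g hg i => al_TAppS _ _ hg
  · rcases hE j with h | h <;> rw [h]
    · exact one_ne_zero
    · exact neg_ne_zero.2 one_ne_zero
  · rw [hK, sq (q ^ 2), mul_assoc]
    exact Nat.mul_le_mul_left _ (n1_TAppS (by omega) (hS _ _ (hE j) (hH j)).2)
  · have h4 := n2_TAppS hg hw hq'
    rwa [← hK] at h4 ⊢

end Vale.Agent.P240
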