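import Vale.Agent.P240.T.PC
import Vale.Agent.P240.T.Sub

/-! P240 T/AppU. Unitary systems. Plan: n = m + 1 + 1, pc_tw, q0 from sub_circle equals q,
r = q^3 + 2 q^2, a0 = 12 q. pc_u0: Gamma = OG inf GU, W = bot, S = SC sigma 1 1. pc_u1:
Gamma = GU inf SG, W = rootsOfUnity g K with g = gcd (2 n) (q + 1) (a column of a unitary matrix with a
single nonzero entry u has u * sigma u = 1, so u ^ (q + 1) = 1), S (inr k) = SC sigma 1 1 (e = 1),
S (inl 0) = SC sigma (-1) (-1) (e = -1); on GU, al sigma 1 g = gT g (al_comp). Use rot_gl, al_rot,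
rot_og, al_og, gT_rot, rho_rot. -/

namespace Vale.Agent.P240

open Matrix SemidirectProduct

variable {n : ℕ} {K : Type} [Field K] [Finite K]

omit [Finite K] in
theorem mk_TAppU (hn : Odd n) {σ : RingAut K} {x : GL (Fin n) K} (hx : x ∈ GU n σ)
    (hd : GeneralLinearGroup.det x * GeneralLinearGroup.det x = 1) :
    ProjGenLinGroup.mk x ∈ Pr (GU n σ ⊓ SG n K) := by
  have h1 : ((GeneralLinearGroup.det x : Kˣ) : K) * ((GeneralLinearGroup.det x : Kˣ) : K) = 1 := by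
    rw [← Units.val_mul, hd, Units.val_one]
  rcases mul_self_eq_one_iff.1 h1 with h | h
  · exact Subgroup.mem_map_of_mem _ ⟨hx, MonoidHom.mem_ker.2 (Units.ext h)⟩
  · have h5 : GeneralLinearGroup.scalar (Fin n) (-1 : Kˣ) = dg fun _ => -1 := Units.ext rfl
    have h6 : GeneralLinearGroup.scalar (Fin n) (-1 : Kˣ) ∈ GU n σ := by
      rw [h5]
      exact al_dg σ (-1) fun _ => Or.inr rfl
    have h7 : ((GeneralLinearGroup.det (GeneralLinearGroup.scalar (Fin n) (-1 : Kˣ)) : Kˣ) : K) =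
        -1 := by
      rw [h5]
      show (diagonal fun _ : Fin n => ((-1 : Kˣ) : K)).det = -1
      rw [det_diagonal, Finset.prod_const, Finset.card_univ, Fintype.card_fin, Units.val_neg,
        Units.val_one, hn.neg_one_pow]
    refine ⟨GeneralLinearGroup.scalar (Fin n) (-1 : Kˣ) * x,
      ⟨(GU n σ).mul_mem h6 hx, MonoidHom.mem_ker.2 (Units.ext ?_)⟩, ?_⟩
    · rw [map_mul, Units.val_mul, h7, h, neg_mul_neg, one_mul, Units.val_one]
    · rw [map_mul, ProjGenLinGroup.mk_scalar, one_mul]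

omit [Finite K] in
theorem tg_TAppU {m : ℕ} (hn : Odd (m + 1)) {σ : RingAut K} {g : GL (Fin (m + 1)) K}
    (hg : g ∈ GU (m + 1) σ) (k : Fin m) : tg m K g k ∈ Pr (GU (m + 1) σ ⊓ SG (m + 1) K) := by
  have h0 : rho m K k ∈ GU (m + 1) σ :=
    al_dg σ (-1) fun i => by split_ifs <;> simp
  have h1 : rho m K k * rho m K k = 1 := by
    rw [rho, dg_mul]
    refine Units.ext ((congrArg diagonal (funext fun i => ?_)).trans diagonal_one)
    rw [Pi.mul_apply]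
    split_ifs <;> simp
  refine mk_TAppU hn ((GU _ σ).mul_mem ((GU _ σ).mul_mem hg h0) ((GU _ σ).inv_mem hg)) ?_
  rw [← map_mul]
  have h2 : g * rho m K k * g⁻¹ * (g * rho m K k * g⁻¹) = g * (rho m K k * rho m K k) * g⁻¹ := by
    group
  rw [h2, h1, mul_one, mul_inv_cancel, map_one]

omit [Finite K] in
theorem real_TAppU [Fintype K] [DecidableEq K] {m : ℕ} {σ : RingAut K} {p : K × K}
    (hp : p ∈ SC σ 1 1) {k : Fin m} {B : GL (Fin (m + 1)) K}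
    (hB : (B : Matrix (Fin (m + 1)) (Fin (m + 1)) K) = rotm k 1 p.1 p.2) :
    B ∈ OG (m + 1) K ∧ B ∈ GU (m + 1) σ ∧ B ∈ SG (m + 1) K ∧ al σ 1 B = B := by
  obtain ⟨-, ha, hb, hab⟩ := Finset.mem_filter.1 hp
  have h1 := rot_og hab hB
  have h2 : al σ 1 B = B := Units.ext (by rw [al_rot σ (map_one σ) hB, ha, hb, one_mul, hB])
  obtain ⟨B', h3, -, h4, -⟩ := rot_gl k hab
  obtain rfl : B' = B := Units.ext (h3.trans hB.symm)
  exact ⟨h1, (al_og σ (-1) h1).1.trans h2, MonoidHom.mem_ker.2 h4, h2⟩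

omit [Finite K] in
theorem imag_TAppU [Fintype K] [DecidableEq K] {m : ℕ} {σ : RingAut K} {p : K × K}
    (hp : p ∈ SC σ (-1) (-1)) {k : Fin m} {B : GL (Fin (m + 1)) K}
    (hB : (B : Matrix (Fin (m + 1)) (Fin (m + 1)) K) = rotm k (-1) p.1 p.2) :
    B ∈ GU (m + 1) σ ∧ B ∈ SG (m + 1) K ∧ al σ 1 B = rho m K k * B * rho m K k := by
  obtain ⟨-, ha, hb, hab⟩ := Finset.mem_filter.1 hp
  have h1 : ((al σ 1 B : GL (Fin (m + 1)) K) : Matrix (Fin (m + 1)) (Fin (m + 1)) K) =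
      rotm k (-1) p.1 (-p.2) := by
    rw [al_rot σ (by rw [map_neg, map_one]) hB, ha, hb, neg_one_mul]
  have h2 : gT (al σ 1 B) = B :=
    Units.ext (by rw [gT_rot (by rw [neg_sq]; exact hab) h1, neg_neg, hB])
  obtain ⟨B', h3, -, h4, -⟩ := rot_gl k hab
  obtain rfl : B' = B := Units.ext (h3.trans hB.symm)
  refine ⟨?_, MonoidHom.mem_ker.2 h4, Units.ext (h1.trans (rho_rot hB).symm)⟩
  rw [pos_TAct] at h2
  exact (neg_TAct σ B').trans h2

theorem num_TAppU {q c : ℕ} (hq : 2 ≤ q) (hc : q ≤ c + 1) :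
    (q ^ 2) ^ 2 ≤ (q ^ 3 + 2 * q ^ 2) * c := by
  obtain ⟨t, rfl⟩ : ∃ t, q = t + 2 := ⟨q - 2, by omega⟩
  refine le_trans ?_ (Nat.mul_le_mul_left _ (by omega : t + 1 ≤ c))
  have h : ((t + 2) ^ 3 + 2 * (t + 2) ^ 2) * (t + 1) = ((t + 2) ^ 2) ^ 2 + t * (t + 2) ^ 2 := by
    ring
  omega

theorem num2_TAppU {q s w g : ℕ} (hs : s ≤ 2) (hq : 100 * g ≤ q) (hg : 1 ≤ g) (hw : w ≤ g) :
    2 * (s * (q ^ 3 + 2 * q ^ 2) + (1 + w) * (12 * q) * (12 * q)) ≤ 12 * q * (q ^ 2 + 1) := by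
  have h1 : s * (q ^ 3 + 2 * q ^ 2) ≤ 2 * (q ^ 3 + 2 * q ^ 2) := Nat.mul_le_mul_right _ hs
  have h2 : 100 * w * q ^ 2 ≤ q * q ^ 2 := Nat.mul_le_mul_right _ (by omega)
  have h3 : 100 * q ^ 2 ≤ q * q ^ 2 := Nat.mul_le_mul_right _ (by omega)
  have h4 : (1 + w) * (12 * q) * (12 * q) = 144 * q ^ 2 + 144 * (w * q ^ 2) := by ring
  have h5 : 12 * q * (q ^ 2 + 1) = 12 * q ^ 3 + 12 * q := by ring
  have h6 : q * q ^ 2 = q ^ 3 := by ring
  rw [mul_assoc] at h2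
  omega

omit [Finite K] in
theorem gT_TAppU {σ : RingAut K} {g : GL (Fin n) K} (hg : g ∈ GU n σ) : al σ 1 g = gT g := by
  have h : gT (GeneralLinearGroup.map (σ : K →+* K) g) = g := (neg_TAct σ g).symm.trans hg
  rw [pos_TAct]
  exact congrArg gT h

omit [Finite K] in
theorem col_TAppU {σ : RingAut K} {g : GL (Fin n) K} (hg : g ∈ GU n σ) {a b : Fin n}
    (h : ∀ a', a' ≠ a → (g : Matrix (Fin n) (Fin n) K) a' b = 0) :
    σ ((g : Matrix (Fin n) (Fin n) K) a b) * (g : Matrix (Fin n) (Fin n) K) a b = 1 := by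
  have h1 := gT_TAppU hg
  rw [pos_TAct] at h1
  have h2 : σ ((g : Matrix (Fin n) (Fin n) K) a b) =
      ((g⁻¹ : GL (Fin n) K) : Matrix (Fin n) (Fin n) K) b a :=
    congrArg (fun x : GL (Fin n) K => (x : Matrix (Fin n) (Fin n) K) a b) h1
  have h3 := congrFun (congrFun (Units.inv_mul g) b) b
  rw [mul_apply, one_apply_eq, Finset.sum_eq_single a (fun a' _ ha => by rw [h a' ha, mul_zero])
    fun ha => absurd (Finset.mem_univ a) ha] at h3
  rw [h2, h3]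

theorem pc_u0 (h2 : (2 : K) ≠ 0) {q : ℕ} (hK : Nat.card K = q ^ 2) (hq : 100 ≤ q) (hn : Odd n)
    (h3 : 3 ≤ n) {σ : RingAut K} (hσ : σ * σ = 1) (h1 : σ ≠ 1) :
    PC (G := MM n K) ((Pr (GU n σ ⊓ SG n K)).map inl) ((Pr (GU n σ ⊓ SG n K)).map inl ⊔
      (Subgroup.closure (Set.range (![] : Fin 0 → RingAut K × ℤˣ))).map inr) := by
  classical
  obtain ⟨m, rfl⟩ : ∃ m, n = m + 1 + 1 := ⟨n - 2, by omega⟩
  letI := Fintype.ofFinite K
  obtain ⟨q₀, hc, -, -, hS⟩ := sub_circle h2 hσ h1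
  obtain rfl : q₀ = q :=
    Nat.pow_left_injective two_ne_zero (hc.symm.trans (Nat.card_eq_fintype_card.symm.trans hK))
  refine pc_tw (s := 0) (W := ⊥) (Γ := OG (m + 1 + 1) K ⊓ GU (m + 1 + 1) σ) (E := fun _ => 1)
    (S := fun _ => SC σ 1 1) (r := q₀ ^ 3 + 2 * q₀ ^ 2) (a₀ := 12 * q₀)
    (by rcases hn with ⟨t, ht⟩; exact ⟨t - 1, by omega⟩) h2
    ⟨fun i => i.elim0, fun i => i.elim0, fun i => i.elim0⟩ (Or.inl inf_le_left)
    (fun j => ⟨(hS 1 1 (Or.inl rfl) (Or.inl rfl)).1, fun p hp B hB =>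
      ⟨⟨(real_TAppU hp hB).1, (real_TAppU hp hB).2.1⟩, fun i => i.elim0⟩⟩)
    (fun _ => one_ne_zero)
    (fun _ => by rw [hK]; exact num_TAppU (by omega) (hS 1 1 (Or.inl rfl) (Or.inl rfl)).2)
    (by omega) ?_ (fun g hg k => tg_TAppU hn hg.2 k) fun _ _ i => i.elim0
  rw [hK, Subgroup.card_bot]
  exact num2_TAppU (g := 1) (by omega) (by omega) le_rfl le_rfl

theorem pc_u1 (h2 : (2 : K) ≠ 0) {q : ℕ} (hK : Nat.card K = q ^ 2)
    (hq : 100 * Nat.gcd (2 * n) (q + 1) ≤ q) (hn : Odd n) (h3 : 3 ≤ n) {σ : RingAut K}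
    (hσ : σ * σ = 1) (h1 : σ ≠ 1) (hβ : Ind ![(σ, (1 : ℤˣ))]) :
    PC (G := MM n K) ((Pr (GU n σ ⊓ SG n K)).map inl) ((Pr (GU n σ ⊓ SG n K)).map inl ⊔
      (Subgroup.closure (Set.range ![(σ, (1 : ℤˣ))])).map inr) := by
  classical
  obtain ⟨m, rfl⟩ : ∃ m, n = m + 1 + 1 := ⟨n - 2, by omega⟩
  letI := Fintype.ofFinite K
  obtain ⟨q₀, hc, hpow, -, hS⟩ := sub_circle h2 hσ h1
  obtain rfl : q₀ = q :=
    Nat.pow_left_injective two_ne_zero (hc.symm.trans (Nat.card_eq_fintype_card.symm.trans hK))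
  have hg0 : 0 < Nat.gcd (2 * (m + 1 + 1)) (q₀ + 1) := Nat.gcd_pos_of_pos_right _ q₀.succ_pos
  haveI : NeZero (Nat.gcd (2 * (m + 1 + 1)) (q₀ + 1)) := ⟨hg0.ne'⟩
  refine pc_tw (s := 1) (W := rootsOfUnity (Nat.gcd (2 * (m + 1 + 1)) (q₀ + 1)) K)
    (Γ := GU (m + 1 + 1) σ ⊓ SG (m + 1 + 1) K) (E := Sum.elim (fun _ => -1) fun _ => 1)
    (S := Sum.elim (fun _ => SC σ (-1) (-1)) fun _ => SC σ 1 1)
    (r := q₀ ^ 3 + 2 * q₀ ^ 2) (a₀ := 12 * q₀)
    (by rcases hn with ⟨t, ht⟩; exact ⟨t - 1, by omega⟩) h2 hβ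
    (Or.inr ⟨0, fun g hg => ⟨gT_TAppU hg.1, MonoidHom.mem_ker.1 hg.2, fun a b u ha hu hu2 => ?_⟩⟩)
    ?_ ?_ ?_ (by omega) ?_ (fun g hg k => tg_TAppU hn hg.1 k) fun g hg i => ?_
  · have h4 := col_TAppU hg.1 ha
    rw [hu, hpow, ← pow_succ] at h4
    have h5 : u ^ (q₀ + 1) = 1 := Units.ext (by rw [Units.val_pow_eq_pow_val, h4, Units.val_one])
    refine (mem_rootsOfUnity _ _).2 (pow_gcd_eq_one.2 ⟨hu2, ?_⟩)
    rw [← pow_mul, mul_comm, pow_mul, h5, one_pow]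
  · rintro (j | j)
    · refine ⟨(hS (-1) (-1) (Or.inr rfl) (Or.inr rfl)).1, fun p hp B hB => ?_⟩
      obtain ⟨h4, h5, h6⟩ := imag_TAppU (k := 0) hp hB
      refine ⟨⟨h4, h5⟩, fun i => ?_⟩
      obtain rfl : i = 0 := Subsingleton.elim _ _
      obtain rfl : j = 0 := Subsingleton.elim _ _
      rw [if_pos rfl]
      exact h6
    · refine ⟨(hS 1 1 (Or.inl rfl) (Or.inl rfl)).1, fun p hp B hB => ?_⟩
      obtain ⟨-, h4, h5, h6⟩ := real_TAppU (k := j) hp hB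
      refine ⟨⟨h4, h5⟩, fun i => ?_⟩
      obtain rfl : i = 0 := Subsingleton.elim _ _
      rw [if_neg Sum.inr_ne_inl]
      exact h6
  · rintro (j | j)
    · exact neg_ne_zero.2 one_ne_zero
    · exact one_ne_zero
  · rw [hK]
    rintro (j | j)
    · exact num_TAppU (by omega) (hS (-1) (-1) (Or.inr rfl) (Or.inr rfl)).2
    · exact num_TAppU (by omega) (hS 1 1 (Or.inl rfl) (Or.inl rfl)).2
  · rw [hK]
    exact num2_TAppU le_rfl hq hg0 (card_rootsOfUnity K _)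
  · obtain rfl : i = 0 := Subsingleton.elim _ _
    have h4 : al σ (-1) (al σ 1 g) = al σ 1 g := by
      rw [← al_comp, mul_comm (-1 : ℤˣ), al_comp]
      exact congrArg (al σ 1) hg.1
    have h5 : GeneralLinearGroup.det (al σ 1 g) = 1 := Units.ext (by
      rw [al_det, MonoidHom.mem_ker.1 hg.2, Units.val_one, map_one, _root_.one_zpow])
    exact Subgroup.mem_map_of_mem _ (Subgroup.mul_mem _ hg
      (Subgroup.inv_mem _ ⟨h4, MonoidHom.mem_ker.2 h5⟩))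

end Vale.Agent.P240
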