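import Vale.Agent.P240.D.Trans

/-! P240 T/Conj. Plan: conj_std: in the abelian group D = N / L of odd exponent n the map
c x = class of x.left is a cocycle on A, card A = 2^k. With P = product of all c x' one gets
c x ^ card A = P / (x acting on P); choose u with u * card A = 1 mod n and g a lift of P ^ (-u) (or a
product of the x'.left in any order, raised to a power). pc_conj: conjugation by inl g maps
L sup A onto L sup inr (rightHom A); PC.transfer. pc_inl: PC.transfer with equivMapOfInjective. -/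

namespace Vale.Agent.P240

open Matrix SemidirectProduct

variable {P Q : Type} [Group P] [Group Q] {φ : Q →* MulAut P}

theorem cocycle_TConj {A D : Type*} [Group A] [Finite A] [CommGroup D] (α : A → D →* D) (c : A → D)
    (hc : ∀ x y, c (x * y) = c x * α x (c y)) {n : ℕ} (hexp : ∀ d : D, d ^ n = 1)
    (hco : Nat.Coprime (Nat.card A) n) : ∃ d : D, ∀ x, d * c x * α x d⁻¹ = 1 := by
  classical
  letI := Fintype.ofFinite A
  obtain ⟨a, b, hab⟩ := Nat.isCoprime_iff_coprime.2 hco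
  refine ⟨((∏ y, c y) ^ a)⁻¹, fun x => ?_⟩
  have h1 : ∏ y, c y = c x ^ Nat.card A * α x (∏ y, c y) := by
    rw [map_prod, Nat.card_eq_fintype_card, ← Finset.card_univ, ← Finset.prod_const,
      ← Finset.prod_mul_distrib]
    rw [← Equiv.prod_comp (Equiv.mulLeft x) c]
    exact Finset.prod_congr rfl fun y _ => hc x y
  have h2 : (c x ^ Nat.card A) ^ a = c x := by
    have h3 : c x ^ (a * (Nat.card A : ℤ) + b * (n : ℤ)) = c x := by rw [hab, zpow_one]
    rw [_root_.zpow_add, mul_comm b, _root_.zpow_mul (c x) (n : ℤ), zpow_natCast, hexp,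
      _root_.one_zpow, mul_one, mul_comm a, _root_.zpow_mul, zpow_natCast] at h3
    exact h3
  have h4 : (∏ y, c y) ^ a = c x * α x (∏ y, c y) ^ a := by
    conv_lhs => rw [h1]
    rw [mul_zpow, h2]
  rw [inv_inv, map_zpow, mul_assoc, ← h4, inv_mul_cancel]

theorem left_conj_TConj (g : P) (x : P ⋊[φ] Q) :
    (inl g * x * (inl g)⁻¹).left = g * x.left * φ x.right g⁻¹ := by
  rw [← map_inv, mul_left, mul_left, mul_right]
  simp

theorem right_conj_TConj (g : P) (x : P ⋊[φ] Q) :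
    (inl g * x * (inl g)⁻¹).right = x.right := by
  rw [← map_inv, mul_right, mul_right]
  simp

theorem conj_std {L N : Subgroup P} (hLN : L ≤ N) (hc : ∀ y ∈ N, ∀ y' ∈ N, y * y' * y⁻¹ * y'⁻¹ ∈ L) {n : ℕ}
    (hn : Odd n) (hexp : ∀ y ∈ N, y ^ n ∈ L) (A : Subgroup (P ⋊[φ] Q)) [Finite A]
    (hsq : ∀ x ∈ A, x * x = 1)
    (hA : ∀ x ∈ A, x.left ∈ N ∧ (∀ y ∈ N, φ x.right y ∈ N) ∧ ∀ y ∈ L, φ x.right y ∈ L) :
    ∃ g ∈ N, ∀ x ∈ A, (inl g * x * (inl g)⁻¹).left ∈ L := by
  haveI hnorm : (L.subgroupOf N).Normal := ⟨fun l hl y => by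
    rw [Subgroup.mem_subgroupOf] at hl ⊢
    have h1 := L.mul_mem (hc y y.2 l l.2) hl
    simpa using h1⟩
  letI : CommGroup (N ⧸ L.subgroupOf N) :=
    { (inferInstance : Group (N ⧸ L.subgroupOf N)) with
      mul_comm := fun a b => by
        obtain ⟨a, rfl⟩ := QuotientGroup.mk_surjective a
        obtain ⟨b, rfl⟩ := QuotientGroup.mk_surjective b
        rw [← QuotientGroup.mk_mul, ← QuotientGroup.mk_mul, QuotientGroup.eq,
          Subgroup.mem_subgroupOf]
        have h1 := hc _ (N.inv_mem b.2) _ (N.inv_mem a.2)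
        simpa [mul_assoc] using h1 }
  obtain ⟨ρ, hρ⟩ : ∃ ρ : A → N →* N, ∀ x y, (ρ x y : P) = φ (x : P ⋊[φ] Q).right y :=
    ⟨fun x => ((φ (x : P ⋊[φ] Q).right).toMonoidHom.comp N.subtype).codRestrict N
      (fun y => (hA x x.2).2.1 y y.2), fun x y => rfl⟩
  have hρL : ∀ x, L.subgroupOf N ≤ (L.subgroupOf N).comap (ρ x) := fun x y hy => by
    rw [Subgroup.mem_comap, Subgroup.mem_subgroupOf, hρ]
    exact (hA x x.2).2.2 y hy
  have hco : Nat.Coprime (Nat.card A) n := by
    haveI : Fact (Nat.Prime 2) := ⟨Nat.prime_two⟩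
    have h2 : IsPGroup 2 A := fun x => ⟨1, Subtype.ext (by simpa [sq] using hsq x x.2)⟩
    obtain ⟨k, hk⟩ := IsPGroup.iff_card.1 h2
    rw [hk]
    exact Nat.Coprime.pow_left k (Nat.coprime_two_left.2 hn)
  obtain ⟨d, hd⟩ := cocycle_TConj (A := A) (D := N ⧸ L.subgroupOf N)
    (fun x => QuotientGroup.map _ _ (ρ x) (hρL x))
    (fun x => QuotientGroup.mk ⟨(x : P ⋊[φ] Q).left, (hA x x.2).1⟩)
    (fun x y => by
      rw [QuotientGroup.map_mk, ← QuotientGroup.mk_mul]
      refine congrArg _ (Subtype.ext ?_)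
      rw [N.coe_mul, hρ]
      rfl)
    (n := n)
    (fun d => by
      obtain ⟨d, rfl⟩ := QuotientGroup.mk_surjective d
      rw [← QuotientGroup.mk_pow, QuotientGroup.eq_one_iff, Subgroup.mem_subgroupOf]
      exact hexp d d.2)
    hco
  obtain ⟨g, rfl⟩ := QuotientGroup.mk_surjective d
  refine ⟨g, g.2, fun x hx => ?_⟩
  have h1 := hd ⟨x, hx⟩
  rw [← QuotientGroup.mk_inv, QuotientGroup.map_mk, ← QuotientGroup.mk_mul, ← QuotientGroup.mk_mul,
    QuotientGroup.eq_one_iff, Subgroup.mem_subgroupOf, Subgroup.coe_mul, Subgroup.coe_mul, hρ] at h1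
  rw [left_conj_TConj]
  exact h1

theorem pc_conj {L : Subgroup P} {g : P} (hg : g ∈ Subgroup.normalizer (L : Set P))
    {A : Subgroup (P ⋊[φ] Q)} (hA : ∀ x ∈ A, (inl g * x * (inl g)⁻¹).left ∈ L)
    (h : PC (G := P ⋊[φ] Q) (L.map inl) (L.map inl ⊔ (A.map rightHom).map inr)) :
    PC (L.map inl) (L.map inl ⊔ A) := by
  have hLc : ∀ y : P ⋊[φ] Q, y ∈ L.map inl ↔ MulAut.conj (inl g : P ⋊[φ] Q) y ∈ L.map inl := by
    intro y
    rw [MulAut.conj_apply]
    constructor
    · rintro ⟨l, hl, rfl⟩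
      exact ⟨g * l * g⁻¹, (Subgroup.mem_normalizer_iff.1 hg l).1 hl, by simp⟩
    · rintro ⟨l, hl, hy⟩
      refine ⟨g⁻¹ * l * g, (Subgroup.mem_normalizer_iff.1 hg _).2 (by simpa [mul_assoc] using hl), ?_⟩
      rw [map_mul, map_mul, hy, map_inv]
      group
  have hmap : (L.map inl ⊔ A).map (MulAut.conj (inl g : P ⋊[φ] Q)).toMonoidHom
      = L.map inl ⊔ (A.map rightHom).map inr := by
    apply le_antisymm
    · rw [Subgroup.map_le_iff_le_comap]
      refine sup_le (fun y hy => ?_) (fun x hx => ?_)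
      · exact Subgroup.mem_sup_left ((hLc y).1 hy)
      · rw [Subgroup.mem_comap]
        change inl g * x * (inl g)⁻¹ ∈ _
        rw [← inl_left_mul_inr_right (inl g * x * (inl g)⁻¹), right_conj_TConj]
        exact Subgroup.mul_mem _ (Subgroup.mem_sup_left ⟨_, hA x hx, rfl⟩)
          (Subgroup.mem_sup_right ⟨_, ⟨x, hx, rfl⟩, rfl⟩)
    · have hL : L.map inl ≤ (L.map inl ⊔ A).map (MulAut.conj (inl g : P ⋊[φ] Q)).toMonoidHom := by
        intro y hy
        refine ⟨(MulAut.conj (inl g : P ⋊[φ] Q)).symm y, Subgroup.mem_sup_left ((hLc _).2 ?_), ?_⟩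
        · rw [MulEquiv.apply_symm_apply]
          exact hy
        · exact MulEquiv.apply_symm_apply _ y
      refine sup_le hL ?_
      rintro _ ⟨_, ⟨x, hx, rfl⟩, rfl⟩
      have h1 : inl g * x * (inl g)⁻¹
          ∈ (L.map inl ⊔ A).map (MulAut.conj (inl g : P ⋊[φ] Q)).toMonoidHom :=
        ⟨x, Subgroup.mem_sup_right hx, rfl⟩
      have h2 := Subgroup.mul_mem _ (Subgroup.inv_mem _ (hL ⟨_, hA x hx, rfl⟩)) h1
      have h3 := inl_left_mul_inr_right (inl g * x * (inl g)⁻¹)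
      rw [right_conj_TConj] at h3
      rw [← h3] at h2
      have h4 : (inl (inl g * x * (inl g)⁻¹).left * inr x.right : P ⋊[φ] Q).left
          = (inl g * x * (inl g)⁻¹).left := by rw [h3]
      rw [h4, inv_mul_cancel_left] at h2
      exact h2
  refine PC.transfer le_sup_left le_sup_left
    (((MulAut.conj (inl g : P ⋊[φ] Q)).subgroupMap (L.map inl ⊔ A)).trans
      (MulEquiv.subgroupCongr hmap)) (fun x => ?_) h
  exact hLc x

theorem pc_inl {L H : Subgroup P} (hL : L ≤ H) (h : PC L H) :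
    PC (G := P ⋊[φ] Q) (L.map inl) (H.map inl) := by
  refine PC.transfer (Subgroup.map_mono hL) hL
    (Subgroup.equivMapOfInjective H (inl : P →* P ⋊[φ] Q) inl_injective).symm (fun x => ?_) h
  obtain ⟨y, rfl⟩ := (Subgroup.equivMapOfInjective H (inl : P →* P ⋊[φ] Q) inl_injective).surjective x
  rw [MulEquiv.symm_apply_apply, Subgroup.coe_equivMapOfInjective_apply]
  exact Subgroup.mem_map_iff_mem inl_injective

end Vale.Agent.P240
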