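import Vale.Agent.P240.T.Cmp
import Vale.Agent.P240.T.AppO
import Vale.Agent.P240.T.AppS
import Vale.Agent.P240.T.AppU
import Vale.Agent.P240.T.Cent
import Vale.Agent.P240.T.Conj
import Vale.Agent.P240.T.ConjB
import Vale.Agent.P240.E.Main
import Vale.Agent.P240.D.PC

/-! P240 T/Final: assembly of the elimination theorem with field and graph automorphisms. -/

namespace Vale.Agent.P240

open Matrix SemidirectProduct

variable {n : ℕ} {K : Type} [Field K] [Finite K]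

/-- The admissible outer parts. -/
def QQ (K : Type) [Field K] [Finite K] (E : Subgroup ℤˣ) : Subgroup (RingAut K × ℤˣ) where
  carrier := {q | q.1 * q.1 = 1 ∧ q.2 ∈ E}
  one_mem' := ⟨mul_one _, E.one_mem⟩
  mul_mem' := by
    rintro a b ⟨ha, ha'⟩ ⟨hb, hb'⟩
    refine ⟨?_, E.mul_mem ha' hb'⟩
    show a.1 * b.1 * (a.1 * b.1) = 1
    rw [mul_assoc, ← mul_assoc b.1, ringAut_comm b.1 a.1, mul_assoc, hb, mul_one, ha]
  inv_mem' := by
    rintro a ⟨ha, ha'⟩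
    refine ⟨?_, E.inv_mem ha'⟩
    show a.1⁻¹ * a.1⁻¹ = 1
    rw [← _root_.mul_inv_rev, ha, inv_one]

theorem fin_core {G : Type} [Group G] [Finite G] (hG : MinHyp 2 G) {L : Subgroup G}
    (hL : L.IsSubnormal) (hs : IsSimpleGroup L) {L' : Subgroup (ProjGenLinGroup (Fin n) K)}
    {Y : Subgroup (GL (Fin n) K)} {E : Subgroup ℤˣ} (hLY : L' ≤ Pr Y)
    (hact : ∀ q ∈ QQ K E, ∀ y ∈ Pr Y, act n K q y ∈ Pr Y)
    (hc : ∀ x : MM n K, x.right ∈ QQ K E →
      (∀ l ∈ L'.map (inl : _ →* MM n K), x * l = l * x) → x = 1)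
    (hpc : ∀ A : Subgroup (MM n K), (∀ x ∈ A, x.left ∈ Pr Y ∧ x.right ∈ QQ K E) →
      (∀ x ∈ A, ∀ y ∈ A, x * y = y * x) → (∀ x ∈ A, x * x = 1) →
      PC (G := MM n K) (L'.map inl) (L'.map inl ⊔ A))
    (h : Cmp L L' Y E) : HQ 2 (⊤ : Subgroup G) := by
  obtain ⟨e, he⟩ := h
  let e₂ : L ≃* L'.map (inl : _ →* MM n K) := e.trans (L'.equivMapOfInjective inl inl_injective)
  have hv : ∀ l : L, (e₂ l : MM n K) = inl (e l : ProjGenLinGroup (Fin n) K) := fun l => rfl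
  have hna : ∃ x ∈ L, ∃ y ∈ L, x * y ≠ y * x := by
    by_contra hn
    obtain ⟨l, hl⟩ := exists_ne (1 : L)
    refine hl (e₂.injective (Subtype.ext ?_))
    rw [map_one]
    refine hc _ (by rw [hv, right_inl]; exact one_mem _) fun l' hl' => ?_
    obtain ⟨m, hm⟩ := e₂.surjective ⟨l', hl'⟩
    have h1 : l * m = m * l := by
      by_contra h2
      exact hn ⟨l, l.2, m, m.2, fun h3 => h2 (Subtype.ext h3)⟩
    have h2 := congrArg (fun z => (e₂ z : MM n K)) h1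
    simp only [map_mul, Subgroup.coe_mul, hm] at h2
    exact h2
  refine elim hL hs hna hG.1 hG.2 fun A hA => ?_
  obtain ⟨A', h1, h2, h3, e', he'⟩ := exists_equiv (N := NN (Pr Y) (QQ K E) hact) e₂
    (by
      rintro _ ⟨y, hy, rfl⟩
      exact ⟨hLY hy, one_mem _⟩)
    (fun y hy => hc y hy.2) hA (inf_cent hs hna) fun x hxA => by
      obtain ⟨y, hy, σ, hσ, ε, hε, h⟩ := he x (hA.1 hxA) (hA.2.2.1 x hxA)
      refine ⟨inl (ProjGenLinGroup.mk y) * inr (σ, ε), ⟨?_, ?_⟩, fun l l' hl => ?_⟩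
      · show (inl (ProjGenLinGroup.mk y) * inr (σ, ε) : MM n K).left ∈ Pr Y
        simp only [mul_left, left_inl, right_inl, left_inr, map_one, mul_one]
        exact Subgroup.mem_map_of_mem _ hy
      · show (inl (ProjGenLinGroup.mk y) * inr (σ, ε) : MM n K).right ∈ QQ K E
        simp only [mul_right, right_inl, right_inr, one_mul]
        exact ⟨hσ, hε⟩
      · obtain ⟨g, hg⟩ := ProjGenLinGroup.mk_surjective (e l : ProjGenLinGroup (Fin n) K)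
        rw [hv, hv, h l l' hl g hg.symm, ← hg, map_mul, map_mul, map_mul, map_mul, map_inv, map_inv,
          ← act_mk (σ, ε) g, inl_aut, map_inv]
        group
  exact PC.transfer le_sup_left le_sup_left e' he' (hpc A' (fun x hx => h1 hx) h2 h3)

theorem norm_TFin {P : Type} [Group P] {L N : Subgroup P} (hLN : L ≤ N)
    (hc : ∀ y ∈ N, ∀ y' ∈ N, y * y' * y⁻¹ * y'⁻¹ ∈ L) {g : P} (hg : g ∈ N) :
    g ∈ Subgroup.normalizer (L : Set P) := by
  refine Subgroup.mem_normalizer_iff.2 fun l => ⟨fun hl => ?_, fun hl => ?_⟩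
  · have h1 := L.mul_mem (hc g hg l (hLN hl)) hl
    rwa [inv_mul_cancel_right] at h1
  · have h1 := L.mul_mem (hc g⁻¹ (N.inv_mem hg) _ (hLN hl)) hl
    rw [inv_mul_cancel_right] at h1
    have e : g⁻¹ * (g * l * g⁻¹) * g⁻¹⁻¹ = l := by group
    rwa [e] at h1

theorem sq_TFin {σ : RingAut K} (hσ : σ * σ = 1) (h1 : σ ≠ 1) : IsSquare (Nat.card K) := by
  obtain ⟨F, -, h, -⟩ := fix_TSub hσ h1
  exact ⟨Nat.card F, by rw [h, sq]⟩

omit [Finite K] in
theorem right_TFin {A : Subgroup (MM n K)} (hsq : ∀ x ∈ A, x * x = 1) :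
    ∀ q ∈ A.map rightHom, q * q = 1 := by
  rintro _ ⟨x, hx, rfl⟩
  rw [← map_mul, hsq x hx, map_one]

omit [Finite K] in
theorem ind_TFin {q : RingAut K × ℤˣ} (h : Ind ![q]) : q ≠ 1 := by
  rintro rfl
  exact h.indep 0 (one_mem _)

omit [Finite K] in
theorem det_TFin (c : Kˣ) :
    GeneralLinearGroup.det (GeneralLinearGroup.scalar (Fin n) c) = c ^ n := by
  refine Units.ext ?_
  show (diagonal fun _ : Fin n => (c : K)).det = _
  rw [det_diagonal, Finset.prod_const, Finset.card_univ, Fintype.card_fin, Units.val_pow_eq_pow_val]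

omit [Finite K] in
theorem pow_TFin (g : GL (Fin n) K) :
    GeneralLinearGroup.scalar (Fin n) (GeneralLinearGroup.det g)⁻¹ * g ^ n ∈ SG n K ∧
    ProjGenLinGroup.mk (GeneralLinearGroup.scalar (Fin n) (GeneralLinearGroup.det g)⁻¹ * g ^ n) =
      ProjGenLinGroup.mk g ^ n := by
  refine ⟨MonoidHom.mem_ker.2 ?_, ?_⟩
  · rw [map_mul, det_TFin, map_pow, ← mul_pow, inv_mul_cancel, one_pow]
  · rw [map_mul, ProjGenLinGroup.mk_scalar, one_mul, map_pow]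

omit [Finite K] in
theorem comm_TFin (g g' : GL (Fin n) K) : g * g' * g⁻¹ * g'⁻¹ ∈ SG n K := by
  refine MonoidHom.mem_ker.2 ?_
  simp only [map_mul, map_inv]
  rw [mul_inv_cancel_comm, mul_inv_cancel]

omit [Finite K] in
theorem alsg_TFin (σ : RingAut K) (ε : ℤˣ) {g : GL (Fin n) K} (hg : g ∈ SG n K) :
    al σ ε g ∈ SG n K := by
  refine MonoidHom.mem_ker.2 (Units.ext ?_)
  rw [al_det, MonoidHom.mem_ker.1 hg]
  simp

theorem algu_TFin (σ τ : RingAut K) (ε : ℤˣ) {g : GL (Fin n) K} (hg : g ∈ GU n σ) :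
    al τ ε g ∈ GU n σ := by
  have h1 : al σ (-1) g = g := hg
  show al σ (-1) (al τ ε g) = al τ ε g
  rw [← al_comp, ringAut_comm σ τ, mul_comm (-1 : ℤˣ), al_comp, h1]

theorem pc_A (h2 : (2 : K) ≠ 0) (hn : Odd n) (h3 : 3 ≤ n)
    (hq : 100 * Nat.gcd (2 * n) (Nat.card K - 1) ≤ Nat.card K)
    (hq' : IsSquare (Nat.card K) → (100 * Nat.gcd (2 * n) (Nat.card K - 1)) ^ 2 ≤ Nat.card K)
    (A : Subgroup (MM n K)) (hsq : ∀ x ∈ A, x * x = 1) :
    PC (G := MM n K) ((Pr (SG n K)).map inl) ((Pr (SG n K)).map inl ⊔ A) := by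
  have := fin_MM n K
  have hg : 0 < Nat.gcd (2 * n) (Nat.card K - 1) := Nat.gcd_pos_of_pos_left _ (by omega)
  have hc : ∀ y ∈ (⊤ : Subgroup (ProjGenLinGroup (Fin n) K)), ∀ y' ∈ (⊤ : Subgroup _),
      y * y' * y⁻¹ * y'⁻¹ ∈ Pr (SG n K) := by
    intro y _ y' _
    obtain ⟨g, rfl⟩ := ProjGenLinGroup.mk_surjective y
    obtain ⟨g', rfl⟩ := ProjGenLinGroup.mk_surjective y'
    exact ⟨_, comm_TFin g g', by simp only [map_mul, map_inv]⟩
  obtain ⟨g, -, hgA⟩ := conj_std (φ := act n K) le_top hc hn (fun y _ => by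
    obtain ⟨g, rfl⟩ := ProjGenLinGroup.mk_surjective y
    exact ⟨_, (pow_TFin g).1, (pow_TFin g).2⟩) A hsq fun x _ => ⟨trivial, fun _ _ => trivial, by
      rintro _ ⟨y, hy, rfl⟩
      rw [act_mk]
      exact Subgroup.mem_map_of_mem _ (alsg_TFin _ _ hy)⟩
  refine pc_conj (norm_TFin le_top hc trivial) hgA ?_
  have hPH : PH n K ≤ Pr (SG n K) := fun y hy => by
    obtain ⟨g, hg, rfl⟩ := PH_le hy
    exact mem_TAppS hn (det_TConjB hg)
  rcases basis_Q _ (right_TFin hsq) with h | ⟨q, hβ, h⟩ | ⟨σ, hσ, h1, hβ, h⟩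
  · rw [h]
    exact pc_og0 h2 (by omega) hn h3 hPH
  · rw [h]
    by_cases h1 : q.1 = 1
    · have h4 : q = (1, -1) := by
        refine Prod.ext h1 ((Int.units_eq_one_or q.2).resolve_left fun h5 => ?_)
        exact ind_TFin hβ (Prod.ext h1 h5)
      subst h4
      exact pc_sl1 h2 hq hn h3 hβ
    · refine pc_og1 h2 (le_trans (Nat.pow_le_pow_left (by omega) 2)
        (hq' (sq_TFin (congrArg Prod.fst (hβ.sq 0)) h1))) hn h3 hPH hβ h1
  · rw [h]
    exact pc_sl2 h2 (hq' (sq_TFin hσ h1)) hn h3 hσ h1 hβ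

theorem snd_TFin {A : Subgroup (MM n K)} (hA : ∀ x ∈ A, x.right ∈ QQ K ⊥) {s : ℕ}
    {β : Fin s → RingAut K × ℤˣ} (h : A.map rightHom = Subgroup.closure (Set.range β)) (i : Fin s) :
    (β i).2 = 1 := by
  have h1 : β i ∈ A.map rightHom := h ▸ Subgroup.subset_closure ⟨i, rfl⟩
  obtain ⟨x, hx, h2⟩ := h1
  rw [← h2]
  exact Subgroup.mem_bot.1 (hA x hx).2

theorem pc_U (h2 : (2 : K) ≠ 0) (hn : Odd n) (h3 : 3 ≤ n) {q : ℕ} (hK : Nat.card K = q ^ 2)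
    (hq : 100 * Nat.gcd (2 * n) (q + 1) ≤ q) {σ : RingAut K} (hσ : σ * σ = 1) (h1 : σ ≠ 1)
    (A : Subgroup (MM n K)) (hA : ∀ x ∈ A, x.left ∈ Pr (GU n σ) ∧ x.right ∈ QQ K ⊥)
    (hsq : ∀ x ∈ A, x * x = 1) :
    PC (G := MM n K) ((Pr (GU n σ ⊓ SG n K)).map inl) ((Pr (GU n σ ⊓ SG n K)).map inl ⊔ A) := by
  have := fin_MM n K
  have hg : 0 < Nat.gcd (2 * n) (q + 1) := Nat.gcd_pos_of_pos_left _ (by omega)
  have hLN : Pr (GU n σ ⊓ SG n K) ≤ Pr (GU n σ) := Subgroup.map_mono inf_le_left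
  have hc : ∀ y ∈ Pr (GU n σ), ∀ y' ∈ Pr (GU n σ),
      y * y' * y⁻¹ * y'⁻¹ ∈ Pr (GU n σ ⊓ SG n K) := by
    rintro _ ⟨g, hg, rfl⟩ _ ⟨g', hg', rfl⟩
    exact ⟨_, ⟨(GU n σ).mul_mem ((GU n σ).mul_mem ((GU n σ).mul_mem hg hg') ((GU n σ).inv_mem hg))
      ((GU n σ).inv_mem hg'), comm_TFin g g'⟩, by simp only [map_mul, map_inv]⟩
  obtain ⟨g, hgN, hgA⟩ := conj_std (φ := act n K) hLN hc hn (by
    rintro _ ⟨g, hg, rfl⟩
    refine ⟨_, ⟨mul_mem ?_ (pow_mem hg n), (pow_TFin g).1⟩, (pow_TFin g).2⟩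
    have e1 : al σ (-1) g = g := hg
    have e2 := al_det σ (-1) g
    rw [e1] at e2
    have e3 : GeneralLinearGroup.scalar (Fin n) (GeneralLinearGroup.det g)⁻¹ =
        dg fun _ => (GeneralLinearGroup.det g)⁻¹ := Units.ext rfl
    rw [e3]
    show al σ (-1) _ = _
    refine Units.ext ?_
    rw [(aldg_TCent σ _).2]
    show _ = diagonal fun _ => _
    congr 1
    funext i
    rw [Units.val_inv_eq_inv_val, map_inv₀, inv_inv]
    conv_rhs => rw [e2]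
    simp) A hsq fun x hx => ⟨(hA x hx).1, by
      rintro _ ⟨y, hy, rfl⟩
      rw [act_mk]
      exact Subgroup.mem_map_of_mem _ (algu_TFin _ _ _ hy), by
      rintro _ ⟨y, hy, rfl⟩
      rw [act_mk]
      exact Subgroup.mem_map_of_mem _ ⟨algu_TFin _ _ _ hy.1, alsg_TFin _ _ hy.2⟩⟩
  refine pc_conj (norm_TFin hLN hc hgN) hgA ?_
  rcases basis_Q _ (right_TFin hsq) with h | ⟨p, hβ, h⟩ | ⟨τ, -, -, -, h⟩
  · rw [h]
    exact pc_u0 h2 hK (by omega) hn h3 hσ h1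
  · have h4 : p.2 = 1 := snd_TFin (fun x hx => (hA x hx).2) h 0
    have h5 : p = (σ, 1) := Prod.ext (inv_unique (congrArg Prod.fst (hβ.sq 0))
      (fun h6 => ind_TFin hβ (Prod.ext h6 h4)) hσ h1) h4
    rw [h]
    subst h5
    exact pc_u1 h2 hK hq hn h3 hσ h1 hβ
  · exact absurd (snd_TFin (fun x hx => (hA x hx).2) h 1) (by simp)

theorem pc_B (h2 : (2 : K) ≠ 0) (hn : Odd n) (h3 : 3 ≤ n) (hq : 49 ≤ Nat.card K)
    (hq' : IsSquare (Nat.card K) → 100 ^ 2 ≤ Nat.card K)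
    (A : Subgroup (MM n K)) (hA : ∀ x ∈ A, x.left ∈ Pr (OG n K) ∧ x.right ∈ QQ K ⊥)
    (comm : ∀ x ∈ A, ∀ y ∈ A, x * y = y * x) (hsq : ∀ x ∈ A, x * x = 1) :
    PC (G := MM n K) ((PH n K).map inl) ((PH n K).map inl ⊔ A) := by
  by_cases h0 : ∀ x ∈ A, x.right = 1
  · have e : A = (A.comap (inl : _ →* MM n K)).map inl := by
      refine le_antisymm (fun x hx => ?_) (Subgroup.map_comap_le _ _)
      have e1 : (inl x.left : MM n K) = x := by
        conv_rhs => rw [← inl_left_mul_inr_right x, h0 x hx, map_one, mul_one]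
      exact ⟨x.left, by rw [SetLike.mem_coe, Subgroup.mem_comap, e1]; exact hx, e1⟩
    rw [e, ← Subgroup.map_sup]
    exact pc_inl le_sup_left (pc_orth h2 (by omega) hn h3 fun y hy => (hA _ hy).1)
  · obtain ⟨x₀, h4⟩ := not_forall.1 h0
    obtain ⟨hx, h5⟩ := Classical.not_imp.1 h4
    obtain ⟨g, hg, hgA⟩ := conj_B h2 hn h3 comm hsq
      (fun x hx => ⟨(hA x hx).1, Subgroup.mem_bot.1 (hA x hx).2.2⟩) hx h5
    refine pc_conj (PO_norm hg) hgA ?_
    rcases basis_Q _ (right_TFin hsq) with h | ⟨p, hβ, h⟩ | ⟨τ, -, -, -, h⟩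
    · rw [h]
      exact pc_og0 h2 hq hn h3 le_rfl
    · have h6 : p.2 = 1 := snd_TFin (fun x hx => (hA x hx).2) h 0
      have h7 : p.1 ≠ 1 := fun h8 => ind_TFin hβ (Prod.ext h8 h6)
      rw [h]
      exact pc_og1 h2 (hq' (sq_TFin (congrArg Prod.fst (hβ.sq 0)) h7)) hn h3 le_rfl hβ h7
    · exact absurd (snd_TFin (fun x hx => (hA x hx).2) h 1) (by simp)

end Vale.Agent.P240
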