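import Vale.Agent.P240.D.Face
import Vale.Agent.P240.T.Defs

/-! P240 T/Avg. As D/Face.lean for an arbitrary e and an arbitrary index group; and the effect of al on
rotation matrices (entrywise computations). -/

namespace Vale.Agent.P240

open Matrix SemidirectProduct

variable {m : ℕ} {K : Type} [Field K]

theorem det_TAvg (k : Fin m) (e a b : K) : (rotm k e a b).det = a ^ 2 + e * b ^ 2 := by
  have h : k.castSucc ≠ k.succ := (Fin.castSucc_lt_succ).ne
  have h' := h.symm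
  have h1 : rotm k e a b = 1 + (of fun i => ![if i = k.castSucc then (1 : K) else 0,
      if i = k.succ then 1 else 0]) *
      of ![fun j => if j = k.castSucc then a - 1 else if j = k.succ then -(e * b) else 0,
        fun j => if j = k.castSucc then b else if j = k.succ then a - 1 else 0] := by
    ext i j
    simp only [rotm, Matrix.add_apply, Matrix.mul_apply, Fin.sum_univ_two, Matrix.one_apply,
      of_apply, cons_val_zero,
      cons_val_one]
    split_ifs <;> simp_all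
  rw [h1, det_one_add_mul_comm, det_fin_two]
  simp only [Matrix.add_apply, Matrix.mul_apply, of_apply, cons_val_zero, cons_val_one, two_DFace h]
  simp [h, h']
  ring

theorem inv_TAvg {k : Fin m} {e a b : K} (h : a ^ 2 + e * b ^ 2 = 1) {B : GL (Fin (m + 1)) K}
    (hB : (B : Matrix (Fin (m + 1)) (Fin (m + 1)) K) = rotm k e a b) :
    ((B⁻¹ : GL (Fin (m + 1)) K) : Matrix (Fin (m + 1)) (Fin (m + 1)) K) = rotm k e a (-b) :=
  Units.inv_eq_of_mul_eq_one_right (by rw [hB, mul_DFace k h])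

theorem rot_gl (k : Fin m) {e a b : K} (h : a ^ 2 + e * b ^ 2 = 1) :
    ∃ B : GL (Fin (m + 1)) K, (B : Matrix (Fin (m + 1)) (Fin (m + 1)) K) = rotm k e a b ∧
      ((B⁻¹ : GL (Fin (m + 1)) K) : Matrix (Fin (m + 1)) (Fin (m + 1)) K) = rotm k e a (-b) ∧
      GeneralLinearGroup.det B = 1 ∧ ∀ j, j ≠ k → B * rho m K j = rho m K j * B := by
  have h1 := mul_DFace k h
  refine ⟨⟨rotm k e a b, rotm k e a (-b), h1, mul_eq_one_comm.1 h1⟩, rfl, rfl,
    Units.ext ((det_TAvg k e a b).trans h), fun j hj => Units.ext (comm_DFace k _ a b ?_)⟩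
  have h4 : k.castSucc ≤ j.castSucc ↔ k.succ ≤ j.castSucc := by
    have h5 : (j : ℕ) ≠ k := fun e => hj (Fin.ext e)
    simp only [Fin.le_def, Fin.val_castSucc, Fin.val_succ]
    omega
  simp only [h4]

theorem avgE (Γ : Subgroup (GL (Fin (m + 1)) K)) [Fintype Γ] {ψ : (Fin (m + 1) → K) → ℚ}
    {k : Fin m} {e : K} {S : Finset (K × K)} (hS : Rot e S) (hψ : VanE ψ k e S)
    (z : Fin (m + 1) → K) (Ψ : GL (Fin (m + 1)) K → ℚ)
    (hΨ : ∀ p ∈ S, ∀ B : GL (Fin (m + 1)) K,
      (B : Matrix (Fin (m + 1)) (Fin (m + 1)) K) = rotm k e p.1 p.2 →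
      B ∈ Γ ∧ ∀ g, Ψ (g * B) = Ψ g) :
    ∑ g : Γ, w1 ψ z g * Ψ g = 0 := by
  have h : k.castSucc ≠ k.succ := (Fin.castSucc_lt_succ).ne
  let y : Γ → Fin (m + 1) → K := fun g =>
    (((g : GL (Fin (m + 1)) K)⁻¹ : GL (Fin (m + 1)) K) : Matrix (Fin (m + 1)) (Fin (m + 1)) K) *ᵥ z
  have h1 : ∀ p ∈ S, ∑ g : Γ, w1 ψ z g * Ψ g =
      ∑ g : Γ, ψ (upd (fun i => y g i ^ 2) k ((p.1 * y g k.castSucc + e * p.2 * y g k.succ) ^ 2)
        ((p.1 * y g k.succ - p.2 * y g k.castSucc) ^ 2)) * Ψ g := by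
    intro p hp
    obtain ⟨B, hm, hi, -⟩ := rot_gl k (hS.norm p hp)
    obtain ⟨hB, hc⟩ := hΨ p hp B hm
    rw [← Equiv.sum_comp (Equiv.mulRight (⟨B, hB⟩ : Γ))]
    refine Finset.sum_congr rfl fun g _ => ?_
    rw [Equiv.coe_mulRight, Subgroup.coe_mul, hc]
    refine congrArg (fun t => ψ t * Ψ g) (funext fun i => ?_)
    rw [_root_.mul_inv_rev, Units.val_mul, ← mulVec_mulVec, hi, mulVec_DFace, upd]
    by_cases h2 : i = k.succ
    · rw [h2, Function.update_self, if_neg h.symm, if_pos rfl]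
      simp only [y]
      ring
    · rw [Function.update_of_ne h2, if_neg h2]
      by_cases h3 : i = k.castSucc
      · rw [h3, Function.update_self, if_pos rfl]
        simp only [y]
        ring
      · rw [Function.update_of_ne h3, if_neg h3]
  have h2 := Finset.sum_congr rfl h1
  rw [Finset.sum_const, Finset.sum_comm] at h2
  have h3 := hψ
  unfold VanE at h3
  simp only [← Finset.sum_mul, h3, zero_mul, Finset.sum_const_zero, nsmul_eq_mul] at h2
  exact (mul_eq_zero.1 h2).resolve_left (Nat.cast_ne_zero.2 (Finset.card_ne_zero.2 ⟨(1, 0), hS.one⟩))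

theorem al_rot (σ : RingAut K) {k : Fin m} {e a b : K} (he : σ e = e) {B : GL (Fin (m + 1)) K}
    (hB : (B : Matrix (Fin (m + 1)) (Fin (m + 1)) K) = rotm k e a b) :
    ((al σ 1 B : GL (Fin (m + 1)) K) : Matrix (Fin (m + 1)) (Fin (m + 1)) K) =
      rotm k e (σ a) (σ b) := by
  ext i j
  rw [al, if_pos rfl, GeneralLinearGroup.map_apply, hB]
  simp only [rotm]
  split_ifs <;> simp [he]

theorem rot_og {k : Fin m} {a b : K} (h : a ^ 2 + 1 * b ^ 2 = 1) {B : GL (Fin (m + 1)) K}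
    (hB : (B : Matrix (Fin (m + 1)) (Fin (m + 1)) K) = rotm k 1 a b) : B ∈ OG (m + 1) K := by
  have h1 := tr_DFace k (e := 1) a b (d := fun _ => 1) (mul_one _)
  rw [diagonal_one, mul_one, one_mul] at h1
  show (B : Matrix (Fin (m + 1)) (Fin (m + 1)) K)ᵀ * B = 1
  rw [hB, h1]
  exact mul_eq_one_comm.1 (mul_DFace k h)

theorem gT_rot {k : Fin m} {a b : K} (h : a ^ 2 + -1 * b ^ 2 = 1) {B : GL (Fin (m + 1)) K}
    (hB : (B : Matrix (Fin (m + 1)) (Fin (m + 1)) K) = rotm k (-1) a b) :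
    ((gT B : GL (Fin (m + 1)) K) : Matrix (Fin (m + 1)) (Fin (m + 1)) K) =
      rotm k (-1) a (-b) := by
  have h3 : k.castSucc ≠ k.succ := (Fin.castSucc_lt_succ).ne
  have h4 := h3.symm
  show ((B⁻¹ : GL (Fin (m + 1)) K) : Matrix (Fin (m + 1)) (Fin (m + 1)) K)ᵀ = _
  rw [inv_TAvg h hB]
  clear hB h
  ext i j
  simp only [rotm, transpose_apply, eq_comm (a := j) (b := i)]
  split_ifs <;> simp_all

theorem rho_rot {k : Fin m} {e a b : K} {B : GL (Fin (m + 1)) K}
    (hB : (B : Matrix (Fin (m + 1)) (Fin (m + 1)) K) = rotm k e a b) :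
    ((rho m K k * B * rho m K k : GL (Fin (m + 1)) K) : Matrix (Fin (m + 1)) (Fin (m + 1)) K) =
      rotm k e a (-b) := by
  have h1 : k.castSucc ≠ k.succ := (Fin.castSucc_lt_succ).ne
  have h2 := h1.symm
  have h3 : ¬ k.succ ≤ k.castSucc := not_le.2 Fin.castSucc_lt_succ
  ext i j
  simp only [Units.val_mul, hB, rho, dg, mul_diagonal, diagonal_mul, rotm]
  split_ifs <;> simp_all

end Vale.Agent.P240
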