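import Vale.Agent.P240.T.Stmt

/-! P240 T/Cmp: a subgroup of classical type with a standard action of the involutions. -/

namespace Vale.Agent.P240

open Matrix

/-- Through the isomorphism `e`, conjugation by `x` on `L` is described by the relation `R`. -/
def Via {G M : Type} [Group G] [Group M] {L : Subgroup G} {L' : Subgroup M} (e : L ≃* L') (x : G)
    (R : M → M → Prop) : Prop :=
  ∀ l l' : L, (l' : G) = x * l * x⁻¹ → R (e l) (e l')

/-- A field automorphism whose square is the identity. -/
def Inv2 {K : Type} [Field K] (σ : RingAut K) : Prop := σ * σ = 1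

/-- `L` is isomorphic to the subgroup `L'` of `PGL(n, K)`, in such a way that each `x` in the
normalizer of `L` with `x * x = 1` acts on `L` as the automorphism given by a matrix `y` in `Y`, a
field automorphism `σ` with `σ * σ = 1` and a sign `ε` in `E`. -/
def Cmp {G : Type} [Group G] (L : Subgroup G) {n : ℕ} {K : Type} [Field K]
    (L' : Subgroup (ProjGenLinGroup (Fin n) K)) (Y : Subgroup (GL (Fin n) K)) (E : Subgroup ℤˣ) :
    Prop :=
  ∃ e : L ≃* L', ∀ x ∈ Subgroup.normalizer (L : Set G), x * x = 1 →
    ∃ y ∈ Y, ∃ σ : RingAut K, Inv2 σ ∧ ∃ ε ∈ E, Via e x (Tw y σ ε)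

end Vale.Agent.P240
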