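import Vale.Agent.P240.D.Refl
import Vale.Agent.P240.T.Sub

/-! P240 T/Desc. Normal form of a semilinear orthogonal involution. Plan: psi v = y *ᵥ (sigma comp v).
By induction on k <= n there is g in OG with psi (g e_i) = g e_i or - g e_i for i < k. Step: replace y
by g⁻¹ y (al g); U = vectors vanishing at i < k is psi stable. Some u in U with psi u = u has nonzero
norm (otherwise by polarization the form vanishes on the fixed vectors, which span U over K:
w = (w + psi w) / 2 + eps⁻¹ (eps (w - psi w) / 2), apply to w = e_k). The norm is real, hence c^2 with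
sigma c = c or -c; v = u / c. Map e_k to v by one or two reflections fixing e_i, i < k (see cd in
D/Refl.lean). -/

namespace Vale.Agent.P240

open Matrix SemidirectProduct

section

variable {n : ℕ} {K : Type} [Field K] {σ : RingAut K} {y : GL (Fin n) K}

theorem mv_TDesc (g : GL (Fin n) K) (v : Fin n → K) :
    (al σ 1 g : Matrix (Fin n) (Fin n) K) *ᵥ (σ ∘ v) =
      σ ∘ ((g : Matrix (Fin n) (Fin n) K) *ᵥ v) := by
  funext i
  rw [al, if_pos rfl]
  exact (RingHom.map_mulVec (σ : K →+* K) _ v i).symm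

theorem dt_TDesc (u v : Fin n → K) : (σ ∘ u) ⬝ᵥ (σ ∘ v) = σ (u ⬝ᵥ v) :=
  (RingHom.map_dotProduct (σ : K →+* K) u v).symm

theorem sg_TDesc (i : Fin n) : σ ∘ (Pi.single i 1 : Fin n → K) = Pi.single i 1 := by
  funext j
  by_cases h : j = i <;> simp [h]

theorem unit_TDesc [Finite K] (h2 : (2 : K) ≠ 0) (hσ : σ * σ = 1) (h1 : σ ≠ 1) (hy : y ∈ OG n K)
    {u : Fin n → K} {η : K} (hη : η * η = 1)
    (hu : (y : Matrix (Fin n) (Fin n) K) *ᵥ (σ ∘ u) = η • u) (h0 : u ⬝ᵥ u ≠ 0) :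
    ∃ c θ : K, (c • u) ⬝ᵥ (c • u) = 1 ∧ θ * θ = 1 ∧
      (y : Matrix (Fin n) (Fin n) K) *ᵥ (σ ∘ (c • u)) = θ • c • u := by
  classical
  have := Fintype.ofFinite K
  obtain ⟨q, -, -, hq, -⟩ := sub_circle h2 hσ h1
  have e : σ (u ⬝ᵥ u) = u ⬝ᵥ u := by
    rw [← dt_TDesc, ← dot_DRefl hy, hu, smul_dotProduct, dotProduct_smul, smul_smul, hη, one_smul]
  obtain ⟨c, hc⟩ := hq _ e
  rw [hc, map_mul] at e
  have c0 : c ≠ 0 := fun h => h0 (by rw [hc, h, mul_zero])
  have c1 : σ c ≠ 0 := (map_ne_zero σ).2 c0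
  refine ⟨c⁻¹, (σ c)⁻¹ * η * c, ?_, ?_, ?_⟩
  · rw [smul_dotProduct, dotProduct_smul, hc, smul_eq_mul, smul_eq_mul]
    field_simp
  · field_simp
    linear_combination c ^ 2 * hη - e
  · have e1 : σ ∘ (c⁻¹ • u) = (σ c)⁻¹ • (σ ∘ u) := by
      funext i
      simp
    rw [e1, mulVec_smul, hu, smul_smul, smul_smul, mul_inv_cancel_right₀ c0]

theorem vec_TDesc [Finite K] (h2 : (2 : K) ≠ 0) (hσ : σ * σ = 1) (h1 : σ ≠ 1) (hy : y ∈ OG n K)
    (hyy : y * al σ 1 y = 1) {w : Fin n → K} (hw : w ⬝ᵥ w = 1) :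
    ∃ c η θ : K, ∀ v, v = c • (w + η • (y : Matrix (Fin n) (Fin n) K) *ᵥ (σ ∘ w)) →
      v ⬝ᵥ v = 1 ∧ θ * θ = 1 ∧ (y : Matrix (Fin n) (Fin n) K) *ᵥ (σ ∘ v) = θ • v := by
  have e0 : σ ∘ σ ∘ w = w := funext fun i => DFunLike.congr_fun hσ (w i)
  have e1 : (y : Matrix (Fin n) (Fin n) K) *ᵥ (σ ∘ ((y : Matrix (Fin n) (Fin n) K) *ᵥ (σ ∘ w))) =
      w := by
    rw [← mv_TDesc, mulVec_mulVec, ← Units.val_mul, hyy, Units.val_one, one_mulVec, e0]
  have e2 := dot_DRefl hy (σ ∘ w) (σ ∘ w)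
  rw [dt_TDesc, hw, map_one] at e2
  generalize hx : (y : Matrix (Fin n) (Fin n) K) *ᵥ (σ ∘ w) = x at e1 e2
  obtain ⟨η, hη, h0⟩ : ∃ η : K, (η = 1 ∨ η = -1) ∧ (w + η • x) ⬝ᵥ (w + η • x) ≠ 0 := by
    by_contra h
    push Not at h
    have a := h 1 (Or.inl rfl)
    have b := h (-1) (Or.inr rfl)
    simp only [add_dotProduct, dotProduct_add, smul_dotProduct, dotProduct_smul, smul_eq_mul, hw,
      e2] at a b
    exact mul_ne_zero h2 h2 (by linear_combination a + b)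
  have hη' : η * η = 1 := mul_self_eq_one_iff.2 hη
  have e3 : σ ∘ (w + η • x) = σ ∘ w + η • (σ ∘ x) := by
    funext i
    rcases hη with rfl | rfl <;> simp
  obtain ⟨c, θ, h⟩ := unit_TDesc h2 hσ h1 hy hη' (u := w + η • x) (by
    rw [e3, mulVec_add, mulVec_smul, hx, e1, smul_add, smul_smul, hη', one_smul, add_comm]) h0
  exact ⟨c, η, θ, fun v hv => hv ▸ h⟩

theorem tw_TDesc {r : GL (Fin n) K} {i : Fin n} {v : Fin n → K} {θ : K}
    (hr : (r : Matrix (Fin n) (Fin n) K) *ᵥ Pi.single i 1 = v)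
    (hv : (y : Matrix (Fin n) (Fin n) K) *ᵥ (σ ∘ v) = θ • v) :
    ((r⁻¹ * y * al σ 1 r : GL (Fin n) K) : Matrix (Fin n) (Fin n) K) *ᵥ Pi.single i 1 =
      θ • (Pi.single i 1 : Fin n → K) := by
  rw [Units.val_mul, Units.val_mul, ← mulVec_mulVec, ← mulVec_mulVec, ← sg_TDesc (σ := σ),
    mv_TDesc, hr, hv, ← hr, mulVec_smul, mulVec_mulVec, Units.inv_mul, one_mulVec, sg_TDesc]

end

theorem descA {n : ℕ} {K : Type} [Field K] [Finite K] (h2 : (2 : K) ≠ 0) {σ : RingAut K}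
    (hσ : σ * σ = 1) (h1 : σ ≠ 1) {y : GL (Fin n) K} (hy : y ∈ OG n K) (hyy : y * al σ 1 y = 1) :
    ∃ g ∈ OG n K, ∃ d : Fin n → Kˣ, (∀ i, d i = 1 ∨ d i = -1) ∧ y = g * dg d * (al σ 1 g)⁻¹ := by
  have key : ∀ s : Finset (Fin n), ∀ y ∈ OG n K, y * al σ 1 y = 1 → (∀ i ∉ s, ∃ η : K, η * η = 1 ∧
      (y : Matrix (Fin n) (Fin n) K) *ᵥ Pi.single i 1 = η • (Pi.single i 1 : Fin n → K)) →
      ∃ g ∈ OG n K, ∃ d : Fin n → Kˣ, (∀ i, d i = 1 ∨ d i = -1) ∧
        y = g * dg d * (al σ 1 g)⁻¹ := fun s => by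
    induction s using Finset.induction_on with
    | empty =>
      intro y _ _ h
      choose η h3 h4 using fun i => h i (Finset.notMem_empty i)
      refine ⟨1, Subgroup.one_mem _, fun i => ⟨η i, η i, h3 i, h3 i⟩, fun i =>
        (mul_self_eq_one_iff.1 (h3 i)).imp (fun e => Units.ext e) fun e => Units.ext e, ?_⟩
      rw [al_one, inv_one, one_mul, mul_one]
      refine Units.ext (ext_of_mulVec_single fun i => ?_)
      rw [h4, ← Pi.single_smul']
      exact (diagonal_mulVec_single η i 1).symm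
    | insert k s hk ih =>
      intro y hy hyy h
      obtain ⟨c, η, θ, H⟩ := vec_TDesc h2 hσ h1 hy hyy (w := Pi.single k 1) (by simp)
      obtain ⟨h3, h4, h5⟩ := H _ rfl
      obtain ⟨r, hr, e, hx⟩ := wit_DRefl h2 (u := Pi.single k 1) (by simp)
        (h3.trans (by simp))
      have hr' : r ∈ OG n K := (Subgroup.closure_le _).2 (Set.range_subset_iff.2 rf_mem) hr
      obtain ⟨g, hg, d, hd, e1⟩ := ih (r⁻¹ * y * al σ 1 r)
        (mul_mem (mul_mem (inv_mem hr') hy) (al_og σ 1 hr').2) (by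
          have e2 := al_comp σ σ 1 1 r
          rw [hσ, mul_one, al_id] at e2
          rw [al_mul, al_mul, al_inv, ← e2, mul_assoc (al σ 1 r)⁻¹, mul_assoc (r⁻¹ * y),
            mul_inv_cancel_left, ← mul_assoc, mul_assoc r⁻¹, hyy, mul_one, inv_mul_cancel])
        fun i hi => by
          rcases eq_or_ne i k with rfl | hik
          · exact ⟨θ, h4, tw_TDesc e h5⟩
          obtain ⟨ζ, h6, h7⟩ := h i (by simp [hi, hik])
          have h8 : (Pi.single k 1 : Fin n → K) ⬝ᵥ Pi.single i 1 = 0 := by simp [hik.symm]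
          have h9 := dot_DRefl hy (Pi.single k 1) (Pi.single i 1)
          rw [h8, h7, dotProduct_smul, smul_eq_mul, mul_eq_zero,
            or_iff_right (left_ne_zero_of_mul_eq_one h6)] at h9
          refine ⟨ζ, h6, tw_TDesc (hx _ h8 ?_) (by rw [sg_TDesc, h7])⟩
          rw [smul_dotProduct, add_dotProduct, smul_dotProduct, sg_TDesc, h8, h9, smul_zero,
            add_zero, smul_zero]
      refine ⟨r * g, mul_mem hr' hg, d, hd, ?_⟩
      rw [al_mul, _root_.mul_inv_rev, ← mul_assoc, mul_assoc r, mul_assoc r, ← e1, mul_assoc r⁻¹,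
        mul_inv_cancel_left, mul_inv_cancel_right]
  exact key Finset.univ y hy hyy fun i hi => absurd (Finset.mem_univ i) hi

end Vale.Agent.P240
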