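import Vale.Agent.P240.T.Avg

/-! P240 T/SysB. Faces. Plan: avgE with Psi g = Phi (tw g). For B from RotHyp, hat B commutes with
tw0 j' for all j' different from j: with hat (rho k) for k different from pos j (rot_gl), with
inr (beta i) when al fixes B, and for j = inl i with inr (prod beta) * hat (rho 0), because
al (prod beta) B = rho 0 * B * rho 0 (al_comp, al_mul, al_dg; induction over the list, exactly one
factor twists). -/

namespace Vale.Agent.P240

open Matrix SemidirectProduct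

theorem inr_TSysB {n : ℕ} {K : Type} [Field K] (q : RingAut K × ℤˣ) (B : GL (Fin n) K) :
    (inr q : MM n K) * hat B = hat (al q.1 q.2 B) * inr q := by
  change (inr q : MM n K) * inl (ProjGenLinGroup.mk B) =
    inl (ProjGenLinGroup.mk (al q.1 q.2 B)) * inr q
  rw [← act_mk, inl_aut, map_inv, inv_mul_cancel_right]

theorem rho_TSysB {m : ℕ} {K : Type} [Field K] (q : RingAut K × ℤˣ) (k : Fin m) :
    al q.1 q.2 (rho m K k) = rho m K k :=
  al_dg _ _ fun i => by split_ifs <;> simp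

theorem sq_TSysB {m : ℕ} {K : Type} [Field K] (k : Fin m) : rho m K k * rho m K k = 1 := by
  apply Units.ext
  simp only [rho, dg, Units.val_mul, diagonal_mul_diagonal, Units.val_one, ← diagonal_one]
  refine congrArg diagonal (funext fun i => ?_)
  split_ifs <;> simp

theorem list_TSysB {s m : ℕ} {K : Type} [Field K] {β : Fin s → RingAut K × ℤˣ}
    {B : GL (Fin (m + 1 + 1)) K} {J : Fin s ⊕ Fin (m + 1)} (h : ∀ i, al (β i).1 (β i).2 B =
      if J = Sum.inl i then rho (m + 1) K 0 * B * rho (m + 1) K 0 else B) (l : List (Fin s))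
    (hl : l.Nodup) : al (l.map β).prod.1 (l.map β).prod.2 B =
      if ∃ i ∈ l, J = Sum.inl i then rho (m + 1) K 0 * B * rho (m + 1) K 0 else B := by
  induction l with
  | nil => simpa using al_id B
  | cons a l ih =>
    obtain ⟨h1, h2⟩ := List.nodup_cons.1 hl
    rw [List.map_cons, List.prod_cons, Prod.fst_mul, Prod.snd_mul, al_comp, ih h2]
    by_cases h3 : ∃ i ∈ l, J = Sum.inl i
    · obtain ⟨i, h4, h5⟩ := h3
      have h6 : J ≠ Sum.inl a := fun e => h1 (Sum.inl.inj (h5.symm.trans e) ▸ h4)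
      rw [if_pos ⟨i, h4, h5⟩, if_pos ⟨i, List.mem_cons_of_mem _ h4, h5⟩, al_mul, al_mul,
        rho_TSysB, h, if_neg h6]
    · rw [if_neg h3, h]
      refine if_congr ⟨fun e => ⟨a, List.mem_cons_self, e⟩, ?_⟩ rfl rfl
      rintro ⟨i, h4, h5⟩
      rcases List.mem_cons.1 h4 with rfl | h4
      · exact h5
      · exact absurd ⟨i, h4, h5⟩ h3

theorem comm_TSysB {s m : ℕ} {K : Type} [Field K] {β : Fin s → RingAut K × ℤˣ}
    {B : GL (Fin (m + 1 + 1)) K} {J J' : Fin s ⊕ Fin (m + 1)} (h : ∀ i, al (β i).1 (β i).2 B =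
      if J = Sum.inl i then rho (m + 1) K 0 * B * rho (m + 1) K 0 else B)
    (hc : ∀ k, k ≠ pos J → B * rho (m + 1) K k = rho (m + 1) K k * B) (hJ : J' ≠ J) :
    tw0 m β J' * hat B = hat B * tw0 m β J' := by
  have hp := list_TSysB h _ (List.nodup_finRange s)
  rw [← List.ofFn_eq_map] at hp
  rcases J' with i | k
  · rw [tw0, inr_TSysB, h, if_neg hJ.symm]
  · rw [tw0]
    split_ifs with hk
    · subst hk
      rcases J with i | k
      · rw [if_pos ⟨i, List.mem_finRange i, rfl⟩] at hp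
        rw [mul_assoc, ← map_mul, inr_TSysB, inr_TSysB, al_mul, hp, rho_TSysB, ← mul_assoc,
          ← mul_assoc, ← mul_assoc, sq_TSysB, one_mul, map_mul]
      · rw [if_neg (by simp)] at hp
        rw [mul_assoc, ← map_mul, ← hc 0 (fun e => hJ (congrArg Sum.inr e)), map_mul, ← mul_assoc,
          inr_TSysB, hp, mul_assoc]
    · rw [← map_mul, ← map_mul, hc k]
      rcases J with i | k'
      · exact hk
      · exact fun e => hJ (congrArg Sum.inr e)

theorem tw_face {s m : ℕ} {K : Type} [Field K] {β : Fin s → RingAut K × ℤˣ}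
    {Γ : Subgroup (GL (Fin (m + 1 + 1)) K)} [Fintype Γ] {E : Fin s ⊕ Fin (m + 1) → K}
    {S : Fin s ⊕ Fin (m + 1) → Finset (K × K)} (hrot : RotHyp β Γ E S)
    {ψ : (Fin (m + 1 + 1) → K) → ℚ} (hψ : ∀ j, VanE ψ (pos j) (E j) (S j))
    (z : Fin (m + 1 + 1) → K) (j : Lex (Fin s ⊕ Fin (m + 1)))
    (Φ : (Lex (Fin s ⊕ Fin (m + 1)) → MM (m + 1 + 1) K) → ℚ)
    (hΦ : ∀ t t', (∀ j', j' ≠ j → t j' = t' j') → Φ t = Φ t') :
    ∑ g : Γ, w1 ψ z g * Φ (tw m β g) = 0 := by
  refine avgE Γ (hrot (ofLex j)).1 (hψ (ofLex j)) z (fun g => Φ (tw m β g)) fun p hp B hB =>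
    ⟨((hrot _).2 p hp B hB).1, fun g => hΦ _ _ fun j' hj' => ?_⟩
  obtain ⟨B', h1, -, -, h2⟩ := rot_gl (pos (ofLex j)) ((hrot (ofLex j)).1.norm p hp)
  obtain rfl : B' = B := Units.ext (h1.trans hB.symm)
  have h3 := comm_TSysB (J' := ofLex j') ((hrot _).2 p hp B' hB).2 h2 hj'
  rw [tw, tw, map_mul, mul_assoc (hat g), ← h3]
  group

end Vale.Agent.P240
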