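import Vale.Agent.P240.T.SysC

/-! P240 T/SysD. Detection. Plan: sigma from tw_mono. First part by cases. (inl, inl): apply rightHom and
Ind.indep. j = inl i, j' = inr k': the closure lies in the range of inr (left component 1); k' nonzero
contradicts mono_le (tg g k' is not 1); for k' = 0 the matrix g * rho 0 * (al q g)⁻¹ up to order
(q = prod beta, use that inr q commutes with hat (rho 0)) would be a scalar nu; the entry
(last, last) gives nu = 1 (al q g has the same entry there since it is 1 or -1) and the determinant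
gives -1 = 1 (al_det, det g = 1 or -1). (inr, inr): tw_Iic, tw_struct, mono_le. Second part: all
tg g k lie in closure (tg 1 '' Iic k) (for k = 0 multiply by the tw g (inl i)), so sigma = 1; all
lambda j ^ 2 = 1: first case of DetHyp directly, second case since tw g (inl i) has left component 1,
so g * transpose g is scalar. -/

namespace Vale.Agent.P240

open Matrix SemidirectProduct

section

variable {n : ℕ} {K : Type} [Field K]

theorem left_TSysD (g h : GL (Fin n) K) (q : RingAut K × ℤˣ) :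
    (hat g * (inr q * hat h) * (hat g)⁻¹ : MM n K).left =
      ProjGenLinGroup.mk (g * al q.1 q.2 h * (al q.1 q.2 g)⁻¹) := by
  rw [← map_inv]
  simp only [hat, MonoidHom.comp_apply, mul_left, mul_right, left_inl, right_inl, left_inr,
    right_inr, map_one, one_mul, mul_one, MulAut.one_apply, act_mk, al_inv, map_mul]

theorem right_TSysD (g : GL (Fin n) K) (q : RingAut K × ℤˣ) :
    (hat g * inr q * (hat g)⁻¹ : MM n K).right = q := by
  rw [← map_inv]
  simp only [hat, MonoidHom.comp_apply, mul_right, right_inl, right_inr, one_mul, mul_one]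

theorem sc_TSysD {a b : GL (Fin n) K} (h : ProjGenLinGroup.mk (a * b⁻¹) = 1) :
    ∃ c : K, ∀ i j, (a : Matrix (Fin n) (Fin n) K) i j = (b : Matrix (Fin n) (Fin n) K) i j * c := by
  rw [map_mul, map_inv, mul_inv_eq_one] at h
  obtain ⟨u, rfl⟩ := ProjGenLinGroup.mk_eq_mk_iff.1 h.symm
  exact ⟨u, fun i j => mul_diagonal (fun _ => (u : K)) _ i j⟩

theorem fix_TSysD (σ : RingAut K) {x : K} (hx : x ^ 2 = 1) : σ x = x := by
  rcases sq_eq_one_iff.1 hx with rfl | rfl
  · exact map_one σ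
  · rw [map_neg, map_one]

theorem col_TSysD {g : GL (Fin n) K} {l : Fin n}
    (h : ∀ i, i ≠ l → (g : Matrix (Fin n) (Fin n) K) i l = 0) :
    ((g⁻¹ : GL (Fin n) K) : Matrix (Fin n) (Fin n) K) l l * (g : Matrix (Fin n) (Fin n) K) l l = 1 := by
  have e := congrFun (congrFun g.inv_mul l) l
  rwa [mul_apply, one_apply_eq, Finset.sum_eq_single l (fun i _ hi => by rw [h i hi, mul_zero])
    (fun hn => absurd (Finset.mem_univ _) hn)] at e

theorem al_TSysD (σ : RingAut K) (ε : ℤˣ) {g : GL (Fin n) K} {l : Fin n}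
    (h : ∀ i, i ≠ l → (g : Matrix (Fin n) (Fin n) K) i l = 0)
    (h1 : (g : Matrix (Fin n) (Fin n) K) l l ^ 2 = 1) :
    (al σ ε g : Matrix (Fin n) (Fin n) K) l l = (g : Matrix (Fin n) (Fin n) K) l l := by
  unfold al
  split_ifs
  · exact fix_TSysD σ h1
  · have h2 : ((g⁻¹ : GL (Fin n) K) : Matrix (Fin n) (Fin n) K) l l =
        (g : Matrix (Fin n) (Fin n) K) l l := by
      have h3 := col_TSysD h
      linear_combination (g : Matrix (Fin n) (Fin n) K) l l * h3 -
        ((g⁻¹ : GL (Fin n) K) : Matrix (Fin n) (Fin n) K) l l * h1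
    show σ (((g⁻¹ : GL (Fin n) K) : Matrix (Fin n) (Fin n) K) l l) = _
    rw [h2, fix_TSysD σ h1]

end

theorem inl_TSysD {s m : ℕ} {K : Type} [Field K] {β : Fin s → RingAut K × ℤˣ} {i : Fin s}
    {x : MM (m + 1 + 1) K}
    (hx : x ∈ Subgroup.closure (tw m β 1 '' Set.Iic (toLex (Sum.inl i)))) :
    x.left = 1 ∧ x.right ∈ Subgroup.closure (β '' Set.Iic i) := by
  have h : Subgroup.closure (tw m β 1 '' Set.Iic (toLex (Sum.inl i))) ≤
      NN ⊥ (Subgroup.closure (β '' Set.Iic i)) fun q _ y hy => by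
        rw [Subgroup.mem_bot.1 hy, map_one]
        exact one_mem _ := by
    refine (Subgroup.closure_le _).2 ?_
    rintro _ ⟨j, hj, rfl⟩
    obtain ⟨j | j, rfl⟩ := toLex.surjective j
    · have e : tw m β 1 (toLex (Sum.inl j)) = inr (β j) := by
        rw [tw, map_one, one_mul, inv_one, mul_one]
        rfl
      rw [e]
      exact ⟨one_mem _, Subgroup.subset_closure ⟨j, Sum.Lex.inl_le_inl_iff.1 hj, rfl⟩⟩
    · exact absurd hj Sum.Lex.not_inr_le_inl
  exact ⟨Subgroup.mem_bot.1 (h hx).1, (h hx).2⟩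

theorem inr_TSysD {s m : ℕ} {K : Type} [Field K] (β : Fin s → RingAut K × ℤˣ)
    (g : GL (Fin (m + 1 + 1)) K) {k : Fin (m + 1)} (hk : k ≠ 0) :
    tw m β g (toLex (Sum.inr k)) = inl (tg (m + 1) K g k) := by
  have e : tw0 m β (ofLex (toLex (Sum.inr k))) = hat (rho (m + 1) K k) := if_neg hk
  rw [tw, e, ← map_inv, ← map_mul, ← map_mul]
  rfl

theorem zero_TSysD {s m : ℕ} {K : Type} [Field K] (h2 : (2 : K) ≠ 0) (β : Fin s → RingAut K × ℤˣ)
    {g : GL (Fin (m + 1 + 1)) K}
    (h : ∀ i, i ≠ Fin.last _ → (g : Matrix (Fin (m + 1 + 1)) (Fin (m + 1 + 1)) K) i (Fin.last _) = 0)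
    (h1 : (g : Matrix (Fin (m + 1 + 1)) (Fin (m + 1 + 1)) K) (Fin.last _) (Fin.last _) ^ 2 = 1)
    (hd : GeneralLinearGroup.det g ^ 2 = 1) : (tw m β g (toLex (Sum.inr 0))).left ≠ 1 := by
  intro h0
  have e : tw0 m β (ofLex (toLex (Sum.inr 0))) =
      inr (List.ofFn β).prod * hat (rho (m + 1) K 0) := by
    rw [ofLex_toLex, tw0, if_pos rfl]
  rw [tw, e, left_TSysD, rho, al_dg _ _ fun i => by split_ifs <;> simp] at h0
  generalize (List.ofFn β).prod = q at h0
  obtain ⟨c, hc⟩ := sc_TSysD h0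
  have a1 := hc (Fin.last _) (Fin.last _)
  rw [al_TSysD _ _ h h1, Units.val_mul] at a1
  have a2 := (mul_diagonal _ _ _ _).symm.trans a1
  beta_reduce at a2
  rw [if_neg (not_le.2 (Fin.castSucc_lt_last 0)), Units.val_one] at a2
  have a3 : c = 1 := (mul_left_cancel₀ (ne_zero_pow two_ne_zero (h1 ▸ one_ne_zero)) a2).symm
  have a4 : g * dg (fun i => if i ≤ (0 : Fin (m + 1)).castSucc then -1 else 1) = al q.1 q.2 g :=
    Units.ext (Matrix.ext fun i j => by rw [hc, a3, mul_one])
  have a5 := al_det q.1 q.2 g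
  have a6 : ((GeneralLinearGroup.det g : Kˣ) : K) ^ 2 = 1 := by
    rw [← Units.val_pow_eq_pow_val, hd, Units.val_one]
  have a7 : ((GeneralLinearGroup.det (dg fun i : Fin (m + 1 + 1) =>
      if i ≤ (0 : Fin (m + 1)).castSucc then (-1 : Kˣ) else 1) : Kˣ) : K) = -1 := by
    show det (diagonal _) = _
    rw [det_diagonal, Fin.prod_univ_succ]
    simp
  rw [← a4, map_mul, Units.val_mul, a7, fix_TSysD _ a6] at a5
  generalize ((GeneralLinearGroup.det g : Kˣ) : K) = d at a5 a6
  refine h2 ?_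
  rcases Int.units_eq_one_or q.2 with e1 | e1
  · rw [e1, Units.val_one, zpow_one] at a5
    linear_combination -d * a5 - 2 * a6
  · rw [e1, Units.val_neg, Units.val_one, _root_.zpow_neg, zpow_one,
      inv_eq_of_mul_eq_one_right (show d * d = 1 by rw [← sq, a6])] at a5
    linear_combination -d * a5 - 2 * a6

theorem tw_det {s m : ℕ} {K : Type} [Field K] (h2 : (2 : K) ≠ 0) {β : Fin s → RingAut K × ℤˣ}
    (hβ : Ind β) {Γ : Subgroup (GL (Fin (m + 1 + 1)) K)} {W : Subgroup Kˣ} (hΓ : DetHyp β Γ W)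
    {X₀ : Finset K} {ψ : (Fin (m + 1 + 1) → K) → ℚ} {z : Fin (m + 1 + 1) → K} (hc : Col W X₀ ψ z)
    {g : GL (Fin (m + 1 + 1)) K} (hg : g ∈ Γ) (hw : w1 ψ z g ≠ 0)
    (hE : Subgroup.closure (Set.range (tw m β g)) = Subgroup.closure (Set.range (tw m β 1))) :
    (∀ j j', tw m β g j' ∈ Subgroup.closure (tw m β 1 '' Set.Iic j) → j' ≤ j) ∧
      ((∀ j, tw m β g j ∈ Subgroup.closure (tw m β 1 '' Set.Iic j)) → w1 ψ z g = w1 ψ z 1) := by
  obtain ⟨σ, hσ, hl, h1, hd⟩ := tw_mono h2 hΓ hc hg hw hE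
  obtain ⟨m1, m2, m3⟩ := mono_le h2 hσ hl
  refine ⟨fun j j' h => ?_, fun h => ?_⟩
  · obtain ⟨j | j, rfl⟩ := toLex.surjective j <;> obtain ⟨j' | j', rfl⟩ := toLex.surjective j'
    · have a1 := (inl_TSysD h).2
      have e : (tw m β g (toLex (Sum.inl j'))).right = β j' := right_TSysD g (β j')
      rw [e] at a1
      refine Sum.Lex.inl_le_inl_iff.2 (not_lt.1 fun hlt => hβ.indep j' ?_)
      exact Subgroup.closure_mono (Set.image_mono fun i hi => (lt_of_le_of_lt hi hlt).ne) a1
    · have a1 := (inl_TSysD h).1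
      by_cases hk : j' = 0
      · subst hk
        exact absurd a1 (zero_TSysD h2 β (fun i hi => hσ i _ (by rwa [hl])) h1 hd)
      · rw [inr_TSysD β g hk] at a1
        exact absurd a1 (m2 j')
    · exact Sum.Lex.inl_le_inr _ _
    · refine Sum.Lex.inr_le_inr_iff.2 ?_
      by_cases hk : j' = 0
      · rw [hk]
        exact Fin.zero_le _
      · rw [inr_TSysD β g hk, tw_Iic] at h
        exact m1 _ _ (tw_struct 1 _ h)
  · have hσ1 : σ = 1 := m3 fun k => by
      have a1 : (inl (tg (m + 1) K g k) : MM (m + 1 + 1) K) ∈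
          Subgroup.closure (tw m β g '' Set.Iic (toLex (Sum.inr k))) := by
        rw [tw_Iic]
        exact Subgroup.subset_closure (Or.inr ⟨k, Set.self_mem_Iic, rfl⟩)
      have a2 : Subgroup.closure (tw m β g '' Set.Iic (toLex (Sum.inr k))) ≤
          Subgroup.closure (tw m β 1 '' Set.Iic (toLex (Sum.inr k))) := by
        refine (Subgroup.closure_le _).2 ?_
        rintro _ ⟨j, hj, rfl⟩
        exact Subgroup.closure_mono (Set.image_mono (Set.Iic_subset_Iic.2 hj)) (h j)
      have a3 := a2 a1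
      rw [tw_Iic] at a3
      exact tw_struct 1 _ a3
    subst hσ1
    have hs : ∀ j, ((g : Matrix (Fin (m + 1 + 1)) (Fin (m + 1 + 1)) K) *
        (g : Matrix (Fin (m + 1 + 1)) (Fin (m + 1 + 1)) K)ᵀ) j j =
          (g : Matrix (Fin (m + 1 + 1)) (Fin (m + 1 + 1)) K) j j ^ 2 := fun j => by
      rw [mul_apply, Finset.sum_eq_single j (fun i _ hi => by rw [hσ j i hi.symm, zero_mul])
        (fun hn => absurd (Finset.mem_univ _) hn), transpose_apply, sq]
    have hsq : ∀ j, (g : Matrix (Fin (m + 1 + 1)) (Fin (m + 1 + 1)) K) j j ^ 2 = 1 := by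
      intro j
      rcases hΓ with hΓ | ⟨i, hΓ⟩
      · rw [← hs, mul_eq_one_comm.1 (hΓ hg), one_apply_eq]
      · have a1 := (inl_TSysD (h (toLex (Sum.inl i)))).1
        have e : tw m β g (toLex (Sum.inl i)) = hat g * (inr (β i) * hat 1) * (hat g)⁻¹ := by
          rw [map_one, mul_one]
          rfl
        rw [e, left_TSysD, al_one, mul_one, (hΓ g hg).1, ← mul_one (g * (gT g)⁻¹),
          ← inv_one] at a1
        obtain ⟨c, hc⟩ := sc_TSysD a1
        have a2 := (hs j).symm.trans (hc j j)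
        have a3 := (hs (Fin.last _)).symm.trans (hc (Fin.last _) (Fin.last _))
        rw [Units.val_one, one_apply_eq] at a2 a3
        rw [a2, ← a3, h1]
    refine congrArg ψ (funext fun j => ?_)
    have a1 : (g : Matrix (Fin (m + 1 + 1)) (Fin (m + 1 + 1)) K) *ᵥ
        ((g⁻¹ : GL (Fin (m + 1 + 1)) K) : Matrix (Fin (m + 1 + 1)) (Fin (m + 1 + 1)) K) *ᵥ z = z := by
      rw [mulVec_mulVec, Units.mul_inv, one_mulVec]
    have a2 := congrFun a1 j
    rw [mulVec, dotProduct, Finset.sum_eq_single j (fun i _ hi => by rw [hσ j i hi.symm, zero_mul])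
      (fun hn => absurd (Finset.mem_univ _) hn)] at a2
    rw [inv_one, Units.val_one, one_mulVec, ← a2, mul_pow, hsq, one_mul]

end Vale.Agent.P240
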