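import Vale.Agent.P240.T.Psi
import Vale.Agent.P240.T.SysB
import Vale.Agent.P240.T.SysD
import Vale.Agent.P240.D.Trans
import Vale.Agent.P240.CycA
import Vale.Agent.P240.RankC

/-! P240 T/PC. Plan: psi_W with t = s + 1 (family 0 at position k is j = inr k, family i + 1 is j = inl i
at position 0 and j = inr k elsewhere); Sys from tw_sq, tw_comm, tw_indep, tw_face, tw_det, with
gamma0 = 1 in Gamma; reindex along Fintype.orderIsoFinOfCardEq. tw g (inl i) =
inl (mk (g * (al g)⁻¹)) * inr (beta i). Maximality: max_of_rank and card_closure; an elementary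
abelian E in H has card E <= card (E inf range inl) * card (E.map rightHom) <= 2^(m+1) * 2^s by
pgl_rank and card_closure for beta. -/

namespace Vale.Agent.P240

open Matrix SemidirectProduct

theorem fin_MM (n : ℕ) (K : Type) [Field K] [Finite K] : Finite (MM n K) := by
  have : Finite (ProjGenLinGroup (Fin n) K) :=
    Finite.of_surjective _ ProjGenLinGroup.mk_surjective
  have : Finite (RingAut K) := DFunLike.finite _
  exact Finite.of_equiv _ SemidirectProduct.equivProd.symm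

theorem inl_TPC {s m : ℕ} {K : Type} [Field K] (β : Fin s → RingAut K × ℤˣ)
    (g : GL (Fin (m + 1 + 1)) K) (i : Fin s) : tw m β g (toLex (Sum.inl i)) =
      inl (ProjGenLinGroup.mk (g * (al (β i).1 (β i).2 g)⁻¹)) * inr (β i) := by
  rw [← al_inv, map_mul, ← act_mk, map_mul, inl_aut, map_inv, map_inv, map_inv, mul_assoc,
    inv_mul_cancel_right, ← mul_assoc]
  rfl

theorem card_TPC {N Q : Type*} [Group N] [Group Q] {φ : Q →* MulAut N} [Finite (N ⋊[φ] Q)]
    (E : Subgroup (N ⋊[φ] Q)) {B : Subgroup Q} [Finite B] (h : E ≤ B.comap rightHom) :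
    Nat.card E ≤ Nat.card B * Nat.card (E.comap inl) := by
  have : Finite N := Finite.of_injective _ (inl_injective (φ := φ))
  have h1 : ∀ x : ((rightHom : N ⋊[φ] Q →* Q).comp E.subtype).ker, inl x.1.1.left = x.1.1 := fun x =>
    SemidirectProduct.ext rfl (MonoidHom.mem_ker.1 x.2).symm
  rw [← ((rightHom : N ⋊[φ] Q →* Q).comp E.subtype).ker.index_mul_card, Subgroup.index_ker]
  refine Nat.mul_le_mul (Subgroup.card_le_of_le ?_) (Nat.card_le_card_of_injective
    (fun x => ⟨x.1.1.left, Subgroup.mem_comap.2 ((h1 x).symm ▸ x.1.2)⟩) fun x y hxy => ?_)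
  · rintro _ ⟨x, rfl⟩
    exact h x.2
  · refine Subtype.ext (Subtype.ext ?_)
    rw [← h1 x, ← h1 y]
    exact congrArg (fun z : E.comap inl => inl z.1) hxy

theorem pc_tw {s m : ℕ} (hm : Odd m) {K : Type} [Field K] [Finite K] (h2 : (2 : K) ≠ 0)
    {β : Fin s → RingAut K × ℤˣ} (hβ : Ind β) {Γ : Subgroup (GL (Fin (m + 1 + 1)) K)}
    {W : Subgroup Kˣ} (hΓ : DetHyp β Γ W) {E : Fin s ⊕ Fin (m + 1) → K}
    {S : Fin s ⊕ Fin (m + 1) → Finset (K × K)} (hrot : RotHyp β Γ E S) (hE : ∀ j, E j ≠ 0)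
    {r a₀ : ℕ} (hs : ∀ j, Nat.card K ^ 2 ≤ r * (S j).card) (h0 : 0 < a₀)
    (hr : 2 * ((s + 1) * r + (1 + Nat.card W) * a₀ * a₀) ≤ a₀ * (Nat.card K + 1))
    {L : Subgroup (ProjGenLinGroup (Fin (m + 1 + 1)) K)} (h1 : ∀ g ∈ Γ, ∀ k, tg (m + 1) K g k ∈ L)
    (h3 : ∀ g ∈ Γ, ∀ i, ProjGenLinGroup.mk (g * (al (β i).1 (β i).2 g)⁻¹) ∈ L) :
    PC (G := MM (m + 1 + 1) K) (L.map inl)
      (L.map inl ⊔ (Subgroup.closure (Set.range β)).map inr) := by
  classical
  have := fin_MM (m + 1 + 1) K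
  have := Fintype.ofFinite K
  have := Fintype.ofFinite Γ
  have : Finite (RingAut K × ℤˣ) :=
    Finite.of_injective _ (inr_injective (φ := act (m + 1 + 1) K))
  have : Finite (ProjGenLinGroup (Fin (m + 1 + 1)) K) :=
    Finite.of_surjective _ ProjGenLinGroup.mk_surjective
  let J : Fin (m + 1) → Fin (s + 1) → Fin s ⊕ Fin (m + 1) := fun k =>
    Fin.cases (Sum.inr k) fun i => if k = 0 then Sum.inl i else Sum.inr k
  rw [Nat.card_eq_fintype_card (α := K)] at hs hr
  obtain ⟨X₀, ψ, z, hc, hψ⟩ := psi_W h2 W (fun k i => E (J k i)) (fun k i => S (J k i))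
    (fun _ _ => hE _) (fun _ _ => (hrot _).1) (fun _ _ => hs _) h0 hr
  have hv : ∀ j, VanE ψ (pos j) (E j) (S j) := by
    rintro (i | k)
    · exact hψ 0 i.succ
    · exact hψ k 0
  have hS : Sys (fun g : Γ => tw m β g) (fun g => w1 ψ z g) 1 :=
    ⟨fun g => tw_sq hβ g.1, fun g => tw_comm hβ g.1, fun g => tw_indep h2 hβ g.1,
      tw_face hrot hv z, by simpa [w1] using hc.ne, fun g hw he => (tw_det h2 hβ hΓ hc g.2 hw he).1,
      fun g hw he => (tw_det h2 hβ hΓ hc g.2 hw he).2⟩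
  let e := Fintype.orderIsoFinOfCardEq (Lex (Fin s ⊕ Fin (m + 1))) (k := s + (m + 1)) (by simp)
  have hS' := hS.reindex e
  have hH : ∀ g ∈ Γ, Subgroup.closure (Set.range (tw m β g)) ≤
      L.map inl ⊔ (Subgroup.closure (Set.range β)).map inr := fun g hg => by
    rw [tw_range, Subgroup.closure_le]
    rintro _ (⟨i, rfl⟩ | ⟨k, -, rfl⟩)
    · simp only [inl_TPC]
      exact Subgroup.mul_mem_sup (Subgroup.mem_map_of_mem _ (h3 g hg i))
        (Subgroup.mem_map_of_mem _ (Subgroup.subset_closure ⟨i, rfl⟩))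
    · exact Subgroup.mem_sup_left (Subgroup.mem_map_of_mem _ (h1 g hg k))
  have he : Set.range (fun j => tw m β ((1 : Γ) : GL (Fin (m + 1 + 1)) K) (e j)) =
      Set.range (tw m β 1) := e.surjective.range_comp (tw m β 1)
  refine ⟨s + (m + 1), Γ, inferInstance, _, _, 1, hS',
    fun g j => hH g g.2 (Subgroup.subset_closure ⟨_, rfl⟩), ?_, ?_,
    max_of_rank (fun j => hH 1 Γ.one_mem (Subgroup.subset_closure ⟨_, rfl⟩)) (hS'.sq 1)
      (hS'.comm 1) (card_closure (hS'.sq 1) (hS'.comm 1) (hS'.indep 1)) fun A hA h4 h5 => ?_⟩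
  · rw [he]
    refine le_antisymm (sup_le le_sup_left (hH 1 Γ.one_mem)) (sup_le_sup_left ?_ _)
    rw [← clr_Map]
    refine Subgroup.closure_mono ?_
    rintro _ ⟨i, rfl⟩
    exact ⟨toLex (Sum.inl i), by simp [tw, tw0]⟩
  · rw [he, tw_range]
    refine ⟨inl (tg (m + 1) K 1 0), Subgroup.mem_map_of_mem _ (h1 1 Γ.one_mem 0), fun h =>
      tg_indep h2 1 (0 : Fin (m + 1)) ?_, Subgroup.subset_closure (Or.inr ⟨0, trivial, rfl⟩)⟩
    rw [inl_injective (φ := act _ K) (h.trans (map_one inl).symm)]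
    exact Subgroup.one_mem _
  · obtain ⟨d, hd⟩ := hm
    refine (card_TPC A (B := Subgroup.closure (Set.range β)) (hA.trans (sup_le ?_ ?_))).trans ?_
    · rintro _ ⟨y, -, rfl⟩
      exact (Subgroup.closure (Set.range β)).one_mem
    · rintro _ ⟨y, hy, rfl⟩
      exact hy
    · rw [card_closure hβ.sq hβ.comm hβ.indep, pow_add]
      exact Nat.mul_le_mul_left _ (pgl_rank h2 (Nat.succ_pos _) (by omega) (by omega) _
        (fun x hx y hy => inl_injective (φ := act _ K)
          (by rw [map_mul, map_mul]; exact h4 _ hx _ hy))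
        fun x hx => inl_injective (φ := act _ K) (by rw [map_pow, map_one]; exact h5 _ hx))

end Vale.Agent.P240
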