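import Vale.Agent.P240.D.Psi
import Vale.Agent.P240.T.Defs

/-! P240 T/Psi. As D/Psi.lean with d = 1. Plan: Sq = squares, 2 card Sq >= q + 1. X0 = a set of a0
nonzero squares such that x, mu x in X0 with mu in W forces mu = 1 (greedy induction: a nonzero square
outside W X0 exists while card W * card X0 < card Sq - 1). X1 k = Sq minus {x | mu x in X0 for some mu
in W}, card >= card Sq - card W * a0. R = Fin t times Fin r, key_rot with d1 = d2 = 1, gs2. -/

namespace Vale.Agent.P240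

open Matrix SemidirectProduct

theorem bad_TPsi {K : Type} [Field K] [Fintype K] [DecidableEq K] (W : Subgroup Kˣ)
    (X : Finset K) : ∃ B : Finset K, B.card ≤ Nat.card W * X.card ∧
      ∀ x, ∀ μ ∈ W, (μ : K) * x ∈ X → x ∈ B := by
  have := Fintype.ofFinite W
  refine ⟨((Finset.univ : Finset W) ×ˢ X).image fun p => ((p.1.1⁻¹ : Kˣ) : K) * p.2, ?_,
    fun x μ hμ h => Finset.mem_image.2 ⟨(⟨μ, hμ⟩, μ * x),
      Finset.mem_product.2 ⟨Finset.mem_univ _, h⟩, Units.inv_mul_cancel_left μ x⟩⟩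
  refine Finset.card_image_le.trans ?_
  rw [Finset.card_product, Finset.card_univ, Nat.card_eq_fintype_card]

theorem free_TPsi {K : Type} [Field K] [Fintype K] [DecidableEq K] (W : Subgroup Kˣ)
    (T : Finset K) (a : ℕ) (h : (1 + Nat.card W) * a ≤ T.card) :
    ∃ X : Finset K, X ⊆ T ∧ X.card = a ∧ ∀ x ∈ X, ∀ μ ∈ W, (μ : K) * x ∈ X → μ = 1 := by
  induction a with
  | zero => exact ⟨∅, Finset.empty_subset _, rfl, fun x hx => absurd hx (Finset.notMem_empty x)⟩
  | succ a ih =>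
    obtain ⟨X, h1, h2, h3⟩ := ih ((Nat.mul_le_mul_left _ a.le_succ).trans h)
    obtain ⟨B, hB, hB'⟩ := bad_TPsi W X
    have hw : 0 < Nat.card W := Nat.card_pos
    have h4 : (insert 0 B).card < T.card := by
      have h5 := Finset.card_insert_le 0 B
      rw [h2] at hB
      nlinarith
    obtain ⟨y, hy, hy'⟩ := Finset.exists_mem_notMem_of_card_lt_card h4
    rw [Finset.mem_insert, not_or] at hy'
    have hyX : y ∉ X := fun h' => hy'.2 (hB' y 1 W.one_mem (by rwa [Units.val_one, one_mul]))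
    refine ⟨insert y X, Finset.insert_subset hy h1, by rw [Finset.card_insert_of_notMem hyX, h2],
      fun x hx μ hμ hm => ?_⟩
    rcases Finset.mem_insert.1 hx with rfl | hx <;> rcases Finset.mem_insert.1 hm with hm | hm
    · exact Units.ext (mul_right_cancel₀ hy'.1 (hm.trans (one_mul x).symm))
    · exact absurd (hB' x μ hμ hm) hy'.2
    · refine absurd (hB' y μ⁻¹ (W.inv_mem hμ) ?_) hy'.2
      rwa [← hm, Units.inv_mul_cancel_left]
    · exact h3 x hx μ hμ hm

theorem psi_W {K : Type} [Field K] [Fintype K] [DecidableEq K] (h2 : (2 : K) ≠ 0) {m t r a₀ : ℕ}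
    (W : Subgroup Kˣ) (E : Fin m → Fin t → K) (S : Fin m → Fin t → Finset (K × K))
    (hE : ∀ k i, E k i ≠ 0) (hS : ∀ k i, Rot (E k i) (S k i))
    (hs : ∀ k i, Fintype.card K ^ 2 ≤ r * (S k i).card) (h0 : 0 < a₀)
    (hr : 2 * (t * r + (1 + Nat.card W) * a₀ * a₀) ≤ a₀ * (Fintype.card K + 1)) :
    ∃ (X₀ : Finset K) (ψ : (Fin (m + 1) → K) → ℚ) (z : Fin (m + 1) → K),
      Col W X₀ ψ z ∧ ∀ k i, VanE ψ k (E k i) (S k i) := by
  have h1 := sq_Psi (F := K)
  have hq : 0 < Fintype.card K := Fintype.card_pos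
  obtain ⟨Q, hQ⟩ : ∃ Q, Q = (Finset.univ.image fun a : K => a ^ 2).card := ⟨_, rfl⟩
  rw [← hQ] at h1
  have h3 : t * r + (1 + Nat.card W) * a₀ * a₀ ≤ a₀ * Q := by
    have := Nat.mul_le_mul_left a₀ h1
    nlinarith
  have h4 : (1 + Nat.card W) * a₀ ≤ Q := by
    refine Nat.le_of_mul_le_mul_left ?_ h0
    nlinarith [Nat.zero_le (t * r)]
  obtain ⟨X₀, hX, h5, hfree⟩ := free_TPsi W (Finset.univ.image fun a : K => a ^ 2) a₀ (hQ ▸ h4)
  obtain ⟨B, hB, hB'⟩ := bad_TPsi W X₀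
  have hc : ∀ k i, ∃ f : Fin r → K → K → ℚ, ∀ a ∈ Finset.univ.image fun y : K × K =>
      wS (S k i) 1 1 (E k i) y.1 y.2, ∃ j, f j = a := by
    intro k i
    refine cover_DPsi _ ?_
    have h6 := key_rot h2 (hE k i) (hS k i) 1 1
    have h7 := hs k i
    refine Nat.lt_succ_iff.1 (Nat.lt_of_mul_lt_mul_right (a := (S k i).card) ?_)
    rw [Nat.succ_mul]
    omega
  choose f hf using hc
  obtain ⟨b, hb⟩ := Nat.exists_eq_add_of_le
    ((Nat.mul_le_mul_right a₀ (Nat.le_add_left (Nat.card W) 1)).trans h4)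
  obtain ⟨ψ, hψ, h6, h7⟩ := gs2 m (fun k (ρ : Fin t × Fin r) => f k ρ.1 ρ.2) X₀
    (fun _ => (Finset.univ.image fun a : K => a ^ 2) \ B) b
    (fun k => by
      have h8 := Finset.le_card_sdiff B (Finset.univ.image fun a : K => a ^ 2)
      rw [← hQ] at h8
      rw [h5] at hB
      omega) (Finset.card_pos.mp (by omega)) (by
      rw [Fintype.card_prod, Fintype.card_fin, Fintype.card_fin, h5]
      rw [hb] at h3
      nlinarith)
  obtain ⟨x, hx⟩ := Function.ne_iff.mp hψ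
  have h8 : ∀ i, ∃ a : K, a ^ 2 = x i := fun i => by
    have h9 : x i ∈ Finset.univ.image fun a : K => a ^ 2 := by
      refine Fin.lastCases (hX (h6 x hx).1) (fun k => ?_) i
      exact (Finset.mem_sdiff.mp ((h6 x hx).2 k)).1
    obtain ⟨a, -, ha⟩ := Finset.mem_image.mp h9
    exact ⟨a, ha⟩
  choose z hz using h8
  refine ⟨X₀, ψ, z, ⟨?_, fun y hy => (h6 y hy).1, fun y hy k μ hμ h =>
    (Finset.mem_sdiff.mp ((h6 y hy).2 k)).2 (hB' _ μ hμ h), hfree⟩, fun k i y u v => ?_⟩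
  · rw [funext hz]
    exact hx
  · have h10 := sum_DPsi (S k i) 1 1 (E k i) u v fun s t => ψ (upd y k s t)
    simp only [one_mul] at h10
    rw [h10]
    obtain ⟨j, hj⟩ := hf k i _ (Finset.mem_image.mpr ⟨(u, v), Finset.mem_univ _, rfl⟩)
    have h9 := h7 y k (i, j)
    simp only [hj] at h9
    exact h9

end Vale.Agent.P240
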