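import Vale.Agent.P240.D.Det
import Vale.Agent.P240.T.Defs

/-! P240 T/SysA. Structure of the twisted tuples. Plan: inr q commutes with hat (rho k) (inl_aut, act_mk,
al_dg); hat g * hat (rho k) * (hat g)⁻¹ = inl (tg g k). tw_struct: conjugate by hat g; every element
of closure (range (inr comp beta) union hat (rho) '' T) is inl y * inr q with y in closure (tg 1 '' T);
compare the left components. tw_indep: for j = inr k use tw_struct and tg_indep. For j = inl i every
element of the closure of the others is inl y * inr q with either q in closure of the other beta and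
y in closure of rho k (k nonzero), or q * beta i in that closure and y * rho 0 in that closure. -/

namespace Vale.Agent.P240

open Matrix SemidirectProduct

variable {s m : ℕ} {K : Type} [Field K] {β : Fin s → RingAut K × ℤˣ}

theorem conj_TSysA {G : Type*} [Group G] (a : G) {S : Set G} {H : Subgroup G}
    (hS : ∀ x ∈ S, a⁻¹ * x * a ∈ H) {x : G} (hx : x ∈ Subgroup.closure S) : a⁻¹ * x * a ∈ H := by
  induction hx using Subgroup.closure_induction with
  | mem x hx => exact hS x hx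
  | one => simp
  | mul x y _ _ h1 h2 =>
    have h3 : a⁻¹ * (x * y) * a = a⁻¹ * x * a * (a⁻¹ * y * a) := by group
    exact h3 ▸ H.mul_mem h1 h2
  | inv x _ h1 =>
    have h3 : a⁻¹ * x⁻¹ * a = (a⁻¹ * x * a)⁻¹ := by group
    exact h3 ▸ H.inv_mem h1

theorem comm_TSysA {G ι : Type*} [Group G] {f : ι → G} (hc : ∀ i j, f i * f j = f j * f i) {x y : G}
    (hx : x ∈ Subgroup.closure (Set.range f)) (hy : y ∈ Subgroup.closure (Set.range f)) :
    x * y = y * x := by
  have h1 : ∀ i, f i ∈ Subgroup.centralizer {y} := fun i => by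
    refine Subgroup.mem_centralizer_singleton_iff.2
      (Subgroup.mem_centralizer_singleton_iff.1 ((Subgroup.closure_le _).2 ?_ hy)).symm
    rintro _ ⟨j, rfl⟩
    exact Subgroup.mem_centralizer_singleton_iff.2 (hc j i)
  exact Subgroup.mem_centralizer_singleton_iff.1
    ((Subgroup.closure_le _).2 (Set.range_subset_iff.2 h1) hx)

theorem sq_TSysA {G ι : Type*} [Group G] {f : ι → G} (hc : ∀ i j, f i * f j = f j * f i)
    (hs : ∀ i, f i * f i = 1) {x : G} (hx : x ∈ Subgroup.closure (Set.range f)) : x * x = 1 := by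
  induction hx using Subgroup.closure_induction with
  | mem x hx =>
    obtain ⟨i, rfl⟩ := hx
    exact hs i
  | one => simp
  | mul x y hx hy h1 h2 =>
    rw [mul_assoc, ← mul_assoc y, ← comm_TSysA hc hx hy, mul_assoc x, h2, mul_one, h1]
  | inv x _ h1 => rw [← _root_.mul_inv_rev, h1, inv_one]

theorem two_TSysA {G : Type*} [Group G] {H : Subgroup G} {u : G} (hu : u * u = 1)
    (hc : ∀ x ∈ H, x * u = u * x) {S : Set G} (hS : ∀ x ∈ S, x ∈ H ∨ x * u ∈ H) {x : G}
    (hx : x ∈ Subgroup.closure S) : x ∈ H ∨ x * u ∈ H := by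
  induction hx using Subgroup.closure_induction with
  | mem x hx => exact hS x hx
  | one => exact Or.inl H.one_mem
  | mul x y _ _ h1 h2 =>
    rcases h1 with h1 | h1 <;> rcases h2 with h2 | h2
    · exact Or.inl (H.mul_mem h1 h2)
    · exact Or.inr (by rw [mul_assoc]; exact H.mul_mem h1 h2)
    · exact Or.inr (by rw [mul_assoc, hc y h2, ← mul_assoc]; exact H.mul_mem h1 h2)
    · have h3 := H.mul_mem h1 h2
      rw [mul_assoc, ← hc _ h2, mul_assoc y, hu, mul_one] at h3
      exact Or.inl h3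
  | inv x _ h1 =>
    rcases h1 with h1 | h1
    · exact Or.inl (H.inv_mem h1)
    · have h3 := H.inv_mem h1
      have h4 := hc _ h3
      rw [_root_.mul_inv_rev, inv_eq_of_mul_eq_one_right hu] at h3 h4
      rw [mul_assoc, mul_right_inj] at h4
      exact Or.inr (h4 ▸ h3)

theorem hat_TSysA (k : Fin (m + 1)) :
    hat (rho (m + 1) K k) = (inl (tg (m + 1) K 1 k) : MM (m + 1 + 1) K) := by
  rw [tg, one_mul, inv_one, mul_one]
  rfl

theorem fix_TSysA (q : RingAut K × ℤˣ) {T : Set (Fin (m + 1))}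
    {y : ProjGenLinGroup (Fin (m + 1 + 1)) K} (hy : y ∈ Subgroup.closure (tg (m + 1) K 1 '' T)) :
    act (m + 1 + 1) K q y = y := by
  induction hy using Subgroup.closure_induction with
  | mem x hx =>
    obtain ⟨k, -, rfl⟩ := hx
    rw [tg, one_mul, inv_one, mul_one, act_mk, rho, al_dg]
    intro i
    split_ifs <;> simp
  | one => simp
  | mul x y _ _ h1 h2 => rw [map_mul, h1, h2]
  | inv x _ h1 => rw [map_inv, h1]

/-- Diagonal signs times outer automorphisms. -/
def E_TSysA (T : Set (Fin (m + 1))) (Q : Subgroup (RingAut K × ℤˣ)) :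
    Subgroup (MM (m + 1 + 1) K) :=
  NN (Subgroup.closure (tg (m + 1) K 1 '' T)) Q fun q _ y hy => by
    rw [fix_TSysA q hy]
    exact hy

theorem p_TSysA : (List.ofFn β).prod ∈ Subgroup.closure (Set.range β) :=
  Subgroup.list_prod_mem _ fun _ hx => Subgroup.subset_closure (List.mem_ofFn.1 hx)

theorem mem_TSysA (j : Fin s ⊕ Fin (m + 1)) :
    tw0 m β j ∈ E_TSysA Set.univ (Subgroup.closure (Set.range β)) := by
  have h1 : ∀ k, hat (rho (m + 1) K k) ∈ E_TSysA Set.univ (Subgroup.closure (Set.range β)) :=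
    fun k => by
      rw [hat_TSysA]
      exact ⟨Subgroup.subset_closure ⟨k, trivial, rfl⟩, one_mem _⟩
  rcases j with i | k
  · exact ⟨one_mem _, Subgroup.subset_closure ⟨i, rfl⟩⟩
  · rw [tw0]
    split_ifs
    · exact mul_mem ⟨one_mem _, p_TSysA⟩ (h1 0)
    · exact h1 k

theorem ec_TSysA (hβ : Ind β) {x y : MM (m + 1 + 1) K}
    (hx : x ∈ E_TSysA Set.univ (Subgroup.closure (Set.range β)))
    (hy : y ∈ E_TSysA Set.univ (Subgroup.closure (Set.range β))) : x * y = y * x := by
  refine SemidirectProduct.ext ?_ (comm_TSysA hβ.comm hx.2 hy.2)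
  rw [mul_left, mul_left, fix_TSysA _ hx.1, fix_TSysA _ hy.1]
  exact comm_TSysA (tg_comm 1) (Set.image_univ ▸ hx.1) (Set.image_univ ▸ hy.1)

theorem es_TSysA (hβ : Ind β) {x : MM (m + 1 + 1) K}
    (hx : x ∈ E_TSysA Set.univ (Subgroup.closure (Set.range β))) : x * x = 1 := by
  refine SemidirectProduct.ext ?_ (sq_TSysA hβ.comm hβ.sq hx.2)
  rw [mul_left, fix_TSysA _ hx.1]
  exact sq_TSysA (tg_comm 1) (tg_sq 1) (Set.image_univ ▸ hx.1)

theorem tg_TSysA (g : GL (Fin (m + 1 + 1)) K) (k : Fin (m + 1)) :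
    (inl (tg (m + 1) K g k) : MM (m + 1 + 1) K) = hat g * hat (rho (m + 1) K k) * (hat g)⁻¹ := by
  rw [← map_inv, ← map_mul, ← map_mul]
  rfl

theorem inr_TSysA (g : GL (Fin (m + 1 + 1)) K) (k : Fin (m + 1)) :
    ∃ P ∈ Subgroup.closure (Set.range fun i => tw m β g (toLex (Sum.inl i))),
      tw m β g (toLex (Sum.inr k)) = P * inl (tg (m + 1) K g k) := by
  rw [tg_TSysA, tw, ofLex_toLex, tw0]
  split_ifs with h
  · subst h
    refine ⟨hat g * inr (List.ofFn β).prod * (hat g)⁻¹, ?_, (conj_mul ..).symm⟩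
    have h1 : (inr (List.ofFn β).prod : MM (m + 1 + 1) K) ∈
        Subgroup.closure (inr '' Set.range β) := by
      rw [← MonoidHom.map_closure]
      exact ⟨_, p_TSysA, rfl⟩
    have h2 := conj_TSysA (hat g)⁻¹
      (H := Subgroup.closure (Set.range fun i => tw m β g (toLex (Sum.inl i)))) (by
        rintro _ ⟨_, ⟨i, rfl⟩, rfl⟩
        rw [inv_inv]
        exact Subgroup.subset_closure ⟨i, rfl⟩) h1
    rwa [inv_inv] at h2
  · exact ⟨1, one_mem _, (one_mul _).symm⟩

theorem cl_TSysA (g : GL (Fin (m + 1 + 1)) K) (T : Set (Fin (m + 1)))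
    {J : Set (Lex (Fin s ⊕ Fin (m + 1)))} (h1 : ∀ i, toLex (Sum.inl i) ∈ J)
    (h2 : ∀ k, toLex (Sum.inr k) ∈ J ↔ k ∈ T) :
    Subgroup.closure (tw m β g '' J) = Subgroup.closure
      (Set.range (fun i => tw m β g (toLex (Sum.inl i))) ∪
        (fun k => inl (tg (m + 1) K g k)) '' T) := by
  refine le_antisymm ((Subgroup.closure_le _).2 ?_) ((Subgroup.closure_le _).2 ?_)
  · rintro _ ⟨j, hj, rfl⟩
    obtain ⟨i | k, rfl⟩ := toLex.surjective j
    · exact Subgroup.subset_closure (Or.inl ⟨i, rfl⟩)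
    · obtain ⟨P, hP, e⟩ := inr_TSysA (β := β) g k
      rw [e]
      exact mul_mem (Subgroup.closure_mono Set.subset_union_left hP)
        (Subgroup.subset_closure (Or.inr ⟨k, (h2 k).1 hj, rfl⟩))
  · rintro _ (⟨i, rfl⟩ | ⟨k, hk, rfl⟩)
    · exact Subgroup.subset_closure ⟨_, h1 i, rfl⟩
    · obtain ⟨P, hP, e⟩ := inr_TSysA (β := β) g k
      have h3 : P ∈ Subgroup.closure (tw m β g '' J) := by
        refine Subgroup.closure_mono ?_ hP
        rintro _ ⟨i, rfl⟩
        exact ⟨_, h1 i, rfl⟩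
      refine (Subgroup.mul_mem_cancel_left _ h3).1 ?_
      rw [← e]
      exact Subgroup.subset_closure ⟨_, (h2 k).2 hk, rfl⟩

theorem prod_TSysA (hβ : Ind β) (i : Fin s) (l : List (Fin s)) (hl : l.Nodup) :
    (i ∉ l → (l.map β).prod ∈ Subgroup.closure (β '' {i' | i' ≠ i})) ∧
      (i ∈ l → (l.map β).prod * β i ∈ Subgroup.closure (β '' {i' | i' ≠ i})) := by
  induction l with
  | nil => simp
  | cons a l ih =>
    obtain ⟨h1, h2⟩ := List.nodup_cons.1 hl
    rw [List.map_cons, List.prod_cons]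
    by_cases h : a = i
    · subst h
      refine ⟨fun h3 => absurd List.mem_cons_self h3, fun _ => ?_⟩
      have h3 := (ih h2).1 h1
      rwa [comm_TSysA hβ.comm (Subgroup.subset_closure ⟨a, rfl⟩)
        (Subgroup.closure_mono (Set.image_subset_range _ _) h3), mul_assoc, hβ.sq, mul_one]
    · have h3 : β a ∈ Subgroup.closure (β '' {i' | i' ≠ i}) := Subgroup.subset_closure ⟨a, h, rfl⟩
      refine ⟨fun h4 => mul_mem h3 ((ih h2).1 fun h5 => h4 (List.mem_cons_of_mem _ h5)),
        fun h4 => ?_⟩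
      rw [mul_assoc]
      exact mul_mem h3 ((ih h2).2 ((List.mem_cons.1 h4).resolve_left (Ne.symm h)))

theorem tw_sq (hβ : Ind β) (g : GL (Fin (m + 1 + 1)) K) (j : Lex (Fin s ⊕ Fin (m + 1))) :
    tw m β g j * tw m β g j = 1 := by
  rw [tw, conj_mul, es_TSysA hβ (mem_TSysA _), mul_one, mul_inv_cancel]

theorem tw_comm (hβ : Ind β) (g : GL (Fin (m + 1 + 1)) K) (j j' : Lex (Fin s ⊕ Fin (m + 1))) :
    tw m β g j * tw m β g j' = tw m β g j' * tw m β g j := by
  rw [tw, tw, conj_mul, conj_mul, ec_TSysA hβ (mem_TSysA _) (mem_TSysA _)]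

theorem tw_struct (g : GL (Fin (m + 1 + 1)) K) (T : Set (Fin (m + 1)))
    {y : ProjGenLinGroup (Fin (m + 1 + 1)) K}
    (hy : (inl y : MM (m + 1 + 1) K) ∈ Subgroup.closure
      (Set.range (fun i => tw m β g (toLex (Sum.inl i))) ∪ (fun k => inl (tg (m + 1) K g k)) '' T)) :
    y ∈ Subgroup.closure (tg (m + 1) K g '' T) := by
  have h1 := conj_TSysA (hat g) (H := E_TSysA T ⊤) (by
    rintro _ (⟨i, rfl⟩ | ⟨k, hk, rfl⟩)
    · simp only [tw, ← mul_assoc, inv_mul_cancel, one_mul, inv_mul_cancel_right]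
      exact ⟨one_mem _, trivial⟩
    · simp only [tg_TSysA g, ← mul_assoc, inv_mul_cancel, one_mul, inv_mul_cancel_right,
        hat_TSysA]
      exact ⟨Subgroup.subset_closure ⟨k, hk, rfl⟩, trivial⟩) hy
  have h2 : (hat g)⁻¹ * inl y * hat g = (inl ((ProjGenLinGroup.mk g)⁻¹ * y * ProjGenLinGroup.mk g) :
      MM (m + 1 + 1) K) := by
    rw [map_mul, map_mul, map_inv]
    rfl
  rw [h2] at h1
  have h3 := conj_TSysA (ProjGenLinGroup.mk g)⁻¹ (H := Subgroup.closure (tg (m + 1) K g '' T)) (by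
    rintro _ ⟨k, hk, rfl⟩
    refine Subgroup.subset_closure ⟨k, hk, ?_⟩
    simp [tg]) h1.1
  simpa [mul_assoc] using h3

theorem tw_range (g : GL (Fin (m + 1 + 1)) K) :
    Subgroup.closure (Set.range (tw m β g)) = Subgroup.closure
      (Set.range (fun i => tw m β g (toLex (Sum.inl i))) ∪
        (fun k => inl (tg (m + 1) K g k)) '' Set.univ) := by
  rw [← Set.image_univ]
  exact cl_TSysA g _ (fun _ => trivial) fun _ => Iff.rfl

theorem tw_Iic (g : GL (Fin (m + 1 + 1)) K) (k : Fin (m + 1)) :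
    Subgroup.closure (tw m β g '' Set.Iic (toLex (Sum.inr k))) = Subgroup.closure
      (Set.range (fun i => tw m β g (toLex (Sum.inl i))) ∪
        (fun k => inl (tg (m + 1) K g k)) '' Set.Iic k) := by
  exact cl_TSysA g _ (fun _ => Sum.Lex.inl_le_inr _ _) fun _ => Sum.Lex.inr_le_inr_iff

theorem tw_indep (h2 : (2 : K) ≠ 0) (hβ : Ind β) (g : GL (Fin (m + 1 + 1)) K)
    (j : Lex (Fin s ⊕ Fin (m + 1))) :
    tw m β g j ∉ Subgroup.closure (tw m β g '' {j' | j' ≠ j}) := by
  intro h
  obtain ⟨i | k, rfl⟩ := toLex.surjective j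
  · have hu : (⟨tg (m + 1) K 1 0, β i⟩ : MM (m + 1 + 1) K) ∈
        E_TSysA Set.univ (Subgroup.closure (Set.range β)) :=
      ⟨Subgroup.subset_closure ⟨0, trivial, rfl⟩, Subgroup.subset_closure ⟨i, rfl⟩⟩
    have h1 := conj_TSysA (hat g) (H := Subgroup.closure (tw0 m β '' {j' | j' ≠ Sum.inl i})) (by
      rintro _ ⟨j', hj, rfl⟩
      simp only [tw, ← mul_assoc, inv_mul_cancel, one_mul, inv_mul_cancel_right]
      exact Subgroup.subset_closure ⟨ofLex j', hj, rfl⟩) h
    simp only [tw, ← mul_assoc, inv_mul_cancel, one_mul, inv_mul_cancel_right, ofLex_toLex] at h1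
    have h3 := two_TSysA (H := E_TSysA {k | k ≠ 0} (Subgroup.closure (β '' {i' | i' ≠ i})))
      (es_TSysA hβ hu) (fun x hx => ec_TSysA hβ
        ⟨Subgroup.closure_mono (Set.image_mono (Set.subset_univ _)) hx.1,
          Subgroup.closure_mono (Set.image_subset_range _ _) hx.2⟩ hu) (by
      rintro _ ⟨i' | k, hj, rfl⟩
      · exact Or.inl ⟨one_mem _, Subgroup.subset_closure ⟨i', fun e => hj (e ▸ rfl), rfl⟩⟩
      · rw [tw0, hat_TSysA, hat_TSysA]
        split_ifs with hk
        · refine Or.inr ⟨?_, ?_⟩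
          · simp only [mul_left, left_inr, right_inr, left_inl, one_mul, mul_right, right_inl,
              mul_one, ← map_mul, tg_sq, map_one]
            exact one_mem _
          · simp only [mul_right, right_inr, right_inl, mul_one, List.ofFn_eq_map]
            exact (prod_TSysA hβ i _ (List.nodup_finRange s)).2 (List.mem_finRange i)
        · exact Or.inl ⟨Subgroup.subset_closure ⟨k, hk, rfl⟩, one_mem _⟩) h1
    rcases h3 with h3 | h3
    · exact hβ.indep i h3.2
    · have h4 := h3.1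
      rw [mul_left, fix_TSysA _ hu.1] at h4
      exact tg_indep h2 1 0 (by simpa [tw0] using h4)
  · rw [cl_TSysA g {k' | k' ≠ k} (J := {j' | j' ≠ toLex (Sum.inr k)})
      (fun _ e => Sum.inl_ne_inr (toLex.injective e))
      fun _ => not_congr (toLex.injective.eq_iff.trans Sum.inr_injective.eq_iff)] at h
    obtain ⟨P, hP, e⟩ := inr_TSysA (β := β) g k
    rw [e, Subgroup.mul_mem_cancel_left _ (Subgroup.closure_mono Set.subset_union_left hP)] at h
    exact tg_indep h2 g k (tw_struct g _ h)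

end Vale.Agent.P240
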