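import Vale.Agent.P240.T.SysA

/-! P240 T/SysC. The monomial form. Plan: tg 1 k lies in closure (range (tg g)) by hE, tw_range and
tw_struct, so mono_gl gives sigma, lambda j = g (sigma j) j nonzero. First case of DetHyp:
lambda j ^ 2 = 1. Second case: tw g (inl i) * (inr (beta i))⁻¹ = inl (mk (g * (gT g)⁻¹)) lies in the
closure for g = 1, so by tw_struct and lift_mem g * transpose g is diagonal with all squares of entries
equal; with det g = 1 this gives (lambda j ^ 2) ^ (2 n) = 1, so lambda j ^ 2 in W. Colours: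
(g⁻¹ *ᵥ z) j ^ 2 = (lambda j ^ 2)⁻¹ * z (sigma j) ^ 2; Col.other gives sigma last = last and Col.free
gives lambda last ^ 2 = 1. -/

namespace Vale.Agent.P240

open Matrix SemidirectProduct

/-- Diagonal matrices whose entries have equal squares. -/
def sq_TSysC (n : ℕ) (K : Type) [Field K] : Subgroup (GL (Fin n) K) where
  carrier := {x | ∃ d : Fin n → Kˣ, (∀ a b, d a ^ 2 = d b ^ 2) ∧ dg d = x}
  one_mem' := ⟨1, fun _ _ => rfl, Units.ext (by simp [dg])⟩
  mul_mem' := by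
    rintro _ _ ⟨d, hd, rfl⟩ ⟨d', hd', rfl⟩
    exact ⟨d * d', fun a b => by simp only [Pi.mul_apply, mul_pow, hd a b, hd' a b],
      (dg_mul d d').symm⟩
  inv_mem' := by
    rintro _ ⟨d, hd, rfl⟩
    exact ⟨d⁻¹, fun a b => by simp only [Pi.inv_apply, inv_pow, hd a b], Units.ext rfl⟩

theorem mem_TSysC {m : ℕ} {K : Type} [Field K] {x : GL (Fin (m + 1)) K}
    (h : ProjGenLinGroup.mk x ∈ Subgroup.closure (tg m K 1 '' Set.univ)) :
    x ∈ sq_TSysC (m + 1) K := by
  have e : tg m K 1 '' Set.univ = ProjGenLinGroup.mk '' (rho m K '' Set.univ) := by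
    rw [Set.image_image]
    refine Set.image_congr fun k _ => ?_
    simp [tg]
  rw [e] at h
  refine lift_mem _ (fun y hy => ?_) ?_ h
  · rw [GeneralLinearGroup.center_eq_range_scalar] at hy
    obtain ⟨a, rfl⟩ := hy
    exact ⟨fun _ => a, fun _ _ => rfl, Units.ext rfl⟩
  · rintro _ ⟨k, -, rfl⟩
    refine ⟨_, fun a b => ?_, rfl⟩
    split_ifs <;> simp

theorem tw_mono {s m : ℕ} {K : Type} [Field K] (h2 : (2 : K) ≠ 0) {β : Fin s → RingAut K × ℤˣ}
    {Γ : Subgroup (GL (Fin (m + 1 + 1)) K)} {W : Subgroup Kˣ} (hΓ : DetHyp β Γ W) {X₀ : Finset K}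
    {ψ : (Fin (m + 1 + 1) → K) → ℚ} {z : Fin (m + 1 + 1) → K} (hc : Col W X₀ ψ z)
    {g : GL (Fin (m + 1 + 1)) K} (hg : g ∈ Γ) (hw : w1 ψ z g ≠ 0)
    (hE : Subgroup.closure (Set.range (tw m β g)) = Subgroup.closure (Set.range (tw m β 1))) :
    ∃ σ : Equiv.Perm (Fin (m + 1 + 1)),
      (∀ i j, i ≠ σ j → (g : Matrix (Fin (m + 1 + 1)) (Fin (m + 1 + 1)) K) i j = 0) ∧
      σ (Fin.last (m + 1)) = Fin.last (m + 1) ∧
      (g : Matrix (Fin (m + 1 + 1)) (Fin (m + 1 + 1)) K) (Fin.last _) (Fin.last _) ^ 2 = 1 ∧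
      GeneralLinearGroup.det g ^ 2 = 1 := by
  obtain ⟨σ, hσ⟩ := mono_gl h2 g fun k => by
    rw [← Set.image_univ]
    refine tw_struct (β := β) g Set.univ ?_
    rw [← tw_range, hE, tw_range]
    exact Subgroup.subset_closure (Or.inr ⟨k, trivial, rfl⟩)
  have h0 : ∀ b, (g : Matrix (Fin (m + 1 + 1)) (Fin (m + 1 + 1)) K) (σ b) b ≠ 0 := fun b hb => by
    have e := congrFun (congrFun g.inv_mul b) b
    rw [mul_apply, one_apply_eq, Finset.sum_eq_single (σ b)
      (fun i _ hi => by rw [hσ i b hi, mul_zero]) (fun hn => absurd (Finset.mem_univ _) hn), hb,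
      mul_zero] at e
    exact zero_ne_one e
  have key : (∀ j, ∃ μ ∈ W,
      (μ : K) = (g : Matrix (Fin (m + 1 + 1)) (Fin (m + 1 + 1)) K) (σ j) j ^ 2) ∧
      GeneralLinearGroup.det g ^ 2 = 1 := by
    rcases hΓ with h | ⟨i, h⟩
    · have h1 : (g : Matrix (Fin (m + 1 + 1)) (Fin (m + 1 + 1)) K)ᵀ * g = 1 := h hg
      refine ⟨fun j => ⟨1, W.one_mem, ?_⟩, Units.ext ?_⟩
      · have h3 := congrFun (congrFun h1 j) j
        rw [mul_apply, one_apply_eq, Finset.sum_eq_single (σ j)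
          (fun i _ hi => by rw [hσ i j hi, mul_zero]) (fun hn => absurd (Finset.mem_univ _) hn),
          transpose_apply] at h3
        rw [sq, h3, Units.val_one]
      · have h3 := congrArg det h1
        rw [det_mul, det_transpose, det_one] at h3
        simpa [sq] using h3
    obtain ⟨h1, h3, h4⟩ := h g hg
    refine ⟨fun j => ?_, by rw [h3, one_pow]⟩
    have h5 : (inl (ProjGenLinGroup.mk (g * (gT g)⁻¹)) : MM (m + 1 + 1) K) =
        tw m β g (toLex (Sum.inl i)) * (tw m β 1 (toLex (Sum.inl i)))⁻¹ := by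
      rw [map_mul, map_mul, map_inv, map_inv, ← h1, ← act_mk, inl_aut]
      simp only [tw, tw0, ofLex_toLex, hat, MonoidHom.comp_apply, map_one, map_inv]
      group
    obtain ⟨d, hd, e⟩ := mem_TSysC (x := g * (gT g)⁻¹) (tw_struct (β := β) 1 Set.univ (by
      rw [← tw_range, h5]
      exact Subgroup.mul_mem _ (hE ▸ Subgroup.subset_closure ⟨_, rfl⟩)
        (Subgroup.inv_mem _ (Subgroup.subset_closure ⟨_, rfl⟩))))
    have e1 : (diagonal fun a => (d a : K)) =
        (g : Matrix (Fin (m + 1 + 1)) (Fin (m + 1 + 1)) K) * (g : Matrix _ _ K)ᵀ :=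
      congrArg Units.val e
    have e2 : Units.mk0 _ (h0 j) ^ 2 = d (σ j) := Units.ext (by
      have e3 := congrFun (congrFun e1 (σ j)) (σ j)
      rw [mul_apply, diagonal_apply_eq, Finset.sum_eq_single j
        (fun i _ hi => by rw [hσ _ i (σ.injective.ne hi.symm), zero_mul])
        (fun hn => absurd (Finset.mem_univ _) hn), transpose_apply] at e3
      rw [e3, Units.val_pow_eq_pow_val, Units.val_mk0, sq])
    have e3 : ∏ a, d a = 1 := Units.ext (by
      have e4 := congrArg det e1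
      have e5 : det (g : Matrix (Fin (m + 1 + 1)) (Fin (m + 1 + 1)) K) = 1 := congrArg Units.val h3
      rw [det_mul, det_transpose, det_diagonal, e5, one_mul] at e4
      rw [Units.coe_prod, e4, Units.val_one])
    refine ⟨_, h4 (σ j) j (Units.mk0 _ (h0 j)) (fun a ha => hσ a j ha) rfl ?_, by simp⟩
    have e4 := Finset.prod_congr rfl fun a (_ : a ∈ Finset.univ) => hd (σ j) a
    rw [Finset.prod_pow, Finset.prod_pow, e3, one_pow, Finset.prod_const, Finset.card_univ,
      Fintype.card_fin] at e4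
    rw [e2, mul_comm, pow_mul, e4]
  obtain ⟨μ, hμ, e⟩ := key.1 (Fin.last _)
  have h1 := hc.last _ hw
  have h3 : (g : Matrix (Fin (m + 1 + 1)) (Fin (m + 1 + 1)) K) *ᵥ
      ((g⁻¹ : GL (Fin (m + 1 + 1)) K) : Matrix (Fin (m + 1 + 1)) (Fin (m + 1 + 1)) K) *ᵥ z = z := by
    rw [mulVec_mulVec, Units.mul_inv, one_mulVec]
  have h4 := congrArg (· ^ 2) (congrFun h3 (σ (Fin.last _)))
  rw [mulVec, dotProduct, Finset.sum_eq_single (Fin.last _)
    (fun i _ hi => by rw [hσ _ i (σ.injective.ne hi.symm), zero_mul])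
    (fun hn => absurd (Finset.mem_univ _) hn)] at h4
  simp only [mul_pow, ← e] at h4 h1
  have h5 : σ (Fin.last _) = Fin.last _ := by
    by_contra hn
    obtain ⟨k, hk⟩ := Fin.exists_castSucc_eq.2 hn
    refine hc.other _ hc.ne k μ⁻¹ (W.inv_mem hμ) ?_
    rwa [hk, ← h4, Units.inv_mul_cancel_left]
  rw [h5] at h4 e
  refine ⟨σ, hσ, h5, ?_, key.2⟩
  rw [← e, hc.free _ h1 μ hμ (h4 ▸ hc.last _ hc.ne), Units.val_one]

end Vale.Agent.P240
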